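import Vale.Agent.P240.R2.AS.Defs

/-!
P240 (Aschbacher-Smith unitary conjecture), module S3: the unitary group acts simply transitively on
the orthonormal bases, hence `|U_n(K)| = #(frames of K ^ n) * |{c : star c * c = 1}| ^ n`, for a
finite field `K` with any star.
-/

set_option autoImplicit false

namespace Vale.Agent.P240.R2.H715

open Finset Matrix
open Vale.Agent.P240.R2.AS
open scoped Classical

universe u

variable {K : Type u} [Field K] [StarRing K]

variable (K) in
/-- the elements of norm one -/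
abbrev N1 : Type u := {c : K // star c * c = 1}

lemma dot_col {n : ℕ} (g : Matrix.unitaryGroup (Fin n) K) (i j : Fin n) :
    star (fun k => g.1 k i) ⬝ᵥ (fun k => g.1 k j) = (1 : Matrix (Fin n) (Fin n) K) i j := by
  have h := Matrix.mem_unitaryGroup_iff'.1 g.2
  rw [← h]
  rfl

lemma dot_zero {n : ℕ} {x y : Fin n → K} (hx : star x ⬝ᵥ x = 1) (hy : star y ⬝ᵥ y = 1)
    (h : vecMulVec x (star x) * vecMulVec y (star y) = 0) : star x ⬝ᵥ y = 0 := by
  rw [vecMulVec_mul_vecMulVec] at h
  have h2 := congrArg (fun M => star x ⬝ᵥ (M *ᵥ y)) h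
  simp only [vecMulVec_mulVec, smul_dotProduct, dotProduct_smul, hy, zero_mulVec,
    dotProduct_zero] at h2
  simpa [hx] using h2

lemma dot_symm {n : ℕ} {x y : Fin n → K} (h : star x ⬝ᵥ y = 0) : star y ⬝ᵥ x = 0 := by
  rw [star_dotProduct, h, star_zero]

lemma eq_smul {n : ℕ} {x y : Fin n → K} (hy : star y ⬝ᵥ y = 1)
    (h : vecMulVec x (star x) = vecMulVec y (star y)) : y = (star x ⬝ᵥ y) • x := by
  have h2 := congrArg (fun M => M *ᵥ y) h
  simp only [vecMulVec_mulVec, hy] at h2
  simpa using h2.symm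

lemma smul_proj {n : ℕ} {x : Fin n → K} {c : K} (hc : star c * c = 1) :
    vecMulVec (c • x) (star (c • x)) = vecMulVec x (star x) := by
  rw [star_smul, smul_vecMulVec, vecMulVec_smul, smul_smul, mul_comm c, hc, one_smul]

/-- the frame of a unitary matrix -/
def fr {n : ℕ} (g : Matrix.unitaryGroup (Fin n) K) : List (Ln K n) :=
  List.ofFn (fun i => (⟨vecMulVec (fun k => g.1 k i) (star (fun k => g.1 k i)),
    (fun k => g.1 k i), by rw [dot_col]; simp, rfl⟩ : Ln K n))

lemma fr_orth {n : ℕ} (g : Matrix.unitaryGroup (Fin n) K) : Orth (fr g) := by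
  refine List.pairwise_ofFn.2 ?_
  intro i j hij
  show vecMulVec _ _ * vecMulVec _ _ = 0
  rw [vecMulVec_mul_vecMulVec, dot_col, Matrix.one_apply_ne hij.ne]
  simp

lemma exists_fr {n : ℕ} {w : List (Ln K n)} (hl : w.length = n) (hw : Orth w) :
    ∃ g : Matrix.unitaryGroup (Fin n) K, fr g = w := by
  obtain ⟨P, rfl⟩ : ∃ P : Fin n → Ln K n, List.ofFn P = w :=
    ⟨fun i => w.get (Fin.cast hl.symm i), by
      apply List.ext_get
      · simp [hl]
      · intro i h1 h2
        simp⟩
  have hw := List.pairwise_ofFn.1 hw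
  have h1 : ∀ i, ∃ x : Fin n → K, star x ⬝ᵥ x = 1 ∧ (P i).1 = vecMulVec x (star x) :=
    fun i => (P i).2
  choose x hx hP using h1
  have h2 : ∀ i j, i ≠ j → star (x i) ⬝ᵥ x j = 0 := by
    intro i j hij
    rcases lt_or_gt_of_ne hij with h | h
    · have := hw h
      rw [hP, hP] at this
      exact dot_zero (hx i) (hx j) this
    · have := hw h
      rw [hP, hP] at this
      exact dot_symm (dot_zero (hx j) (hx i) this)
  refine ⟨⟨Matrix.of (fun k i => x i k), ?_⟩, ?_⟩
  · rw [Matrix.mem_unitaryGroup_iff']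
    ext i j
    show star (x i) ⬝ᵥ x j = _
    by_cases hij : i = j
    · subst hij
      rw [hx, Matrix.one_apply_eq]
    · rw [h2 i j hij, Matrix.one_apply_ne hij]
  · unfold fr
    congr 1
    funext i
    apply Subtype.ext
    rw [hP]
    rfl

/-- the diagonal matrix -/
def dg {n : ℕ} (c : Fin n → N1 K) : Matrix.unitaryGroup (Fin n) K :=
  ⟨Matrix.diagonal (fun i => (c i).1), by
    rw [Matrix.mem_unitaryGroup_iff', Matrix.star_eq_conjTranspose, Matrix.diagonal_conjTranspose,
      Matrix.diagonal_mul_diagonal, ← Matrix.diagonal_one]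
    congr 1
    funext i
    exact (c i).2⟩

lemma dg_col {n : ℕ} (g : Matrix.unitaryGroup (Fin n) K) (c : Fin n → N1 K) (i : Fin n) :
    (fun k => (g * dg c).1 k i) = (c i).1 • (fun k => g.1 k i) := by
  funext k
  show (g.1 * Matrix.diagonal (fun i => (c i).1)) k i = _
  rw [Matrix.mul_diagonal, Pi.smul_apply, smul_eq_mul, mul_comm]

lemma fr_dg {n : ℕ} (g : Matrix.unitaryGroup (Fin n) K) (c : Fin n → N1 K) :
    fr (g * dg c) = fr g := by
  unfold fr
  congr 1
  funext i
  apply Subtype.ext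
  show vecMulVec _ _ = vecMulVec _ _
  rw [dg_col]
  exact smul_proj (c i).2

lemma exists_dg {n : ℕ} {g h : Matrix.unitaryGroup (Fin n) K} (hgh : fr g = fr h) :
    ∃ c : Fin n → N1 K, g * dg c = h := by
  unfold fr at hgh
  have h1 := List.ofFn_injective hgh
  have h2 : ∀ i, vecMulVec (fun k => g.1 k i) (star (fun k => g.1 k i)) =
      vecMulVec (fun k => h.1 k i) (star (fun k => h.1 k i)) := by
    intro i
    exact congrArg Subtype.val (congrFun h1 i)
  have hh : ∀ i, star (fun k => h.1 k i) ⬝ᵥ (fun k => h.1 k i) = 1 := by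
    intro i
    rw [dot_col]
    simp
  have hg : ∀ i, star (fun k => g.1 k i) ⬝ᵥ (fun k => g.1 k i) = 1 := by
    intro i
    rw [dot_col]
    simp
  have h3 : ∀ i, ∃ c : N1 K, (fun k => h.1 k i) = c.1 • (fun k => g.1 k i) := by
    intro i
    have e := eq_smul (hh i) (h2 i)
    refine ⟨⟨star (fun k => g.1 k i) ⬝ᵥ (fun k => h.1 k i), ?_⟩, e⟩
    have e2 := hh i
    rw [e, star_smul, smul_dotProduct, dotProduct_smul, hg i] at e2
    simpa using e2
  choose c hc using h3
  refine ⟨c, ?_⟩
  apply Subtype.ext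
  ext k i
  have := congrFun (dg_col g c i) k
  rw [this, ← hc i]

variable (K) in
theorem card_unitary [Fintype K] (n : ℕ) :
    Nat.card (Matrix.unitaryGroup (Fin n) K) = (Fr K n).card * Nat.card (N1 K) ^ n := by
  have hex : ∀ w : {w // w ∈ Fr K n}, ∃ g : Matrix.unitaryGroup (Fin n) K, fr g = w.1 := by
    intro w
    obtain ⟨hl, ho⟩ := (mem_Fr K).1 w.2
    exact exists_fr hl ho
  choose s hs using hex
  let f : {w // w ∈ Fr K n} × (Fin n → N1 K) → Matrix.unitaryGroup (Fin n) K :=
    fun x => s x.1 * dg x.2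
  have hf : Function.Bijective f := by
    constructor
    · rintro ⟨w, c⟩ ⟨w', c'⟩ h
      have h1 : fr (f (w, c)) = fr (f (w', c')) := by rw [h]
      simp only [f, fr_dg, hs] at h1
      have h2 : w = w' := Subtype.ext h1
      subst h2
      have h3 : dg c = dg c' := mul_left_cancel h
      have h4 : c = c' := by
        funext i
        apply Subtype.ext
        have := congrArg (fun M : Matrix.unitaryGroup (Fin n) K => M.1 i i) h3
        simpa [dg] using this
      rw [h4]
    · intro g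
      have hm : fr g ∈ Fr K n := (mem_Fr K).2 ⟨List.length_ofFn, fr_orth g⟩
      obtain ⟨c, hc⟩ := exists_dg (g := s ⟨fr g, hm⟩) (h := g) (hs ⟨fr g, hm⟩)
      exact ⟨(⟨fr g, hm⟩, c), hc⟩
  rw [← Nat.card_congr (Equiv.ofBijective f hf), Nat.card_prod, Nat.card_eq_fintype_card,
    Fintype.card_coe, Nat.card_fun]
  simp

/-- the hermitian case -/
theorem card_N1_of_pow [Fintype K] {q : ℕ} (hq : 2 ≤ q) (hK : Nat.card K = q ^ 2)
    (hs : ∀ x : K, star x = x ^ q) : Nat.card (N1 K) = q + 1 := by
  have e : N1 K ≃ rootsOfUnity (q + 1) K := by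
    refine
      { toFun := fun c => rootsOfUnity.mkOfPowEq c.1 (n := q + 1) (by
          have := c.2
          rw [hs] at this
          rw [pow_succ, this])
        invFun := fun u => ⟨((u : Kˣ) : K), by
          have := (mem_rootsOfUnity' (q + 1) (u : Kˣ)).1 u.2
          rw [hs, ← pow_succ, this]⟩
        left_inv := fun c => by
          apply Subtype.ext
          simp
        right_inv := fun u => by
          apply Subtype.ext
          apply Units.ext
          simp }
  obtain ⟨g, hg⟩ := IsCyclic.exists_generator (α := Kˣ)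
  have ho : orderOf g = q ^ 2 - 1 := by
    rw [orderOf_eq_card_of_forall_mem_zpowers hg, Nat.card_units, hK]
  have hd : q ^ 2 - 1 = (q - 1) * (q + 1) := by
    obtain ⟨m, rfl⟩ : ∃ m, q = m + 1 := ⟨q - 1, by omega⟩
    simp only [Nat.add_sub_cancel]
    ring_nf
    omega
  have hp : IsPrimitiveRoot (g ^ (q - 1)) (q + 1) := by
    have : orderOf (g ^ (q - 1)) = q + 1 := by
      rw [orderOf_pow, ho, hd, Nat.gcd_eq_right (Dvd.intro _ rfl),
        Nat.mul_div_cancel_left _ (by omega)]
    rw [← this]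
    exact IsPrimitiveRoot.orderOf _
  have hp2 : IsPrimitiveRoot (((g ^ (q - 1) : Kˣ)) : K) (q + 1) := IsPrimitiveRoot.coe_units_iff.2 hp
  rw [Nat.card_congr e]
  exact hp2.card_rootsOfUnity

/-- the symmetric case -/
theorem card_N1_of_trivial (h2 : (2 : K) ≠ 0) (hs : ∀ x : K, star x = x) :
    Nat.card (N1 K) = 2 := by
  have h1 : (1 : K) ≠ -1 := by
    intro h
    apply h2
    linear_combination h
  have e : {c : K | star c * c = 1} = {1, -1} := by
    ext c
    simp only [Set.mem_ofPred_eq, Set.mem_insert_iff, Set.mem_singleton_iff, hs]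
    exact mul_self_eq_one_iff
  show Nat.card ({c : K | star c * c = 1} : Set K) = 2
  rw [e, Nat.card_coe_set_eq, Set.ncard_pair h1]

/-- `|U_n(q)| = |Fr| (q + 1) ^ n` -/
theorem card_unitary_pow [Fintype K] {q : ℕ} (hq : 2 ≤ q) (hK : Nat.card K = q ^ 2)
    (hs : ∀ x : K, star x = x ^ q) (n : ℕ) :
    Nat.card (Matrix.unitaryGroup (Fin n) K) = (Fr K n).card * (q + 1) ^ n := by
  rw [card_unitary, card_N1_of_pow hq hK hs]

/-- `|O_n(q)| = |Fr| 2 ^ n` (frames of lines of square value) -/
theorem card_unitary_trivial [Fintype K] (h2 : (2 : K) ≠ 0) (hs : ∀ x : K, star x = x) (n : ℕ) :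
    Nat.card (Matrix.unitaryGroup (Fin n) K) = (Fr K n).card * 2 ^ n := by
  rw [card_unitary, card_N1_of_trivial h2 hs]

end Vale.Agent.P240.R2.H715
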