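import Vale.Agent.P240.R2.H715.SpFin
import Vale.Agent.P240.R2.H487.TF

/-!
P240, symplectic groups: the family `PSp_{2m}(F)` for the prime `2`.
-/

set_option autoImplicit false

namespace Vale.Agent.P240.R2.H715

open Vale.Agent.P240.R2.H487 (LocTopF TopFac)

universe u v

/-- `L` is isomorphic to `PSp_{2m}(F)`, where `m ≥ 3` and `|F|` is odd and not `3`, `5`, `9`, `25` -/
def PSpFac (L : Type u) [Group L] : Prop :=
  ∃ (m : ℕ) (F : Type) (_ : Field F) (_ : Finite F), 3 ≤ m ∧ Nat.card F % 2 = 1 ∧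
    Nat.card F ∉ ({3, 5, 9, 25} : Set ℕ) ∧
    Nonempty (L ≃* (Matrix.symplecticGroup (Fin m) F ⧸
      Subgroup.center (Matrix.symplecticGroup (Fin m) F)))

theorem PSpFac.topFac (𝕜 : Type v) [Field 𝕜] {L : Type u} [Group L] (h : PSpFac L) :
    TopFac 𝕜 2 L := by
  obtain ⟨m, F, hF1, hF2, hm, hodd, hex, ⟨e⟩⟩ := h
  intro G _ _ M ⟨f⟩
  have : Fintype F := Fintype.ofFinite F
  simp only [Set.mem_insert_iff, Set.mem_singleton_iff, not_or] at hex
  obtain ⟨h3, h5, h9, h25⟩ := hex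
  have h1 : Nat.card F ≠ 1 := by
    intro h1
    exact not_subsingleton F ((Nat.card_eq_one_iff_unique.1 h1).1)
  have h2 : (2 : F) ≠ 0 := by
    intro h2
    obtain ⟨r, hrc⟩ := CharP.exists F
    have hr : r.Prime := (CharP.char_is_prime_or_zero F r).resolve_right
      (CharP.char_ne_zero_of_finite F r)
    have h4 : r = 2 := by
      have h5 : r ∣ 2 := (CharP.cast_eq_zero_iff F r 2).1 (by exact_mod_cast h2)
      exact (Nat.prime_dvd_prime_iff_eq hr Nat.prime_two).1 h5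
    subst h4
    obtain ⟨k, -, hk⟩ := FiniteField.card F 2
    rw [Nat.card_eq_fintype_card, hk] at hodd
    have : 2 ∣ 2 ^ (k : ℕ) := dvd_pow_self 2 k.ne_zero
    omega
  exact locTopF_psp h2 (by omega) h9 h25 hm M (e.symm.trans f) 𝕜

end Vale.Agent.P240.R2.H715
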