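import Vale.Agent.P240.R2.H715.OrH
import Mathlib.LinearAlgebra.Matrix.Nondegenerate

/-!
P240: `AutFree p r` for the commutator subgroup of `O(A) / Z`, `A` an invertible symmetric matrix
of size at least `5` over a finite field of odd characteristic `r`.
-/

set_option autoImplicit false

namespace Vale.Agent.P240.R2.H715.Or

open Module Subgroup Matrix
open LinearMap (BilinForm)

universe u v w x

noncomputable section

section

variable {K : Type u} [Field K] {n : ℕ}

/-- an invertible matrix as a linear equivalence -/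
def glE : GL (Fin n) K →* ((Fin n → K) ≃ₗ[K] (Fin n → K)) where
  toFun g :=
    { toFun := fun x => g.1 *ᵥ x
      map_add' := fun x y => mulVec_add _ _ _
      map_smul' := fun c x => mulVec_smul _ _ _
      invFun := fun x => (g⁻¹).1 *ᵥ x
      left_inv := fun x => by
        show (g⁻¹).1 *ᵥ (g.1 *ᵥ x) = x
        rw [mulVec_mulVec, ← Units.val_mul, inv_mul_cancel]
        exact one_mulVec x
      right_inv := fun x => by
        show g.1 *ᵥ ((g⁻¹).1 *ᵥ x) = x
        rw [mulVec_mulVec, ← Units.val_mul, mul_inv_cancel]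
        exact one_mulVec x }
  map_one' := by
    ext1 x
    exact one_mulVec x
  map_mul' g h := by
    ext1 x
    show (g * h).1 *ᵥ x = g.1 *ᵥ (h.1 *ᵥ x)
    rw [mulVec_mulVec]
    rfl

lemma glE_apply (g : GL (Fin n) K) (x : Fin n → K) : glE g x = g.1 *ᵥ x := rfl

lemma mat_ext {M N : Matrix (Fin n) (Fin n) K} (h : ∀ x, M *ᵥ x = N *ᵥ x) : M = N :=
  Matrix.toLin'.injective (LinearMap.ext fun x => by
    rw [Matrix.toLin'_apply, Matrix.toLin'_apply]
    exact h x)

lemma glE_inj : Function.Injective (glE (K := K) (n := n)) := by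
  intro g h hgh
  apply Units.ext
  apply mat_ext
  intro x
  rw [← glE_apply, ← glE_apply, hgh]

/-- the bilinear form of a matrix -/
def Bm (A : Matrix (Fin n) (Fin n) K) : BilinForm K (Fin n → K) := Matrix.toBilin' A

lemma Bm_apply (A : Matrix (Fin n) (Fin n) K) (x y : Fin n → K) : Bm A x y = x ⬝ᵥ A *ᵥ y :=
  Matrix.toBilin'_apply' A x y

lemma Bm_iso (A : Matrix (Fin n) (Fin n) K) (M : Matrix (Fin n) (Fin n) K) :
    (∀ x y, Bm A (M *ᵥ x) (M *ᵥ y) = Bm A x y) ↔ Mᵀ * A * M = A := by
  constructor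
  · intro h
    apply Matrix.toBilin'.injective
    rw [← Matrix.toBilin'_comp]
    refine LinearMap.ext fun x => LinearMap.ext fun y => ?_
    rw [LinearMap.BilinForm.comp_apply, Matrix.toLin'_apply, Matrix.toLin'_apply]
    exact h x y
  · intro h x y
    have h1 : (Matrix.toBilin' A).comp (Matrix.toLin' M) (Matrix.toLin' M) x y =
        Matrix.toBilin' (Mᵀ * A * M) x y := by rw [Matrix.toBilin'_comp]
    rw [h, LinearMap.BilinForm.comp_apply, Matrix.toLin'_apply, Matrix.toLin'_apply] at h1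
    exact h1

lemma Bm_symm {A : Matrix (Fin n) (Fin n) K} (hA : Aᵀ = A) (x y : Fin n → K) :
    Bm A x y = Bm A y x := by
  rw [Bm_apply, Bm_apply, dotProduct_mulVec, ← mulVec_transpose, hA, dotProduct_comm]

lemma Bm_nd {A : Matrix (Fin n) (Fin n) K} (hd : A.det ≠ 0) (x : Fin n → K)
    (h : ∀ y, Bm A x y = 0) : x = 0 := by
  refine Matrix.eq_zero_of_vecMul_eq_zero hd ?_
  funext i
  have h1 := h (Pi.single i 1)
  rw [Bm_apply, dotProduct_mulVec, dotProduct_single, mul_one] at h1
  exact h1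

/-- the reflection as a linear map -/
def rl (A : Matrix (Fin n) (Fin n) K) (v : Fin n → K) : (Fin n → K) →ₗ[K] (Fin n → K) where
  toFun := rr (Bm A) v
  map_add' x y := by
    unfold rr
    rw [map_add, mul_add, add_div, add_smul]
    abel
  map_smul' c x := by
    unfold rr
    rw [map_smul, smul_eq_mul, RingHom.id_apply, smul_sub, smul_smul]
    congr 2
    ring

lemma rl_mulVec (A : Matrix (Fin n) (Fin n) K) (v x : Fin n → K) :
    (LinearMap.toMatrix' (rl A v)) *ᵥ x = rr (Bm A) v x := by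
  rw [LinearMap.toMatrix'_mulVec]
  rfl

/-- the reflection as an invertible matrix -/
def rg (A : Matrix (Fin n) (Fin n) K) (v : Fin n → K) (hv : Bm A v v ≠ 0) : GL (Fin n) K where
  val := LinearMap.toMatrix' (rl A v)
  inv := LinearMap.toMatrix' (rl A v)
  val_inv := mat_ext fun x => by
    rw [← mulVec_mulVec, rl_mulVec, rl_mulVec, rr_inv hv, one_mulVec]
  inv_val := mat_ext fun x => by
    rw [← mulVec_mulVec, rl_mulVec, rl_mulVec, rr_inv hv, one_mulVec]

lemma rr_iso {V : Type v} [AddCommGroup V] [Module K V] {B : BilinForm K V}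
    (hs : ∀ x y, B x y = B y x) {v : V} (hv : B v v ≠ 0) (x y : V) :
    B (rr B v x) (rr B v y) = B x y := by
  unfold rr
  simp only [map_sub, map_smul, LinearMap.sub_apply, LinearMap.smul_apply, smul_eq_mul]
  rw [hs x v]
  field_simp
  ring

variable {L : Type x} [Group L]

/-- **Theorem.** `O` is the group of the matrices `g` with `g^T A g = A`, `A` symmetric and
invertible of size `n ≥ 5` over a finite field of odd characteristic `r`; `L` is the commutator
subgroup of `O / Z(O)`. If `L` is simple, `AutFree p r L` holds for every prime `p ≠ r`. -/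
theorem autFree_O [Finite K] [Finite L] (h2 : (2 : K) ≠ 0) (hn : 5 ≤ n)
    {A : Matrix (Fin n) (Fin n) K} (hA : Aᵀ = A) (hd : A.det ≠ 0) {O : Subgroup (GL (Fin n) K)}
    (hO : ∀ g : GL (Fin n) K, g ∈ O ↔ g.1ᵀ * A * g.1 = A)
    (e : commutator (O ⧸ center O) ≃* L) {r p : ℕ} (hr : r.Prime) [CharP K r] (hp : p.Prime)
    (hpr : p ≠ r) (hL : IsSimpleGroup L) (hZ : ∀ x : L, (∀ y, x * y = y * x) → x = 1) :
    H195.AutFree p r L := by
  refine autFree_full (B := Bm A) h2 (Bm_symm hA) (Bm_nd hd) (by rw [finrank_fin_fun]; exact hn)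
    (glE.comp O.subtype) (fun g h hgh => Subtype.ext (glE_inj hgh))
    (fun g x y => (Bm_iso A g.1.1).2 ((hO g.1).1 g.2) x y) (fun v hv => ?_) e hr hp hpr hL hZ
  refine ⟨⟨rg A v hv, (hO _).2 ?_⟩, fun x => rl_mulVec A v x⟩
  rw [← Bm_iso]
  intro x y
  show Bm A (LinearMap.toMatrix' (rl A v) *ᵥ x) (LinearMap.toMatrix' (rl A v) *ᵥ y) = _
  rw [rl_mulVec, rl_mulVec, rr_iso (Bm_symm hA) hv]

end

end

end Vale.Agent.P240.R2.H715.Or
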