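import Vale.Agent.P240.R2.AS.Defs
import Mathlib.LinearAlgebra.SymplecticGroup

/-!
P240, next level: the symplectic groups `PSp_{2m}(q)`, `p = 2`. Definitions.

`V = U ⊗ H`, `U = K ^ m` with the symmetric form, `H = K ^ 2` the symplectic plane.
-/

set_option autoImplicit false

namespace Vale.Agent.P240.R2.H715

open Matrix Vale.Agent.P240.R2.AS
open scoped Classical

universe u v w

/-- the trivial star of a field -/
@[reducible] def ts (K : Type u) [Field K] : StarRing K := starRingOfComm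

attribute [local instance] ts

noncomputable section

variable (K : Type u) [Field K]

/-- `Sp_{2m}(K)` -/
abbrev Sy (m : ℕ) : Type u := ↥(Matrix.symplecticGroup (Fin m) K)

/-- `SL_2(K)` -/
abbrev S2 : Type u := Matrix.SpecialLinearGroup (Fin 2) K

variable {K}

/-- the matrix of `1 ⊗ h` -/
def hM (m : ℕ) (h : Matrix (Fin 2) (Fin 2) K) : Matrix (Fin m ⊕ Fin m) (Fin m ⊕ Fin m) K :=
  fromBlocks (h 0 0 • 1) (h 0 1 • 1) (h 1 0 • 1) (h 1 1 • 1)

/-- the matrix of `g ⊗ 1` -/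
def oM {m : ℕ} (g : Matrix (Fin m) (Fin m) K) : Matrix (Fin m ⊕ Fin m) (Fin m ⊕ Fin m) K :=
  fromBlocks g 0 0 g

lemma hM_mul {m : ℕ} (a b : Matrix (Fin 2) (Fin 2) K) : hM m (a * b) = hM m a * hM m b := by
  unfold hM
  rw [fromBlocks_multiply]
  congr 1 <;>
  simp [Matrix.mul_apply, Fin.sum_univ_two, add_smul, smul_smul, mul_comm]

lemma hM_one {m : ℕ} : hM (K := K) m 1 = 1 := by
  unfold hM
  simp [fromBlocks_one]

lemma oM_mul {m : ℕ} (a b : Matrix (Fin m) (Fin m) K) : oM (a * b) = oM a * oM b := by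
  unfold oM
  rw [fromBlocks_multiply]
  simp

lemma oM_one {m : ℕ} : oM (K := K) (m := m) 1 = 1 := by
  unfold oM
  simp [fromBlocks_one]

lemma oM_hM {m : ℕ} (g : Matrix (Fin m) (Fin m) K) (h : Matrix (Fin 2) (Fin 2) K) :
    oM g * hM m h = fromBlocks (h 0 0 • g) (h 0 1 • g) (h 1 0 • g) (h 1 1 • g) := by
  unfold hM oM
  rw [fromBlocks_multiply]
  simp

lemma hM_oM {m : ℕ} (g : Matrix (Fin m) (Fin m) K) (h : Matrix (Fin 2) (Fin 2) K) :
    hM m h * oM g = oM g * hM m h := by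
  rw [oM_hM]
  unfold hM oM
  rw [fromBlocks_multiply]
  simp

lemma oM_J {m : ℕ} (g : Matrix (Fin m) (Fin m) K) (c : K) (hg : g * gᵀ = c • 1) :
    oM g * J (Fin m) K * (oM g)ᵀ = c • J (Fin m) K := by
  unfold oM J
  rw [fromBlocks_transpose, fromBlocks_multiply, fromBlocks_multiply, fromBlocks_smul]
  simp [hg]

lemma hM_J {m : ℕ} (h : Matrix (Fin 2) (Fin 2) K) :
    hM m h * J (Fin m) K * (hM m h)ᵀ = h.det • J (Fin m) K := by
  unfold hM J
  rw [fromBlocks_transpose, fromBlocks_multiply, fromBlocks_multiply, fromBlocks_smul,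
    Matrix.det_fin_two]
  congr 1
  all_goals
    ext i j
    by_cases hij : i = j
    · subst hij
      simp
      try ring
    · simp [Matrix.one_apply_ne hij, Matrix.one_apply_ne (Ne.symm hij)]

/-- `O_m(K) → Sp_{2m}(K)`, `g ↦ g ⊗ 1` -/
def oS {m : ℕ} : GU K m →* Sy K m where
  toFun g := ⟨oM g.1, by
    rw [SymplecticGroup.mem_iff, oM_J g.1 1 (by
      rw [one_smul]
      exact Matrix.mem_unitaryGroup_iff.1 g.2), one_smul]⟩
  map_one' := Subtype.ext oM_one
  map_mul' a b := Subtype.ext (oM_mul a.1 b.1)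

/-- `SL_2(K) → Sp_{2m}(K)`, `h ↦ 1 ⊗ h` -/
def hS {m : ℕ} : S2 K →* Sy K m where
  toFun h := ⟨hM m h.1, by
    rw [SymplecticGroup.mem_iff, hM_J, h.2, one_smul]⟩
  map_one' := Subtype.ext hM_one
  map_mul' a b := Subtype.ext (hM_mul a.1 b.1)

/-- field automorphisms on `Sp_{2m}(K)` -/
def mS {m : ℕ} (σ : K ≃+* K) : Sy K m →* Sy K m where
  toFun h := ⟨h.1.map σ, SymplecticGroup.map_mem h.2 σ⟩
  map_one' := Subtype.ext (Matrix.map_one _ (map_zero _) (map_one _))
  map_mul' _ _ := Subtype.ext (Matrix.map_mul)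

variable {G : Type v} [Group G]

/-- `x` acts on the image of `Sp_{2m}(K)` as `h ↦ M σ(h) M⁻¹` -/
def Acts {m : ℕ} (ε : Sy K m →* G) (x : G) (M : Matrix (Fin m ⊕ Fin m) (Fin m ⊕ Fin m) K)
    (σ : K ≃+* K) : Prop :=
  ∀ h h' : Sy K m, h'.1 * M = M * h.1.map σ → x * ε h * x⁻¹ = ε h'

/-- `L` is the image of `Sp_{2m}(K)` modulo scalars, and the elements of `N_G(L)` whose square
centralizes `L` act by semilinear similitudes -/
structure PSpHom (m : ℕ) (L : Subgroup G) (ε : Sy K m →* G) : Prop where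
  range : ε.range = L
  ker : ∀ g : Sy K m, ε g = 1 ↔ ∃ c : K, g.1 = c • (1 : Matrix (Fin m ⊕ Fin m) (Fin m ⊕ Fin m) K)
  sem : ∀ x ∈ Subgroup.normalizer (L : Set G), x ^ 2 ∈ Subgroup.centralizer (L : Set G) →
    ∃ (M : Matrix (Fin m ⊕ Fin m) (Fin m ⊕ Fin m) K) (μ : K) (σ : K ≃+* K), μ ≠ 0 ∧
      M * J (Fin m) K * Mᵀ = μ • J (Fin m) K ∧ Acts ε x M σ

/-- generators of a quaternion group of order `8` -/
structure QP (a b : S2 K) : Prop where
  sqa : a.1 * a.1 = -1
  sqb : b.1 * b.1 = -1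
  anti : a.1 * b.1 = -(b.1 * a.1)

/-- the image of the quaternion group (a four-group) -/
def QG (j : S2 K →* G) (a b : S2 K) : Subgroup G := Subgroup.closure {j a, j b}

/-- the elementary abelian group generated by the prefixes of a word -/
def De {X : Type*} (e : List X → G) (w : List X) : Subgroup G :=
  Subgroup.closure {y | ∃ u v, w = u ++ v ∧ y = e u}

/-- the elements `-1` on `W ⊗ H`, `1` on the complement -/
def eX {m : ℕ} (ε : Sy K m →* G) (u : List (Ln K m)) : G := ε (oS (eU (-1) (sm u)))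

/-- the family of elementary abelian groups `D_w × Q` -/
def FamS [Fintype K] {m : ℕ} (ε : Sy K m →* G) : Set (Subgroup G) :=
  {A | ∃ w ∈ Fr K m, ∃ a b : S2 K, QP a b ∧ A = De (eX ε) w ⊔ QG (ε.comp hS) a b}

end

end Vale.Agent.P240.R2.H715
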