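import Vale.Agent.P240.R2.H715.SpDefs
import Vale.Agent.P240.R2.H487.EDefs

/-!
P240, next level: `LocTopF 𝕜 2 L` for `L ≅ PSp_{2m}(q)`. Exact statements of the modules.
-/

set_option autoImplicit false

namespace Vale.Agent.P240.R2.H715

open Matrix Subgroup Vale.Agent.P240.R2.AS Vale.Agent.P240.K
open Vale.Agent.P240.R2.H487 (LocTopF)
open scoped Classical

universe u v w

attribute [local instance] ts

/-- S1: if `h ↦ s σ(h) s⁻¹` is trivial modulo scalars then `σ = 1` and `s` is a scalar -/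
def StmtS1 : Prop :=
  ∀ (K : Type u) [Field K] [Fintype K] (m : ℕ), 1 ≤ m → ∀ (s : Sy K m) (σ : K ≃+* K),
    (∀ h : Sy K m, ∃ c : K, s.1 * h.1.map σ = c • (h.1 * s.1)) →
    σ = RingEquiv.refl K ∧ ∃ c : K, s.1 = c • (1 : Matrix (Fin m ⊕ Fin m) (Fin m ⊕ Fin m) K)

/-- S2: `O_m ⊗ 1` and `1 ⊗ SL_2` meet in scalars -/
def StmtS2 : Prop :=
  ∀ (K : Type u) [Field K] [Fintype K] (m : ℕ), 1 ≤ m → ∀ (g : GU K m) (h : S2 K) (c : K),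
    (oS g * hS h : Sy K m).1 = c • (1 : Matrix (Fin m ⊕ Fin m) (Fin m ⊕ Fin m) K) →
    (∃ d : K, g.1 = d • (1 : Matrix (Fin m) (Fin m) K)) ∧ (h.1 = 1 ∨ h.1 = -1)

/-- TY1: a cycle of rank `2` in `PSL_2(q)` -/
def StmtTY1 : Prop :=
  ∀ (K : Type u) [Field K] [Fintype K], (2 : K) ≠ 0 → 7 ≤ Nat.card K →
  ∀ (G : Type v) [Group G] [Finite G] (j : S2 K →* G), (∀ h, j h = 1 ↔ h.1 = 1 ∨ h.1 = -1) →
  ∀ (𝕜 : Type w) [Field 𝕜], ∃ a b : S2 K, QP a b ∧ ∃ α φ, TopCycle 𝕜 2 j.range (QG j a b) α φ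

/-- TY2: a cycle of rank `2` in `PGL_2(q₀) = C(σ)` -/
def StmtTY2 : Prop :=
  ∀ (K : Type u) [Field K] [Fintype K], (2 : K) ≠ 0 → ∀ (q₀ : ℕ), 5 ≤ q₀ → Nat.card K = q₀ ^ 2 →
  ∀ (σ : K ≃+* K), (∀ y, σ y = y ^ q₀) →
  ∀ (G : Type v) [Group G] [Finite G] (j : S2 K →* G), (∀ h, j h = 1 ↔ h.1 = 1 ∨ h.1 = -1) →
  ∀ x : G, (∀ h h' : S2 K, h'.1 = h.1.map σ → x * j h * x⁻¹ = j h') →
  ∀ (𝕜 : Type w) [Field 𝕜], ∃ a b : S2 K, QP a b ∧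
    ∃ α φ, TopCycle 𝕜 2 (j.range ⊓ centralizer {x}) (QG j a b) α φ

/-- TY3: a cycle of rank `3` in `PSL_2(q)⟨σ⟩` -/
def StmtTY3 : Prop :=
  ∀ (K : Type u) [Field K] [Fintype K], (2 : K) ≠ 0 → ∀ (q₀ : ℕ), 5 ≤ q₀ → Nat.card K = q₀ ^ 2 →
  ∀ (σ : K ≃+* K), (∀ y, σ y = y ^ q₀) →
  ∀ (G : Type v) [Group G] [Finite G] (j : S2 K →* G), (∀ h, j h = 1 ↔ h.1 = 1 ∨ h.1 = -1) →
  ∀ x : G, (∀ h h' : S2 K, h'.1 = h.1.map σ → x * j h * x⁻¹ = j h') → x ^ 2 = 1 → x ∉ j.range →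
  ∀ (𝕜 : Type w) [Field 𝕜], ∃ a b n : S2 K, QP a b ∧ (j n * x) ^ 2 = 1 ∧
    (j n * x) * j a = j a * (j n * x) ∧ (j n * x) * j b = j b * (j n * x) ∧
    ∃ α φ, TopCycle 𝕜 2 (j.range ⊔ zpowers x) (QG j a b ⊔ zpowers (j n * x)) α φ

/-- TX: a cycle of rank `m - 1` in `PO_m(q)` -/
def StmtTX : Prop :=
  ∀ (K : Type u) [Field K] [Fintype K], (2 : K) ≠ 0 → 7 ≤ Nat.card K → ∀ (m : ℕ), 2 ≤ m →
  ∀ (G : Type v) [Group G] [Finite G] (i : GU K m →* G),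
  (∀ g, i g = 1 ↔ ∃ c : K, g.1 = c • (1 : Matrix (Fin m) (Fin m) K)) →
  (∀ w ∈ Fr K m, Nat.card (De (fun u => i (eU (-1) (sm u))) w) = 2 ^ (m - 1)) ∧
  ∀ (𝕜 : Type w) [Field 𝕜], ∃ w ∈ Fr K m,
    ∃ α φ, TopCycle 𝕜 2 i.range (De (fun u => i (eU (-1) (sm u))) w) α φ

/-- SQ: pairs of generators of quaternion groups -/
def StmtSQ : Prop :=
  ∀ (K : Type u) [Field K] [Fintype K], (2 : K) ≠ 0 → ∃ a b : S2 K, QP a b ∧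
    (∀ σ : K ≃+* K, a.1.map σ = a.1 ∧ b.1.map σ = b.1) ∧
    (∀ a' b' : S2 K, QP a' b' → ∃ k k' : Matrix (Fin 2) (Fin 2) K, k * k' = 1 ∧ k' * k = 1 ∧
      k * a.1 = a'.1 * k ∧ k * b.1 = b'.1 * k) ∧
    ∀ (T : Matrix (Fin 2) (Fin 2) K) (c d : K), c ^ 2 = 1 → d ^ 2 = 1 → T * a.1 = c • (a.1 * T) →
      T * b.1 = d • (b.1 * T) → ∃ t : K, T = t • (1 : Matrix (Fin 2) (Fin 2) K) ∨ T = t • a.1 ∨
        T = t • b.1 ∨ T = t • (a.1 * b.1)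

/-- the reflections -/
def Rf {K : Type u} [Field K] {m : ℕ} (i : Fin m) : Matrix (Fin m) (Fin m) K :=
  diagonal (fun k => if k = i then -1 else 1)

/-- S4: similitudes that commute modulo scalars with the standard `D × Q` -/
def StmtS4 : Prop :=
  ∀ (K : Type u) [Field K] [Fintype K], (2 : K) ≠ 0 → ∀ (m : ℕ), 3 ≤ m → ∀ a b : S2 K, QP a b →
    (∀ (T : Matrix (Fin 2) (Fin 2) K) (c d : K), c ^ 2 = 1 → d ^ 2 = 1 → T * a.1 = c • (a.1 * T) →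
      T * b.1 = d • (b.1 * T) → ∃ t : K, T = t • (1 : Matrix (Fin 2) (Fin 2) K) ∨ T = t • a.1 ∨
        T = t • b.1 ∨ T = t • (a.1 * b.1)) →
    ∀ (M : Matrix (Fin m ⊕ Fin m) (Fin m ⊕ Fin m) K) (μ : K), μ ≠ 0 →
    M * J (Fin m) K * Mᵀ = μ • J (Fin m) K →
    (∀ i, ∃ c : K, M * oM (Rf i) = c • (oM (Rf i) * M)) →
    (∃ c : K, M * hM m a.1 = c • (hM m a.1 * M)) → (∃ c : K, M * hM m b.1 = c • (hM m b.1 * M)) →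
    ∃ (t : K) (d : Fin m → K) (q : Matrix (Fin 2) (Fin 2) K), t ≠ 0 ∧ (∀ i, d i = 1 ∨ d i = -1) ∧
      (q = 1 ∨ q = a.1 ∨ q = b.1 ∨ q = a.1 * b.1) ∧ M = t • (oM (diagonal d) * hM m q)

/-- the final theorem -/
def StmtSp : Prop :=
  ∀ (K : Type u) [Field K] [Fintype K], (2 : K) ≠ 0 → 7 ≤ Nat.card K → Nat.card K ≠ 9 →
  Nat.card K ≠ 25 → ∀ (m : ℕ), 3 ≤ m → ∀ (G : Type v) [Group G] [Finite G] (L : Subgroup G)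
    (ε : Sy K m →* G), PSpHom m L ε → ∀ (𝕜 : Type w) [Field 𝕜], LocTopF 𝕜 2 L

/-- SA: the automorphisms of `PSp_{2m}(q)` that centralize the standard `D × Q` are semilinear (this
removes the hypothesis `sem` of `PSpHom`) -/
def StmtSA : Prop :=
  ∀ (K : Type u) [Field K] [Fintype K], (2 : K) ≠ 0 → 7 ≤ Nat.card K → ∀ (m : ℕ), 3 ≤ m →
  ∀ a b : S2 K, QP a b → (∀ σ : K ≃+* K, a.1.map σ = a.1 ∧ b.1.map σ = b.1) →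
  ∀ (π : Sy K m →* Sy K m ⧸ Subgroup.center (Sy K m)), π = QuotientGroup.mk' _ →
  ∀ f : MulAut (Sy K m ⧸ Subgroup.center (Sy K m)),
    (∀ (i : Fin m) (r : Sy K m), r.1 = oM (Rf i) → f (π r) = π r) →
    f (π (hS a)) = π (hS a) → f (π (hS b)) = π (hS b) →
    ∃ (M : Matrix (Fin m ⊕ Fin m) (Fin m ⊕ Fin m) K) (μ : K) (σ : K ≃+* K), μ ≠ 0 ∧
      M * J (Fin m) K * Mᵀ = μ • J (Fin m) K ∧
      ∀ h h' : Sy K m, h'.1 * M = M * h.1.map σ → f (π h) = π h'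

end Vale.Agent.P240.R2.H715
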