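import Vale.Agent.P240.R2.H715.SpD

/-!
P240, symplectic groups: the groups `D × Q`, their orders and intersections.
-/

set_option autoImplicit false

namespace Vale.Agent.P240.R2.H715

open Matrix Subgroup Vale.Agent.P240.R2.AS Vale.Agent.P240.K
open Vale.Agent.P240.R2.H687 (uMap uMap_coe conjM lam lam_coe lam_injective IsPr eU_val eU_conjM
  isPr_Ln isPr_sm)
open scoped Classical

universe u v w

attribute [local instance] ts

noncomputable section

section top

variable {G : Type v} [Group G] {𝕜 : Type w} [Field 𝕜] {p : ℕ}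

lemma topCycle_mono {M M' F : Subgroup G} {α : Ch 𝕜 (Subgroup G)} {φ : List (Subgroup G)}
    (h : TopCycle 𝕜 p M F α φ) (hM : M ≤ M') : TopCycle 𝕜 p M' F α φ :=
  ⟨Sp_mono (fun l hl => ⟨⟨hl.1.1, fun E hE => ⟨(hl.1.2 E hE).1, (hl.1.2 E hE).2.trans hM⟩⟩, hl.2⟩)
    h.mem, h.cyc, h.ne, h.top, h.card⟩

lemma topCycle_mem {M F : Subgroup G} {α : Ch 𝕜 (Subgroup G)} {φ : List (Subgroup G)}
    (h : TopCycle 𝕜 p M F α φ) (hF : F ≠ ⊥) : F ∈ ApS p G := by
  have h1 := (mem_Sp.1 h.mem φ (Finsupp.mem_support_iff.2 h.ne)).1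
  rcases h.top with ⟨-, h2⟩ | ⟨φ', h2⟩
  · exact absurd h2 hF
  · exact (h1.2 F (by rw [h2]; simp)).1

lemma card_sup_le [Finite G] {A B : Subgroup G} (h : ∀ x ∈ A, ∀ y ∈ B, x * y = y * x) :
    Nat.card (A ⊔ B : Subgroup G) ≤ Nat.card A * Nat.card B := by
  rw [← Nat.card_prod]
  refine Nat.card_le_card_of_surjective (fun z : A × B => (⟨(z.1 * z.2 : G),
    mul_mem (mem_sup_left z.1.2) (mem_sup_right z.2.2)⟩ : (A ⊔ B : Subgroup G))) ?_
  rintro ⟨x, hx⟩
  obtain ⟨a, ha, b, hb, rfl⟩ := mem_sup_comm h hx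
  exact ⟨(⟨a, ha⟩, ⟨b, hb⟩), rfl⟩

lemma card_sup_eq [Finite G] {A B : Subgroup G} (h : ∀ x ∈ A, ∀ y ∈ B, x * y = y * x)
    (h1 : A ⊓ B = ⊥) : Nat.card (A ⊔ B : Subgroup G) = Nat.card A * Nat.card B := by
  rw [← Nat.card_prod]
  symm
  refine Nat.card_eq_of_bijective (fun z : A × B => (⟨(z.1 * z.2 : G),
    mul_mem (mem_sup_left z.1.2) (mem_sup_right z.2.2)⟩ : (A ⊔ B : Subgroup G))) ⟨?_, ?_⟩
  · intro g g' h'
    exact (Subgroup.mul_injective_of_disjoint (disjoint_iff.2 h1)) (congrArg Subtype.val h')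
  · rintro ⟨x, hx⟩
    obtain ⟨a, ha, b, hb, rfl⟩ := mem_sup_comm h hx
    exact ⟨(⟨a, ha⟩, ⟨b, hb⟩), rfl⟩

end top

section quat

variable {K : Type u} [Field K] {G : Type v} [Group G]

lemma S2_mul (a b : S2 K) : (a * b).1 = a.1 * b.1 := rfl

/-- the facts on the four-group -/
lemma QG_facts (h2 : (2 : K) ≠ 0) {j : S2 K →* G} (hj : ∀ h, j h = 1 ↔ h.1 = 1 ∨ h.1 = -1)
    {a b : S2 K} (hab : QP a b) : j a * j a = 1 ∧ j b * j b = 1 ∧ j a * j b = j b * j a ∧
      j a ≠ 1 ∧ j b ≠ 1 ∧ j a ≠ j b := by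
  have h3 : (1 : Matrix (Fin 2) (Fin 2) K) ≠ -1 := by
    intro h
    have h4 := congrFun (congrFun h 0) 0
    simp only [Matrix.one_apply_eq, Matrix.neg_apply] at h4
    apply h2
    linear_combination h4
  have hne : ∀ x : S2 K, x.1 * x.1 = -1 → j x ≠ 1 := by
    intro x hx h
    rcases (hj x).1 h with h4 | h4
    · rw [h4, Matrix.one_mul] at hx
      exact h3 hx
    · rw [h4, Matrix.neg_mul, Matrix.mul_neg, Matrix.one_mul, neg_neg] at hx
      exact h3 hx
  refine ⟨?_, ?_, ?_, hne a hab.sqa, hne b hab.sqb, ?_⟩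
  · rw [← map_mul, hj]
    exact Or.inr hab.sqa
  · rw [← map_mul, hj]
    exact Or.inr hab.sqb
  · have h5 : j (a * b * (b * a)⁻¹) = 1 := by
      rw [hj]
      right
      have h6 : (a * b * (b * a)⁻¹ * (b * a)).1 = -(b * a).1 := by
        rw [inv_mul_cancel_right]
        exact hab.anti
      have h7 : (a * b * (b * a)⁻¹).1 = (a * b * (b * a)⁻¹ * (b * a)).1 * ((b * a)⁻¹).1 := by
        rw [← S2_mul, mul_inv_cancel_right]
      rw [h7, h6, Matrix.neg_mul]
      show -((b * a) * (b * a)⁻¹ : S2 K).1 = -1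
      rw [mul_inv_cancel]
      rfl
    rw [map_mul, map_inv, mul_inv_eq_one, map_mul, map_mul] at h5
    exact h5
  · intro h
    have h5 : j (a * b⁻¹) = 1 := by rw [map_mul, map_inv, h, mul_inv_cancel]
    have h6 : a.1 = b.1 ∨ a.1 = -b.1 := by
      have h7 : a.1 = (a * b⁻¹).1 * b.1 := by
        rw [← S2_mul, inv_mul_cancel_right]
      rcases (hj _).1 h5 with h8 | h8
      · left; rw [h7, h8, Matrix.one_mul]
      · right; rw [h7, h8, Matrix.neg_mul, Matrix.one_mul]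
    have h9 : a.1 * b.1 = b.1 * a.1 := by
      rcases h6 with h8 | h8
      · rw [h8]
      · rw [h8, Matrix.neg_mul, Matrix.mul_neg]
    have h10 := hab.anti
    rw [h9] at h10
    have h11 : (2 : K) • (b.1 * a.1) = 0 := by
      rw [two_smul]
      nth_rewrite 1 [h10]
      rw [neg_add_cancel]
    have h12 : b.1 * a.1 = 0 := (smul_eq_zero.1 h11).resolve_left h2
    have h13 := (b * a).2
    rw [S2_mul, h12, Matrix.det_zero] at h13
    exact zero_ne_one h13

lemma QG_four (h2 : (2 : K) ≠ 0) {j : S2 K →* G} (hj : ∀ h, j h = 1 ↔ h.1 = 1 ∨ h.1 = -1)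
    {a b : S2 K} (hab : QP a b) {z : G} (hz : z ∈ QG j a b) :
    z = 1 ∨ z = j a ∨ z = j b ∨ z = j a * j b := by
  obtain ⟨h1, h3, h4, -, -, -⟩ := QG_facts h2 hj hab
  exact four h1 h3 h4 hz

lemma QG_card (h2 : (2 : K) ≠ 0) {j : S2 K →* G} (hj : ∀ h, j h = 1 ↔ h.1 = 1 ∨ h.1 = -1)
    {a b : S2 K} (hab : QP a b) : Nat.card (QG j a b) = 4 := by
  obtain ⟨h1, h3, h4, h5, h6, h7⟩ := QG_facts h2 hj hab
  have h8 : (QG j a b : Set G) = ({1, j a, j b, j a * j b} : Finset G) := by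
    ext z
    simp only [Finset.coe_insert, Finset.coe_singleton, Set.mem_insert_iff, Set.mem_singleton_iff]
    constructor
    · exact fun h => QG_four h2 hj hab h
    · have ha : j a ∈ QG j a b := subset_closure (Or.inl rfl)
      have hb : j b ∈ QG j a b := subset_closure (Or.inr rfl)
      rintro (rfl | rfl | rfl | rfl)
      · exact one_mem _
      · exact ha
      · exact hb
      · exact mul_mem ha hb
  have h9 : Nat.card (QG j a b) = Nat.card ((QG j a b : Set G)) := rfl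
  rw [h9, h8, Nat.card_eq_card_toFinset]
  simp only [Finset.toFinset_coe]
  have n1 : j a * j b ≠ 1 := by
    intro h
    apply h7
    calc j a = j a * (j b * j b) := by rw [h3, mul_one]
      _ = j b := by rw [← mul_assoc, h, one_mul]
  have n2 : j a * j b ≠ j a := by
    intro h
    exact h6 (mul_eq_left.1 h)
  have n3 : j a * j b ≠ j b := by
    intro h
    exact h5 (mul_eq_right.1 h)
  rw [Finset.card_insert_of_notMem, Finset.card_insert_of_notMem, Finset.card_insert_of_notMem,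
    Finset.card_singleton]
  · simp only [Finset.mem_singleton]
    exact n3.symm
  · simp only [Finset.mem_insert, Finset.mem_singleton, not_or]
    exact ⟨h7, n2.symm⟩
  · simp only [Finset.mem_insert, Finset.mem_singleton, not_or]
    exact ⟨h5.symm, h6.symm, n1.symm⟩

lemma QG_ApS (h2 : (2 : K) ≠ 0) {j : S2 K →* G} (hj : ∀ h, j h = 1 ↔ h.1 = 1 ∨ h.1 = -1)
    {a b : S2 K} (hab : QP a b) : QG j a b ∈ ApS 2 G := by
  obtain ⟨h1, h3, h4, h5, h6, h7⟩ := QG_facts h2 hj hab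
  refine ⟨?_, ?_, ?_⟩
  · intro h
    have ha : j a ∈ QG j a b := subset_closure (Or.inl rfl)
    rw [h, mem_bot] at ha
    exact h5 ha
  · intro x hx y hy
    have key : QG j a b ≤ centralizer (QG j a b : Set G) := by
      unfold QG
      rw [closure_le]
      rintro z hz
      rw [SetLike.mem_coe, centralizer_closure, mem_centralizer_iff]
      rintro t ht
      rcases hz with rfl | rfl <;> rcases ht with rfl | rfl
      · rfl
      · exact h4.symm
      · exact h4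
      · rfl
    exact (mem_centralizer_iff.1 (key hy)) x hx
  · intro x hx
    rw [pow_two]
    rcases QG_four h2 hj hab hx with rfl | rfl | rfl | rfl
    · rw [one_mul]
    · exact h1
    · exact h3
    · rw [mul_assoc, ← mul_assoc (j b), ← h4, mul_assoc, h3, mul_one, h1]

lemma QG_le {j : S2 K →* G} {a b : S2 K} : QG j a b ≤ j.range := by
  unfold QG
  rw [closure_le]
  rintro _ (rfl | rfl)
  · exact ⟨a, rfl⟩
  · exact ⟨b, rfl⟩

end quat

section ker

variable {K : Type u} [Field K] {m : ℕ} {G : Type v} [Group G] {L : Subgroup G}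
  {ε : Sy K m →* G}

lemma oS_hS_comm (g : GU K m) (h : S2 K) : (oS g * hS h : Sy K m) = hS h * oS g :=
  Subtype.ext (hM_oM g.1 h.1).symm

lemma ker_hS (hL : PSpHom m L ε) (hm : 1 ≤ m) (h : S2 K) :
    (ε.comp hS) h = 1 ↔ h.1 = 1 ∨ h.1 = -1 := by
  rw [MonoidHom.comp_apply, hL.ker]
  show (∃ c : K, hM m h.1 = _) ↔ _
  have hi : ∃ i : Fin m, True := ⟨⟨0, hm⟩, trivial⟩
  obtain ⟨i, -⟩ := hi
  constructor
  · rintro ⟨c, hc⟩
    have e : ∀ s t : Fin 2, h.1 s t = (c • (1 : Matrix (Fin 2) (Fin 2) K)) s t := by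
      have h00 := congrFun (congrFun hc (Sum.inl i)) (Sum.inl i)
      have h01 := congrFun (congrFun hc (Sum.inl i)) (Sum.inr i)
      have h10 := congrFun (congrFun hc (Sum.inr i)) (Sum.inl i)
      have h11 := congrFun (congrFun hc (Sum.inr i)) (Sum.inr i)
      unfold hM at h00 h01 h10 h11
      simp at h00 h01 h10 h11
      intro s t
      fin_cases s <;> fin_cases t <;> simp [h00, h01, h10, h11]
    have e1 : h.1 = c • (1 : Matrix (Fin 2) (Fin 2) K) := by
      ext s t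
      exact e s t
    have e2 := h.2
    rw [e1, Matrix.det_smul, Matrix.det_one, mul_one, Fintype.card_fin] at e2
    rcases sq_eq_one_iff.1 e2 with e3 | e3
    · left; rw [e1, e3, one_smul]
    · right; rw [e1, e3, neg_smul, one_smul]
  · rintro (h1 | h1)
    · exact ⟨1, by rw [h1, hM_one, one_smul]⟩
    · refine ⟨-1, ?_⟩
      rw [h1, ← hM_one]
      unfold hM
      rw [fromBlocks_smul]
      simp

/-- the homomorphism from `O_m(K₀)` -/
def iO {K₀ : Type w} [Field K₀] (ε : Sy K m →* G) (f : K₀ →+* K) : GU K₀ m →* G :=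
  ε.comp (oS.comp (uMap m f (ftriv f)))

lemma ker_iO {K₀ : Type w} [Field K₀] (f : K₀ →+* K) (hL : PSpHom m L ε) (hm : 1 ≤ m)
    (y : GU K₀ m) :
    iO ε f y = 1 ↔ ∃ c : K₀, y.1 = c • (1 : Matrix (Fin m) (Fin m) K₀) := by
  unfold iO
  rw [MonoidHom.comp_apply, hL.ker]
  have hv : (oS (uMap m f (ftriv f) y) : Sy K m).1 = oM (y.1.map f) := rfl
  rw [MonoidHom.comp_apply, hv]
  constructor
  · rintro ⟨c, hc⟩
    have i : Fin m := ⟨0, hm⟩
    have e : ∀ s t : Fin m, f (y.1 s t) = (c • (1 : Matrix (Fin m) (Fin m) K)) s t := by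
      intro s t
      have h00 := congrFun (congrFun hc (Sum.inl s)) (Sum.inl t)
      unfold oM at h00
      simpa [Matrix.one_apply] using h00
    refine ⟨y.1 i i, ?_⟩
    ext s t
    apply f.injective
    rw [e s t]
    have h1 := e i i
    rw [Matrix.smul_apply, Matrix.one_apply_eq, smul_eq_mul, mul_one] at h1
    rw [Matrix.smul_apply, Matrix.smul_apply, smul_eq_mul, smul_eq_mul, map_mul, h1]
    by_cases hst : s = t
    · subst hst; simp
    · simp [Matrix.one_apply_ne hst]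
  · rintro ⟨c, hc⟩
    refine ⟨f c, ?_⟩
    have h1 : y.1.map f = f c • (1 : Matrix (Fin m) (Fin m) K) := by
      rw [hc]
      ext s t
      by_cases hst : s = t
      · subst hst; simp
      · simp [Matrix.one_apply_ne hst]
    rw [h1, ← oM_one]
    unfold oM
    rw [fromBlocks_smul]
    simp

lemma iO_le {K₀ : Type w} [Field K₀] (f : K₀ →+* K) (hL : PSpHom m L ε) :
    (iO ε f).range ≤ L := by
  rw [← hL.range]
  rintro _ ⟨y, rfl⟩
  exact ⟨_, rfl⟩

lemma jS_le (hL : PSpHom m L ε) : (ε.comp hS).range ≤ L := by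
  rw [← hL.range]
  rintro _ ⟨y, rfl⟩
  exact ⟨_, rfl⟩

lemma iO_jS_comm {K₀ : Type w} [Field K₀] (f : K₀ →+* K) {x y : G} (hx : x ∈ (iO ε f).range)
    (hy : y ∈ (ε.comp hS).range) : x * y = y * x := by
  obtain ⟨g, rfl⟩ := hx
  obtain ⟨h, rfl⟩ := hy
  show ε (oS _) * ε (hS h) = ε (hS h) * ε (oS _)
  rw [← map_mul, oS_hS_comm, map_mul]

/-- `O_m ⊗ 1` and `1 ⊗ SL_2` meet trivially in `PSp` -/
lemma iO_jS_inf [Fintype K] (hS2 : StmtS2.{u}) (hm : 1 ≤ m) {K₀ : Type w} [Field K₀]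
    (f : K₀ →+* K) (hL : PSpHom m L ε) {x : G} (hx : x ∈ (iO ε f).range)
    (hy : x ∈ (ε.comp hS).range) : x = 1 := by
  obtain ⟨g, rfl⟩ := hx
  obtain ⟨h, hh⟩ := hy
  have h1 : ε (oS (uMap m f (ftriv f) g) * hS h⁻¹) = 1 := by
    have h2 : ε (hS h) = ε (oS (uMap m f (ftriv f) g)) := hh
    rw [map_mul, map_inv hS, map_inv, ← h2, mul_inv_cancel]
  obtain ⟨c, hc⟩ := (hL.ker _).1 h1
  obtain ⟨-, h3⟩ := hS2 K m hm _ _ c hc
  have h4 : (ε.comp hS) h⁻¹ = 1 := (ker_hS hL hm _).2 h3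
  rw [← hh]
  rw [map_inv, inv_eq_one] at h4
  exact h4

/-- the image of `O_m(K₀)` centralizes the field automorphisms that fix `K₀` -/
lemma iO_act {K₀ : Type w} [Field K₀] (f : K₀ →+* K) {x : G} {σ : K ≃+* K} (hx : Act ε x σ)
    (hf : ∀ y, σ (f y) = f y) (y : GU K₀ m) : x * iO ε f y * x⁻¹ = iO ε f y := by
  show x * ε (oS (uMap m f (ftriv f) y)) * x⁻¹ = ε (oS (uMap m f (ftriv f) y))
  rw [hx]
  congr 1
  apply Subtype.ext
  show (oM (y.1.map f)).map σ = oM (y.1.map f)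
  unfold oM
  rw [fromBlocks_map]
  congr 1
  all_goals
    ext s t
    simp [hf]

lemma jS_act {x : G} {σ : K ≃+* K} (hx : Act ε x σ) (h h' : S2 K) (hh : h'.1 = h.1.map σ) :
    x * (ε.comp hS) h * x⁻¹ = (ε.comp hS) h' := by
  show x * ε (hS h) * x⁻¹ = ε (hS h')
  rw [hx]
  congr 1
  apply Subtype.ext
  show (hM m h.1).map σ = hM m h'.1
  unfold hM
  rw [fromBlocks_map, hh]
  congr 1
  all_goals
    ext s t
    by_cases hst : s = t
    · subst hst; simp
    · simp [Matrix.one_apply_ne hst]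

end ker

end

end Vale.Agent.P240.R2.H715
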