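import Vale.Agent.P240.R2.H715.CoA
import Vale.Agent.P240.R2.H145.OTr

/-!
P240: the poset of the elementary abelian `2`-subgroups of `Ω_n(q)` is connected, `n ≥ 5` odd,
`q ≥ 7` odd.
-/

set_option autoImplicit false

namespace Vale.Agent.P240.R2.H715.Co

open Matrix Vale.Agent.P240.R2.AS Vale.Agent.P240.K Vale.Agent.P240.H195
open Vale.Agent.P240.R2.H145 Vale.Agent.P240.R2.H221

universe u v

noncomputable section

section
variable {K : Type u} [Field K] [Fintype K] [StarRing K] {n : ℕ}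

omit [StarRing K] in
lemma exists_ab (h7 : 7 ≤ Fintype.card K) : ∃ a b : K, a * a + b * b = 1 ∧ a ≠ 0 ∧ b ≠ 0 ∨
    (2 : K) = 0 := by
  by_cases h2 : (2 : K) = 0
  · exact ⟨0, 0, Or.inr h2⟩
  obtain ⟨t, ht⟩ : ∃ t : K, t ^ 5 ≠ t := by
    by_contra hcon
    push Not at hcon
    set P : Polynomial K := Polynomial.X ^ 5 - Polynomial.X with hP
    have hd : P.natDegree = 5 := by
      rw [hP]
      compute_degree!
    have hP0 : P ≠ 0 := by
      intro h0
      rw [h0, Polynomial.natDegree_zero] at hd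
      omega
    have h1 : (Finset.univ : Finset K).val ≤ P.roots := by
      rw [Multiset.le_iff_subset Finset.univ.nodup]
      intro t _
      rw [Polynomial.mem_roots hP0, Polynomial.IsRoot.def, hP]
      simp [hcon t]
    have h3 := Multiset.card_le_card h1
    have h4 := P.card_roots'
    rw [hd] at h4
    have h5 : (Finset.univ : Finset K).val.card = Fintype.card K := rfl
    omega
  have ht0 : t ≠ 0 := by
    rintro rfl
    exact ht (by ring)
  have h4 : (1 + t * t) * (1 - t * t) ≠ 0 := by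
    intro h
    apply ht
    linear_combination (-t) * h
  have h5 : 1 + t * t ≠ 0 := left_ne_zero_of_mul h4
  have h6 : 1 - t * t ≠ 0 := right_ne_zero_of_mul h4
  refine ⟨(1 - t * t) / (1 + t * t), 2 * t / (1 + t * t), Or.inl ⟨?_, div_ne_zero h6 h5,
    div_ne_zero (mul_ne_zero h2 ht0) h5⟩⟩
  rw [div_mul_div_comm, div_mul_div_comm, ← add_div, div_eq_one_iff_eq (mul_ne_zero h5 h5)]
  ring

lemma rf_comm (hs : ∀ x : K, star x = x) (h2 : (2 : K) ≠ 0) (ho : Odd (Nat.card K)) (hno : Odd n)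
    {x : Fin n → K} (hx : x ⬝ᵥ x = 1) :
    (QuotientGroup.mk (rf hs x (by rw [hx]; exact one_ne_zero)) : PGU K n) ∈
      commutator (PGU K n) := by
  have hst : ∀ v : Fin n → K, star v = v := fun v => funext fun i => hs _
  set P : Ln K n := ⟨vecMulVec x x, x, by rw [hst, hx], by rw [hst]⟩ with hP
  have h3 := stmtB3 K hs ho n hno [P] (List.pairwise_singleton _ _)
  have h4 : eW (-1 : K) [P] = QuotientGroup.mk (rf hs x (by rw [hx]; exact one_ne_zero)) := by
    have h5 : eU (-1 : K) (sm [P]) = rf hs x (by rw [hx]; exact one_ne_zero) := by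
      apply Subtype.ext
      have h6 : sm [P] = vecMulVec x x := by
        show ([P.1] : List (Matrix (Fin n) (Fin n) K)).sum = _
        rw [List.sum_singleton]
      have h7 : star (sm [P]) = sm [P] ∧ sm [P] * sm [P] = sm [P] ∧ (-1 : K) * star (-1) = 1 := by
        rw [h6]
        refine ⟨?_, ?_, ?_⟩
        · ext i j
          rw [star_apply, vecMulVec_apply, vecMulVec_apply, hs, mul_comm]
        · rw [vecMulVec_mul_vecMulVec, hx, one_smul]
        · rw [hs]; ring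
      unfold eU
      rw [dif_pos h7]
      show 1 + ((-1 : K) - 1) • sm [P] = 1 - (2 / (x ⬝ᵥ x)) • vecMulVec x x
      rw [h6, hx, div_one, sub_eq_add_neg (1 : Matrix (Fin n) (Fin n) K), ← neg_smul]
      congr 2
      ring
    show (QuotientGroup.mk (eU (-1 : K) (sm [P])) : PGU K n) = _
    rw [h5]
  rw [← h4]
  exact h3

variable {L : Type v} [Group L]

/-- the involutions -/
def tt (hs : ∀ x : K, star x = x) (h2 : (2 : K) ≠ 0) (ho : Odd (Nat.card K)) (hno : Odd n)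
    (e : commutator (PGU K n) ≃* L) {x : Fin n → K} (hx : x ⬝ᵥ x = 1) : L :=
  e ⟨_, rf_comm hs h2 ho hno hx⟩

theorem conn_Om [Finite L] (hs : ∀ x : K, star x = x) (ho : Odd (Nat.card K))
    (h7 : 7 ≤ Nat.card K) (hno : Odd n) (hn : 5 ≤ n) (e : commutator (PGU K n) ≃* L)
    (X Y : Ap 2 L) : Relation.ReflTransGen (fun X Y : Ap 2 L => X ≤ Y ∨ Y ≤ X) X Y := by
  have h2 : (2 : K) ≠ 0 := H221.two_ne ho
  have hx0 : ∀ {x : Fin n → K}, x ⬝ᵥ x = 1 → x ⬝ᵥ x ≠ 0 := fun {x} hx => by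
    rw [hx]; exact one_ne_zero
  have hT2 : ∀ t ∈ {t : L | ∃ (x : Fin n → K) (hx : x ⬝ᵥ x = 1), t = tt hs h2 ho hno e hx},
      t ^ 2 = 1 := by
    rintro _ ⟨x, hx, rfl⟩
    unfold tt
    rw [← map_pow, ← map_one e]
    congr 1
    apply Subtype.ext
    show ((QuotientGroup.mk (rf hs x (hx0 hx)) : PGU K n)) ^ 2 = 1
    rw [← QuotientGroup.mk_pow]
    have h3 : (rf hs x (hx0 hx)) ^ 2 = 1 := by
      rw [pow_two]
      nth_rewrite 1 [← rf_inv hs x (hx0 hx)]
      exact inv_mul_cancel _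
    rw [h3]
    rfl
  have hT1 : ∀ t ∈ {t : L | ∃ (x : Fin n → K) (hx : x ⬝ᵥ x = 1), t = tt hs h2 ho hno e hx},
      t ≠ 1 := by
    rintro _ ⟨x, hx, rfl⟩ h
    unfold tt at h
    rw [← map_one e] at h
    have h3 := congrArg Subtype.val (e.injective h)
    have h4 : (rf hs x (hx0 hx)) ∈ Subgroup.center (GU K n) := (QuotientGroup.eq_one_iff _).1 h3
    obtain ⟨y, hxy, hy⟩ := exists_perp_one hs h2 (by omega) hx (one_ne_zero (α := K))
    obtain ⟨g, hg⟩ := exists_rf' hs h2 (hx0 hx) (hx.trans hy.symm)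
    have h5 := conj_rf hs (hx0 hx) (hx0 hy) (hx.trans hy.symm) g hg
    rw [Subgroup.mem_center_iff.1 h4 g, mul_inv_cancel_right] at h5
    have h6 : (rf hs x (hx0 hx) : Matrix (Fin n) (Fin n) K) *ᵥ x =
        (rf hs y (hx0 hy) : Matrix (Fin n) (Fin n) K) *ᵥ x := by rw [h5]
    rw [rf_fix hs (hx0 hy) (by rw [dotProduct_comm]; exact hxy), rf_mulVec, hx] at h6
    have h8 : (2 : K) • x = 0 := by
      have h9 : x - (2 * 1 / 1 : K) • x = -x := by
        rw [mul_one, div_one, two_smul]; abel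
      rw [h9] at h6
      rw [two_smul]
      nth_rewrite 1 [← h6]
      exact neg_add_cancel x
    have h10 : x = 0 := (smul_eq_zero.1 h8).resolve_left h2
    rw [h10, dotProduct_zero] at hx
    exact zero_ne_one hx
  have hcomm : ∀ {x y : Fin n → K} (hx : x ⬝ᵥ x = 1) (hy : y ⬝ᵥ y = 1), x ⬝ᵥ y = 0 →
      tt hs h2 ho hno e hx * tt hs h2 ho hno e hy = tt hs h2 ho hno e hy * tt hs h2 ho hno e hx := by
    intro x y hx hy hxy
    unfold tt
    rw [← map_mul, ← map_mul]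
    congr 1
    apply Subtype.ext
    show (QuotientGroup.mk (rf hs x (hx0 hx)) : PGU K n) * QuotientGroup.mk (rf hs y (hx0 hy)) =
      QuotientGroup.mk (rf hs y (hx0 hy)) * QuotientGroup.mk (rf hs x (hx0 hx))
    rw [← QuotientGroup.mk_mul, ← QuotientGroup.mk_mul]
    congr 1
    have h3 := conj_rf hs (hx0 hy) (hx0 hy) rfl (rf hs x (hx0 hx))
      (Or.inl (rf_fix hs (hx0 hx) hxy))
    exact mul_inv_eq_iff_eq_mul.1 h3
  refine conn_of {t : L | ∃ (x : Fin n → K) (hx : x ⬝ᵥ x = 1), t = tt hs h2 ho hno e hx}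
    ?_ hT2 hT1 ?_ ?_ X Y
  · have h3 : (Pi.single (⟨0, by omega⟩ : Fin n) (1 : K)) ⬝ᵥ
        (Pi.single (⟨0, by omega⟩ : Fin n) (1 : K)) = 1 := by simp
    exact ⟨_, _, h3, rfl⟩
  · rintro _ ⟨x, hx, rfl⟩ l
    obtain ⟨⟨g, hg⟩, rfl⟩ := e.surjective l
    obtain ⟨g, rfl⟩ := QuotientGroup.mk_surjective g
    have h3 : ((g : Matrix (Fin n) (Fin n) K) *ᵥ x) ⬝ᵥ ((g : Matrix (Fin n) (Fin n) K) *ᵥ x) = 1 := by
      rw [dot_map hs, hx]
    refine ⟨_, h3, ?_⟩
    unfold tt
    rw [← map_inv, ← map_mul, ← map_mul]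
    congr 1
    apply Subtype.ext
    show (QuotientGroup.mk g : PGU K n) * QuotientGroup.mk (rf hs x (hx0 hx)) *
      (QuotientGroup.mk g)⁻¹ = QuotientGroup.mk (rf hs _ (hx0 h3))
    rw [← conj_rf hs (hx0 hx) (hx0 h3) (hx.trans h3.symm) g (Or.inl rfl)]
    rfl
  · have key : ∀ {x y : Fin n → K} (hx : x ⬝ᵥ x = 1) (hy : y ⬝ᵥ y = 1), (x ⬝ᵥ y) ^ 2 ≠ 1 →
        Rl L (Zi (tt hs h2 ho hno e hx) (hT2 _ ⟨x, hx, rfl⟩) (hT1 _ ⟨x, hx, rfl⟩))
          (Zi (tt hs h2 ho hno e hy) (hT2 _ ⟨y, hy, rfl⟩) (hT1 _ ⟨y, hy, rfl⟩)) := by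
      intro x y hx hy hxy
      obtain ⟨z, hz1, hz2, hz⟩ := exists_perp_two hs h2 (by omega) hx
        (y := y - (x ⬝ᵥ y) • x) (by rw [dotProduct_sub, dotProduct_smul, hx, smul_eq_mul,
          mul_one, sub_self]) (by
          rw [sub_dotProduct, dotProduct_sub, dotProduct_sub]
          simp only [dotProduct_smul, smul_dotProduct, hx, hy, dotProduct_comm y x, smul_eq_mul]
          intro h
          apply hxy
          linear_combination -h) (one_ne_zero (α := K))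
      have hz3 : y ⬝ᵥ z = 0 := by
        rw [sub_dotProduct, smul_dotProduct, hz1, smul_zero, sub_zero] at hz2
        exact hz2
      have e1 := rl_comm (hz := hT2 _ ⟨x, hx, rfl⟩) (hw := hT2 _ ⟨z, hz, rfl⟩)
        (hz1 := hT1 _ ⟨x, hx, rfl⟩) (hw1 := hT1 _ ⟨z, hz, rfl⟩) (hcomm hx hz hz1)
      have e2 := rl_comm (hz := hT2 _ ⟨y, hy, rfl⟩) (hw := hT2 _ ⟨z, hz, rfl⟩)
        (hz1 := hT1 _ ⟨y, hy, rfl⟩) (hw1 := hT1 _ ⟨z, hz, rfl⟩) (hcomm hy hz hz3)
      exact e1.trans e2.symm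
    rintro _ _ ⟨x, hx, rfl⟩ ⟨y, hy, rfl⟩
    obtain ⟨w, hxw, hw, hwy⟩ : ∃ w : Fin n → K, x ⬝ᵥ w = 0 ∧ w ⬝ᵥ w = 1 ∧ (w ⬝ᵥ y) ^ 2 ≠ 1 := by
      obtain ⟨w1, h11, h12⟩ := exists_perp_one hs h2 (by omega) hx (one_ne_zero (α := K))
      obtain ⟨w2, h21, h22, h23⟩ := exists_perp_two hs h2 (by omega) hx h11 (hx0 h12)
        (one_ne_zero (α := K))
      by_cases hb1 : (w1 ⬝ᵥ y) ^ 2 = 1
      · by_cases hb2 : (w2 ⬝ᵥ y) ^ 2 = 1
        · obtain ⟨a, b, hab⟩ := exists_ab (K := K) (by rw [← Nat.card_eq_fintype_card]; exact h7)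
          obtain ⟨hab, ha, hb⟩ := hab.resolve_right h2
          have h22' : w2 ⬝ᵥ w1 = 0 := by rw [dotProduct_comm]; exact h22
          refine ⟨a • w1 + b • w2, ?_, ?_, ?_⟩
          · rw [dotProduct_add, dotProduct_smul, dotProduct_smul, h11, h21, smul_zero, smul_zero,
              add_zero]
          · rw [add_dotProduct, dotProduct_add, dotProduct_add]
            simp only [dotProduct_smul, smul_dotProduct, smul_eq_mul, h12, h22, h22', h23]
            linear_combination hab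
          · rw [add_dotProduct, smul_dotProduct, smul_dotProduct, smul_eq_mul, smul_eq_mul]
            intro h
            have h5 : 2 * (a * b) * ((w1 ⬝ᵥ y) * (w2 ⬝ᵥ y)) = 0 := by
              linear_combination h - hab - a ^ 2 * hb1 - b ^ 2 * hb2
            rcases mul_eq_zero.1 h5 with h6 | h6
            · exact mul_ne_zero h2 (mul_ne_zero ha hb) h6
            · rcases mul_eq_zero.1 h6 with h8 | h8
              · rw [h8] at hb1
                exact zero_ne_one ((zero_pow two_ne_zero).symm.trans hb1)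
              · rw [h8] at hb2
                exact zero_ne_one ((zero_pow two_ne_zero).symm.trans hb2)
        · exact ⟨w2, h21, h23, hb2⟩
      · exact ⟨w1, h11, h12, hb1⟩
    exact (key hx hw (by rw [hxw]; norm_num)).trans (key hw hy hwy)

end

end

end Vale.Agent.P240.R2.H715.Co
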