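import Vale.Agent.P240.H195.SixConn
import Mathlib.GroupTheory.PGroup
import Mathlib.GroupTheory.Sylow

/-!
P240: a criterion for the poset of elementary abelian `2`-subgroups to be connected.
-/

set_option autoImplicit false

namespace Vale.Agent.P240.R2.H715.Co

open Subgroup Vale.Agent.P240.K Vale.Agent.P240.H195

universe u

section
variable {L : Type u} [Group L]

lemma zi_le {X : Ap 2 L} {x : L} (hx : x ∈ X.1) (h2 : x ^ 2 = 1) (h1 : x ≠ 1) :
    Rl L (Zi x h2 h1) X :=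
  Relation.ReflTransGen.single (Or.inl (zpowers_le.2 hx))

/-- If an invariant set of involutions lies in one connected component of the poset of the
nontrivial elementary abelian `2`-subgroups, then the poset is connected. -/
theorem conn_of [Finite L] (T : Set L) (hne : T.Nonempty) (h2 : ∀ t ∈ T, t ^ 2 = 1)
    (h1 : ∀ t ∈ T, t ≠ 1) (hconj : ∀ t ∈ T, ∀ g : L, g * t * g⁻¹ ∈ T)
    (hT : ∀ (s t : L) (hs : s ∈ T) (ht : t ∈ T), Rl L (Zi s (h2 s hs) (h1 s hs))
      (Zi t (h2 t ht) (h1 t ht))) (X Y : Ap 2 L) :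
    Relation.ReflTransGen (fun X Y : Ap 2 L => X ≤ Y ∨ Y ≤ X) X Y := by
  have : Fact (Nat.Prime 2) := ⟨Nat.prime_two⟩
  obtain ⟨t, ht⟩ := hne
  have key : ∀ X : Ap 2 L, ∃ (s : L) (hs : s ∈ T), Rl L X (Zi s (h2 s hs) (h1 s hs)) := by
    intro X
    have hX : IsPGroup 2 X.1 := by
      intro x
      refine ⟨1, Subtype.ext ?_⟩
      rw [pow_one]
      exact X.2.2.2 x.1 x.2
    obtain ⟨P, hP⟩ := hX.exists_le_sylow
    have hZt : IsPGroup 2 (zpowers t) := by
      rintro ⟨x, n, rfl⟩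
      refine ⟨1, Subtype.ext ?_⟩
      show (t ^ n) ^ (2 ^ 1) = 1
      rw [pow_one, ← zpow_natCast, zpow_comm, zpow_natCast, h2 t ht, one_zpow]
    obtain ⟨P', hP'⟩ := hZt.exists_le_sylow
    obtain ⟨g, hg⟩ := MulAction.exists_smul_eq L P' P
    have hs : g * t * g⁻¹ ∈ T := hconj t ht g
    have hsP : g * t * g⁻¹ ∈ (P : Subgroup L) := by
      rw [← hg]
      exact Subgroup.smul_mem_pointwise_smul t (MulAut.conj g) _ (hP' (mem_zpowers t))
    have hPn : Nontrivial (P : Subgroup L) :=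
      ⟨⟨⟨g * t * g⁻¹, hsP⟩, 1, fun h => h1 _ hs (congrArg Subtype.val h)⟩⟩
    have hc : Nontrivial (center (P : Subgroup L)) := P.2.center_nontrivial
    obtain ⟨z, hz, hz2⟩ : ∃ z : center (P : Subgroup L), z ≠ 1 ∧ z ^ 2 = 1 := by
      have hcp : IsPGroup 2 (center (P : Subgroup L)) := P.2.to_subgroup _
      have hd : 2 ∣ Nat.card (center (P : Subgroup L)) := by
        obtain ⟨n, hn, hcard⟩ := hcp.nontrivial_iff_card.1 hc
        rw [hcard]
        exact dvd_pow_self 2 hn.ne'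
      obtain ⟨z, hz⟩ := exists_prime_orderOf_dvd_card' 2 hd
      refine ⟨z, fun h => ?_, ?_⟩
      · rw [h, orderOf_one] at hz
        exact absurd hz (by norm_num)
      · exact orderOf_dvd_iff_pow_eq_one.1 (dvd_of_eq hz)
    have hz1 : (z.1.1 : L) ≠ 1 := fun h => hz (Subtype.ext (Subtype.ext h))
    have hz2' : (z.1.1 : L) ^ 2 = 1 := congrArg (fun w => ((w.1 : (P : Subgroup L)) : L)) hz2
    have hzc : ∀ y ∈ (P : Subgroup L), z.1.1 * y = y * z.1.1 := by
      intro y hy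
      have h3 := mem_center_iff.1 z.2 ⟨y, hy⟩
      exact (congrArg Subtype.val h3).symm
    obtain ⟨x, hx, hx1⟩ := X.1.bot_or_exists_ne_one.resolve_left X.2.1
    have hx2 : x ^ 2 = 1 := X.2.2.2 x hx
    refine ⟨g * t * g⁻¹, hs, ?_⟩
    have e1 : Rl L X (Zi x hx2 hx1) := (zi_le hx hx2 hx1).symm
    have e2 : Rl L (Zi x hx2 hx1) (Zi z.1.1 hz2' hz1) := rl_comm (hzc x (hP hx)).symm
    have e3 : Rl L (Zi z.1.1 hz2' hz1) (Zi (g * t * g⁻¹) (h2 _ hs) (h1 _ hs)) :=
      rl_comm (hzc _ hsP)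
    exact (e1.trans e2).trans e3
  obtain ⟨s, hs, e1⟩ := key X
  obtain ⟨s', hs', e2⟩ := key Y
  exact (e1.trans (hT s s' hs hs')).trans e2.symm

end

end Vale.Agent.P240.R2.H715.Co
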