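import Vale.Agent.P240.H195.Defs
import Vale.Agent.P240.Bdl.B1

/-!
P240: coprime action of an abelian group of exponent `r` on an elementary abelian `p`-group.
-/

set_option autoImplicit false

namespace Vale.Agent.P240.R2.H715.Or

open Subgroup Vale.Agent.P240.K

universe u

section

variable {G : Type u} [Group G]

/-- conjugation as an endomorphism of an invariant subgroup -/
def cjE {D : Subgroup G} (u : G) (h : ∀ d ∈ D, u * d * u⁻¹ ∈ D) : D →* D where
  toFun d := ⟨u * d * u⁻¹, h d d.2⟩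
  map_one' := Subtype.ext (by simp)
  map_mul' a b := Subtype.ext (by simp [mul_assoc])

theorem coprime_gen [Finite G] {U D : Subgroup G} {r p : ℕ} (hr : r.Prime) (hp : p.Prime)
    (hpr : p ≠ r) (hUc : ∀ x ∈ U, ∀ y ∈ U, x * y = y * x) (hUr : ∀ x ∈ U, x ^ r = 1)
    (hDc : ∀ x ∈ D, ∀ y ∈ D, x * y = y * x) (hDp : ∀ x ∈ D, x ^ p = 1)
    (hUD : ∀ u ∈ U, ∀ d ∈ D, u * d * u⁻¹ ∈ D)
    (h : ∀ H ≤ U, (∃ v ∈ U, ∀ u ∈ U, ∃ k : ℕ, u * v ^ k ∈ H) →
      ∀ d ∈ D, (∀ u ∈ H, u * d = d * u) → d = 1) : D = ⊥ := by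
  classical
  by_contra hD
  -- a maximal subgroup with nontrivial centralizer
  let P : Set (Subgroup G) := {H | H ≤ U ∧ ∃ d ∈ D, d ≠ 1 ∧ ∀ u ∈ H, u * d = d * u}
  have hne : P.Nonempty := by
    obtain ⟨⟨d, hd⟩, hd1⟩ := (ne_bot_iff_exists_ne_one).1 hD
    refine ⟨⊥, bot_le, d, hd, fun h => hd1 (Subtype.ext h), ?_⟩
    intro u hu
    rw [mem_bot.1 hu, one_mul, mul_one]
  obtain ⟨H, hH⟩ := (Set.toFinite P).exists_maximal hne
  obtain ⟨⟨hHU, d₀, hd₀, hd₀1, hd₀c⟩, hmax⟩ := hH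
  have hmax' : ∀ z ∈ U, z ∉ H → ∀ d ∈ D, (∀ u ∈ H, u * d = d * u) → z * d = d * z → d = 1 := by
    intro z hz hzH d hd hdc hzd
    by_contra hd1
    have h1 : H ⊔ zpowers z ∈ P := by
      refine ⟨sup_le hHU (by rw [zpowers_le]; exact hz), d, hd, hd1, ?_⟩
      have h2 : H ⊔ zpowers z ≤ centralizer {d} := by
        refine sup_le (fun u hu => mem_centralizer_singleton_iff.2 (hdc u hu)) ?_
        rw [zpowers_le]
        exact mem_centralizer_singleton_iff.2 hzd
      exact fun u hu => mem_centralizer_singleton_iff.1 (h2 hu)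
    have h3 := hmax h1 le_sup_left
    exact hzH (h3 (mem_sup_right (mem_zpowers z)))
  have hno : ¬ ∃ v ∈ U, ∀ u ∈ U, ∃ k : ℕ, u * v ^ k ∈ H := fun hex =>
    hd₀1 (h H hHU hex d₀ hd₀ hd₀c)
  push Not at hno
  obtain ⟨b, hb, hb1⟩ := hno 1 (one_mem U)
  have hbH : b ∉ H := by
    have := hb1 0
    rwa [pow_zero, mul_one] at this
  obtain ⟨a, ha, hab⟩ := hno b hb
  have hbi : ∀ i, 0 < i → i < r → b ^ i ∉ H := by
    intro i hi0 hir hi
    have hcop : Nat.Coprime i r := (hr.coprime_iff_not_dvd.2 fun hd =>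
      absurd (Nat.le_of_dvd hi0 hd) (by omega)).symm
    obtain ⟨m, -, hm⟩ := Nat.exists_mul_mod_eq_one_of_coprime hcop hr.one_lt
    apply hbH
    have h1 : b ^ (i * m) = b := by
      conv_lhs => rw [← Nat.div_add_mod (i * m) r, hm, pow_add, pow_mul, hUr b hb, one_pow,
        one_mul, pow_one]
    rw [← h1, pow_mul]
    exact pow_mem hi m
  -- the centralizer of `H` in `D`
  set C : Subgroup G := D ⊓ centralizer (H : Set G) with hC
  have hCc : ∀ d ∈ C, ∀ u ∈ H, u * d = d * u := fun d hd u hu =>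
    mem_centralizer_iff.1 hd.2 u hu
  have hCinv : ∀ u ∈ U, ∀ d ∈ C, u * d * u⁻¹ ∈ C := by
    intro u hu d hd
    refine ⟨hUD u hu d hd.1, mem_centralizer_iff.2 fun t ht => ?_⟩
    have h1 := hCc d hd t ht
    have h2 := hUc u hu t (hHU ht)
    have h3 : u⁻¹ * t = t * u⁻¹ := by
      rw [inv_mul_eq_iff_eq_mul, ← mul_assoc, h2, mul_inv_cancel_right]
    calc t * (u * d * u⁻¹) = (t * u) * d * u⁻¹ := by group
      _ = u * (t * d) * u⁻¹ := by rw [← h2]; group
      _ = u * d * (t * u⁻¹) := by rw [h1]; group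
      _ = u * d * u⁻¹ * t := by rw [← h3]; group
  let _ : CommGroup C := { (inferInstance : Group C) with
    mul_comm := fun x y => Subtype.ext (hDc x x.2.1 y y.2.1) }
  have hfree : ∀ z (hz : z ∈ U), z ∉ H → ∀ v : C, z * v * z⁻¹ = v → v = 1 := by
    intro z hz hzH v hv
    refine Subtype.ext (hmax' z hz hzH v v.2.1 (hCc v v.2) ?_)
    rw [← mul_inv_eq_iff_eq_mul]
    exact hv
  let f : U →* (Monoid.End C) :=
    { toFun := fun u => cjE (u : G) (hCinv u u.2)
      map_one' := by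
        refine MonoidHom.ext fun d => Subtype.ext ?_
        show (1 : G) * d * 1⁻¹ = d
        simp
      map_mul' := by
        intro u v
        refine MonoidHom.ext fun d => Subtype.ext ?_
        show (u * v : G) * d * (u * v : G)⁻¹ = u * (v * d * (v : G)⁻¹) * (u : G)⁻¹
        group }
  have hf : ∀ (u : U) (d : C), ((f u d : C) : G) = u * d * (u : G)⁻¹ := fun _ _ => rfl
  have hall : ∀ v : C, v ^ r = 1 := by
    refine pow_one_of_free hr.pos (f ⟨a, ha⟩) (f ⟨b, hb⟩) ?_ ?_ ?_ ?_ ?_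
    · show f ⟨a, ha⟩ * f ⟨b, hb⟩ = f ⟨b, hb⟩ * f ⟨a, ha⟩
      rw [← map_mul, ← map_mul]
      congr 1
      exact Subtype.ext (hUc a ha b hb)
    · rw [← map_pow]
      have : (⟨a, ha⟩ : U) ^ r = 1 := Subtype.ext (hUr a ha)
      rw [this, map_one]
    · rw [← map_pow]
      have : (⟨b, hb⟩ : U) ^ r = 1 := Subtype.ext (hUr b hb)
      rw [this, map_one]
    · intro j _ v hv
      rw [← map_pow, ← map_mul] at hv
      exact hfree (a * b ^ j) (mul_mem ha (pow_mem hb j)) (hab j) v (congrArg Subtype.val hv)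
    · intro i hi0 hir v hv
      rw [← map_pow] at hv
      exact hfree (b ^ i) (pow_mem hb i) (hbi i hi0 hir) v (congrArg Subtype.val hv)
  have h1 : d₀ ^ r = 1 := congrArg Subtype.val (hall ⟨d₀, hd₀, mem_centralizer_iff.2 hd₀c⟩)
  have h2 := hDp d₀ hd₀
  apply hd₀1
  rw [← orderOf_eq_one_iff]
  exact Nat.eq_one_of_dvd_coprimes ((Nat.coprime_primes hr hp).2 hpr.symm)
    (orderOf_dvd_of_pow_eq_one h1) (orderOf_dvd_of_pow_eq_one h2)

end

end Vale.Agent.P240.R2.H715.Or
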