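import Vale.Agent.P240.R2.H715.OrA
import Mathlib.LinearAlgebra.BilinearForm.Orthogonal
import Mathlib.FieldTheory.Finite.Basic

/-!
P240: Siegel transformations of orthogonal groups.
-/

set_option autoImplicit false

namespace Vale.Agent.P240.R2.H715.Or

open LinearMap (BilinForm)

universe u v w x

noncomputable section

section

variable {K : Type u} [Field K] {V : Type v} [AddCommGroup V] [Module K V] (B : BilinForm K V)

/-- the Siegel transformation of an isotropic vector `e` and a vector `w` orthogonal to `e` -/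
def sg (e w x : V) : V := x + B x e • w - (B x w + B w w / 2 * B x e) • e

variable {B}

lemma sg_add (h2 : (2 : K) ≠ 0) (hs : ∀ x y, B x y = B y x) {e w w' : V} (he : B e e = 0)
    (hw : B e w = 0) (hw' : B e w' = 0) (x : V) :
    sg B e w (sg B e w' x) = sg B e (w + w') x := by
  have hwe : B w' e = 0 := by rw [hs]; exact hw'
  have h1 : B (sg B e w' x) e = B x e := by
    unfold sg
    simp only [map_add, map_sub, map_smul, LinearMap.add_apply, LinearMap.sub_apply,
      LinearMap.smul_apply, smul_eq_mul, he, hwe]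
    ring
  have h3 : B (sg B e w' x) w = B x w + B x e * B w' w := by
    unfold sg
    simp only [map_add, map_sub, map_smul, LinearMap.add_apply, LinearMap.sub_apply,
      LinearMap.smul_apply, smul_eq_mul, hw]
    ring
  have key : (B x w' + B w' w' / 2 * B x e) + (B x w + B x e * B w' w + B w w / 2 * B x e) =
      B x (w + w') + B (w + w') (w + w') / 2 * B x e := by
    simp only [map_add, LinearMap.add_apply]
    rw [hs w w']
    field_simp
    ring
  have h4 : sg B e w (sg B e w' x) = x + B x e • (w + w') - ((B x w' + B w' w' / 2 * B x e) +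
      (B x w + B x e * B w' w + B w w / 2 * B x e)) • e := by
    conv_lhs => unfold sg
    have h5 : x + (B x) e • w' - ((B x) w' + (B w') w' / 2 * (B x) e) • e = sg B e w' x := rfl
    rw [h5, h1, h3]
    unfold sg
    module
  rw [h4, key]
  rfl

lemma sg_conj {g : V ≃ₗ[K] V} (hg : ∀ x y, B (g x) (g y) = B x y) (e w x : V) :
    g (sg B e w x) = sg B (g e) (g w) (g x) := by
  unfold sg
  simp only [map_add, map_sub, map_smul, hg]

lemma sg_smul (a : K) (e w x : V) : sg B (a • e) w x = sg B e (a • w) x := by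
  unfold sg
  simp only [map_smul, LinearMap.smul_apply, smul_eq_mul]
  module

lemma sg_self {e : V} (he : B e e = 0) (c : K) (x : V) : sg B e (c • e) x = x := by
  unfold sg
  simp only [map_smul, LinearMap.smul_apply, smul_eq_mul, he]
  module

end

/-- the data: `S` acts on `V` by isometries, `L` is the quotient of `S` by the scalars, and `S`
contains all Siegel transformations -/
structure OD {K : Type u} [Field K] {V : Type v} [AddCommGroup V] [Module K V]
    (B : BilinForm K V) {S : Type w} [Group S] (act : S →* (V ≃ₗ[K] V)) {L : Type x} [Group L]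
    (π : S →* L) : Prop where
  two : (2 : K) ≠ 0
  symm : ∀ x y, B x y = B y x
  nd : ∀ x, (∀ y, B x y = 0) → x = 0
  iso : ∀ g x y, B (act g x) (act g y) = B x y
  rho : ∀ e w, B e e = 0 → B e w = 0 → ∃ g : S, ∀ x, act g x = sg B e w x
  surj : Function.Surjective π
  ker : ∀ g, π g = 1 ↔ ∃ c : K, ∀ x, act g x = c • x

section

variable {K : Type u} [Field K] {V : Type v} [AddCommGroup V] [Module K V]
  {B : BilinForm K V} {S : Type w} [Group S] {act : S →* (V ≃ₗ[K] V)} {L : Type x} [Group L]
  {π : S →* L}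

open Classical in
/-- the image of the Siegel transformation in `L` -/
def ur (B : BilinForm K V) (act : S →* (V ≃ₗ[K] V)) (π : S →* L) (e w : V) : L :=
  if h : ∃ g : S, ∀ x, act g x = sg B e w x then π h.choose else 1

lemma OD.eq_of_act (h : OD B act π) {g g' : S} {c : K} (hc : ∀ x, act g x = c • act g' x) :
    π g = π g' := by
  rw [← mul_inv_eq_one, ← map_inv, ← map_mul, h.ker]
  refine ⟨c, fun x => ?_⟩
  have h1 : act (g * g'⁻¹) x = act g (act g'⁻¹ x) := by rw [map_mul]; rfl
  have h2 : act g' (act g'⁻¹ x) = x := by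
    have : act (g' * g'⁻¹) x = x := by rw [mul_inv_cancel, map_one]; rfl
    rwa [map_mul] at this
  rw [h1, hc, h2]

lemma OD.ur_eq (h : OD B act π) {g : S} {e w : V} (hg : ∀ x, act g x = sg B e w x) :
    ur B act π e w = π g := by
  have hex : ∃ g : S, ∀ x, act g x = sg B e w x := ⟨g, hg⟩
  unfold ur
  rw [dif_pos hex]
  exact h.eq_of_act (c := 1) fun x => by rw [hex.choose_spec, hg, one_smul]

lemma OD.mul_act (g g' : S) (x : V) : act (g * g') x = act g (act g' x) := by
  rw [map_mul]
  rfl

lemma OD.inv_act (g : S) (x : V) : act g (act g⁻¹ x) = x := by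
  rw [← OD.mul_act, mul_inv_cancel, map_one]
  rfl

lemma OD.inv_act' (g : S) (x : V) : act g⁻¹ (act g x) = x := by
  rw [← OD.mul_act, inv_mul_cancel, map_one]
  rfl

lemma OD.ur_add (h : OD B act π) {e w w' : V} (he : B e e = 0) (hw : B e w = 0)
    (hw' : B e w' = 0) : ur B act π e w * ur B act π e w' = ur B act π e (w + w') := by
  obtain ⟨g, hg⟩ := h.rho e w he hw
  obtain ⟨g', hg'⟩ := h.rho e w' he hw'
  rw [h.ur_eq hg, h.ur_eq hg', ← map_mul]
  refine (h.ur_eq fun x => ?_).symm
  rw [OD.mul_act, hg', hg, sg_add h.two h.symm he hw hw']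

lemma OD.ur_conj (h : OD B act π) (g : S) {e w : V} (he : B e e = 0) (hw : B e w = 0) :
    π g * ur B act π e w * (π g)⁻¹ = ur B act π (act g e) (act g w) := by
  obtain ⟨t, ht⟩ := h.rho e w he hw
  rw [h.ur_eq ht, ← map_inv, ← map_mul, ← map_mul]
  refine (h.ur_eq fun x => ?_).symm
  rw [OD.mul_act, OD.mul_act, ht, sg_conj (h.iso g), OD.inv_act]

lemma OD.ur_smul (h : OD B act π) (a : K) {e w : V} (he : B e e = 0) (hw : B e w = 0) :
    ur B act π (a • e) w = ur B act π e (a • w) := by
  obtain ⟨t, ht⟩ := h.rho e (a • w) he (by rw [map_smul, hw, smul_zero])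
  rw [h.ur_eq ht]
  exact h.ur_eq fun x => by rw [ht, sg_smul]

lemma OD.ur_self (h : OD B act π) (c : K) {e : V} (he : B e e = 0) :
    ur B act π e (c • e) = 1 := by
  have h1 : ∀ x, act (1 : S) x = sg B e (c • e) x := fun x => by
    rw [sg_self he, map_one]
    rfl
  rw [h.ur_eq h1, map_one]

lemma OD.exists_one (h : OD B act π) {e : V} (he : e ≠ 0) : ∃ x, B x e = 1 := by
  have h1 : ¬ ∀ y, B e y = 0 := fun h1 => he (h.nd e h1)
  push Not at h1
  obtain ⟨y, hy⟩ := h1
  refine ⟨(B e y)⁻¹ • y, ?_⟩
  rw [map_smul, LinearMap.smul_apply, smul_eq_mul, h.symm y e, inv_mul_cancel₀ hy]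

/-- two Siegel transformations with the same image are equal -/
lemma OD.ur_inj (h : OD B act π) {e w e' w' : V} (he0 : e ≠ 0) (he : B e e = 0) (hw : B e w = 0)
    (he' : B e' e' = 0) (hw' : B e' w' = 0) (hu : ur B act π e w = ur B act π e' w') (x : V) :
    sg B e w x = sg B e' w' x := by
  obtain ⟨g, hg⟩ := h.rho e w he hw
  obtain ⟨g', hg'⟩ := h.rho e' w' he' hw'
  rw [h.ur_eq hg, h.ur_eq hg', ← mul_inv_eq_one, ← map_inv, ← map_mul, h.ker] at hu
  obtain ⟨c, hc⟩ := hu
  have h1 : ∀ x, sg B e w x = c • sg B e' w' x := by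
    intro x
    have h2 := hc (act g' x)
    rw [OD.mul_act, OD.inv_act', hg, hg'] at h2
    exact h2
  -- `c = 1`
  have hsymm := h.symm
  set N : V → V := fun x => sg B e' w' x - x with hN
  have hlin : ∀ (a : K) (y : V), N (a • y) = a • N y := by
    intro a y
    simp only [hN, sg, map_smul, LinearMap.smul_apply, smul_eq_mul]
    module
  have hwe' : B w' e' = 0 := by rw [hsymm]; exact hw'
  have hNe : N e' = 0 := by
    simp only [hN, sg, he', hw']
    module
  have hN3 : ∀ y, N (N (N y)) = 0 := by
    intro y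
    have e1 : B (N y) e' = 0 := by
      simp only [hN, sg, map_add, map_sub, map_smul, LinearMap.add_apply, LinearMap.sub_apply,
        LinearMap.smul_apply, smul_eq_mul, he', hwe']
      ring
    have e2 : ∃ a : K, N (N y) = a • e' := by
      refine ⟨-(B (N y) w'), ?_⟩
      show sg B e' w' (N y) - N y = _
      unfold sg
      rw [e1]
      module
    obtain ⟨a, ha⟩ := e2
    rw [ha, hlin, hNe, smul_zero]
  have hwe : B w e = 0 := by rw [hsymm]; exact hw
  have hse : sg B e w e = e := by
    unfold sg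
    rw [he, hw]
    module
  have hc0 : c ≠ 0 := by
    rintro rfl
    have := h1 e
    rw [hse, zero_smul] at this
    exact he0 this
  have h3 : N e = (c⁻¹ - 1) • e := by
    have h4 := h1 e
    rw [hse] at h4
    show sg B e' w' e - e = _
    have h5 : sg B e' w' e = c⁻¹ • e := by
      conv_rhs => rw [h4]
      rw [smul_smul, inv_mul_cancel₀ hc0, one_smul]
    rw [h5]
    module
  have h6 := hN3 e
  rw [h3, hlin, h3, hlin, hlin, h3, smul_smul, smul_smul] at h6
  have h7 := (smul_eq_zero.1 h6).resolve_right he0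
  have h8 : c⁻¹ - 1 = 0 := by
    rcases mul_eq_zero.1 h7 with h | h
    · rcases mul_eq_zero.1 h with h | h <;> exact h
    · exact h
  have h9 : c = 1 := by
    rw [sub_eq_zero] at h8
    rw [← inv_inv c, h8, inv_one]
  rw [h1, h9, one_smul]

lemma OD.ur_eq_iff (h : OD B act π) {e w w' : V} (he0 : e ≠ 0) (he : B e e = 0) (hw : B e w = 0)
    (hw' : B e w' = 0) : ur B act π e w = ur B act π e w' ↔ ∃ c : K, w = w' + c • e := by
  constructor
  · intro hu
    have h1 := h.ur_inj he0 he hw he hw' hu
    obtain ⟨x, hx⟩ := h.exists_one he0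
    have h2 := h1 x
    unfold sg at h2
    rw [hx, one_smul, one_smul] at h2
    refine ⟨(B x w + B w w / 2 * 1) - (B x w' + B w' w' / 2 * 1), ?_⟩
    refine eq_of_sub_eq_zero ?_
    rw [← sub_eq_zero.2 h2]
    module
  · rintro ⟨c, rfl⟩
    rw [← h.ur_add he hw' (by rw [map_smul, he, smul_zero]), h.ur_self c he, mul_one]

end

end

end Vale.Agent.P240.R2.H715.Or
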