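import Vale.Agent.P240.R2.H715.OrB
import Mathlib.LinearAlgebra.Dimension.Finite

/-!
P240: centralizers of the groups of Siegel transformations.
-/

set_option autoImplicit false

namespace Vale.Agent.P240.R2.H715.Or

open Module
open LinearMap (BilinForm)

universe u v w x

noncomputable section

section dim

variable {K : Type u} [Field K] {V : Type v} [AddCommGroup V] [Module K V] [FiniteDimensional K V]

lemma exists_notin (W : Submodule K V) (s : Finset V) (h : s.card < finrank K W) :
    ∃ y ∈ W, y ∉ Submodule.span K (s : Set V) := by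
  by_contra hcon
  push Not at hcon
  have h1 : W ≤ Submodule.span K (s : Set V) := hcon
  have h2 := Submodule.finrank_mono h1
  have h3 : finrank K (Submodule.span K (s : Set V)) ≤ s.card := finrank_span_finset_le_card s
  omega

lemma finrank_ker (f : V →ₗ[K] K) : finrank K V ≤ finrank K (LinearMap.ker f) + 1 := by
  have h1 := LinearMap.finrank_range_add_finrank_ker f
  have h2 : finrank K (LinearMap.range f) ≤ 1 := by
    have := Submodule.finrank_le (LinearMap.range f)
    rwa [finrank_self] at this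
  omega

lemma finrank_ker2 (f g : V →ₗ[K] K) :
    finrank K V ≤ finrank K (LinearMap.ker f ⊓ LinearMap.ker g : Submodule K V) + 2 := by
  have h1 := Submodule.finrank_sup_add_finrank_inf_eq (LinearMap.ker f) (LinearMap.ker g)
  have h2 := finrank_ker f
  have h3 := finrank_ker g
  have h4 := Submodule.finrank_le (LinearMap.ker f ⊔ LinearMap.ker g)
  omega

end dim

section

variable {K : Type u} [Field K] {V : Type v} [AddCommGroup V] [Module K V]
  {B : BilinForm K V} {S : Type w} [Group S] {act : S →* (V ≃ₗ[K] V)} {L : Type x} [Group L]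
  {π : S →* L}

lemma OD.perp_sub (h : OD B act π) {e z : V} (he : e ≠ 0) (hz : ∀ x, B x e = 0 → B x z = 0) :
    ∃ c : K, z = c • e := by
  obtain ⟨x₀, hx₀⟩ := h.exists_one he
  refine ⟨B x₀ z, ?_⟩
  rw [← sub_eq_zero]
  apply h.nd
  intro x
  have h1 := hz (x - B x e • x₀) (by
    rw [map_sub, map_smul, LinearMap.sub_apply, LinearMap.smul_apply, hx₀, smul_eq_mul, mul_one,
      sub_self])
  rw [map_sub, map_smul, LinearMap.sub_apply, LinearMap.smul_apply, smul_eq_mul] at h1
  rw [map_sub, map_smul, LinearMap.sub_apply, LinearMap.smul_apply, smul_eq_mul, h.symm z x,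
    h.symm e x]
  linear_combination h1

lemma OD.exists_pair (h : OD B act π) {e z : V} (he : e ≠ 0) (hz : ∀ c : K, z ≠ c • e) :
    ∃ x, B x e = 0 ∧ B x z = 1 := by
  have h1 : ∃ x, B x e = 0 ∧ B x z ≠ 0 := by
    by_contra hcon
    push Not at hcon
    obtain ⟨c, hc⟩ := h.perp_sub he hcon
    exact hz c hc
  obtain ⟨x, hx, hxz⟩ := h1
  refine ⟨(B x z)⁻¹ • x, ?_, ?_⟩
  · rw [map_smul, LinearMap.smul_apply, hx, smul_zero]
  · rw [map_smul, LinearMap.smul_apply, smul_eq_mul, inv_mul_cancel₀ hxz]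

/-- the vectors orthogonal to all vectors orthogonal to `e` and `e'` -/
lemma OD.perp_sub2 (h : OD B act π) {e e' z : V} (he : e ≠ 0) (he' : ∀ c : K, e' ≠ c • e)
    (hz : ∀ x, B x e = 0 → B x e' = 0 → B x z = 0) : ∃ a b : K, z = a • e + b • e' := by
  have he'0 : e' ≠ 0 := fun h0 => he' 0 (by rw [h0, zero_smul])
  have hee : ∀ c : K, e ≠ c • e' := by
    intro c hc
    have hc0 : c ≠ 0 := by
      rintro rfl
      exact he (by rw [hc, zero_smul])
    exact he' c⁻¹ (by rw [hc, smul_smul, inv_mul_cancel₀ hc0, one_smul])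
  obtain ⟨v₁, h1, h2⟩ := h.exists_pair he he'
  obtain ⟨v₀, h3, h4⟩ := h.exists_pair he'0 hee
  refine ⟨B v₀ z, B v₁ z, ?_⟩
  rw [← sub_eq_zero]
  apply h.nd
  intro x
  have h5 := hz (x - B x e • v₀ - B x e' • v₁) (by
    simp only [map_sub, map_smul, LinearMap.sub_apply, LinearMap.smul_apply, smul_eq_mul, h1, h4]
    ring) (by
    simp only [map_sub, map_smul, LinearMap.sub_apply, LinearMap.smul_apply, smul_eq_mul, h2, h3]
    ring)
  simp only [map_sub, map_smul, map_add, LinearMap.sub_apply, LinearMap.add_apply,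
    LinearMap.smul_apply, smul_eq_mul] at h5 ⊢
  rw [h.symm z x, h.symm e x, h.symm e' x]
  linear_combination h5

/-- elements whose image commutes with two independent Siegel transformations fix the point -/
lemma OD.fix_line (h : OD B act π) {e w₁ w₂ : V} (he0 : e ≠ 0) (he : B e e = 0)
    (hw₁ : B e w₁ = 0) (hw₂ : B e w₂ = 0) (hi₁ : ∀ c : K, w₁ ≠ c • e)
    (hi₂ : ∀ a b : K, w₂ ≠ a • e + b • w₁) {g : S}
    (hc₁ : π g * ur B act π e w₁ = ur B act π e w₁ * π g)
    (hc₂ : π g * ur B act π e w₂ = ur B act π e w₂ * π g) :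
    ∃ a : K, a ≠ 0 ∧ act g e = a • e := by
  have hge0 : act g e ≠ 0 := fun h0 => he0 ((act g).map_eq_zero_iff.1 h0)
  have key : ∀ w, B e w = 0 → (∀ c : K, w ≠ c • e) →
      π g * ur B act π e w = ur B act π e w * π g → ∃ α β : K, act g e = α • w + β • e := by
    intro w hw hi hc
    have h1 : ur B act π (act g e) (act g w) = ur B act π e w := by
      rw [← h.ur_conj g he hw, hc, mul_inv_cancel_right]
    have h2 := h.ur_inj hge0 (by rw [h.iso, he]) (by rw [h.iso, hw]) he hw h1
    obtain ⟨x, hx, hxw⟩ := h.exists_pair he0 hi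
    have h3 := h2 (act g x)
    unfold sg at h3
    rw [h.iso, h.iso, h.iso, hx, hxw] at h3
    refine ⟨-(B (act g x) e), B (act g x) w + B w w / 2 * B (act g x) e, ?_⟩
    have h4 := sub_eq_zero.2 h3
    rw [← sub_eq_zero, ← neg_eq_zero, ← h4]
    module
  obtain ⟨α₁, β₁, h1⟩ := key w₁ hw₁ hi₁ hc₁
  have hi₂' : ∀ c : K, w₂ ≠ c • e := fun c hc => hi₂ c 0 (by rw [hc, zero_smul, add_zero])
  obtain ⟨α₂, β₂, h3⟩ := key w₂ hw₂ hi₂' hc₂
  have h4 : α₂ = 0 := by
    by_contra hα
    have h5 : α₂ • w₂ = α₁ • w₁ + β₁ • e - β₂ • e := by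
      rw [← h1, h3]
      module
    apply hi₂ (α₂⁻¹ * (β₁ - β₂)) (α₂⁻¹ * α₁)
    calc w₂ = α₂⁻¹ • (α₂ • w₂) := by rw [smul_smul, inv_mul_cancel₀ hα, one_smul]
      _ = _ := by rw [h5]; module
  rw [h4, zero_smul, zero_add] at h3
  refine ⟨β₂, ?_, h3⟩
  rintro rfl
  rw [zero_smul] at h3
  exact hge0 h3

lemma OD.comm_iff (h : OD B act π) {e w : V} (he0 : e ≠ 0) (he : B e e = 0) (hw : B e w = 0)
    {g : S} {a : K} (ha : a ≠ 0) (hg : act g e = a • e) :
    π g * ur B act π e w = ur B act π e w * π g ↔ ∃ c : K, a • act g w = w + c • e := by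
  have hgw : B e (act g w) = 0 := by
    have h1 := h.iso g e w
    rw [hg, hw, map_smul, LinearMap.smul_apply, smul_eq_mul] at h1
    exact (mul_eq_zero.1 h1).resolve_left ha
  have h1 : π g * ur B act π e w * (π g)⁻¹ = ur B act π e (a • act g w) := by
    rw [h.ur_conj g he hw, hg, h.ur_smul a he hgw]
  rw [← h.ur_eq_iff he0 he (by rw [map_smul, hgw, smul_zero]) hw, ← h1, mul_inv_eq_iff_eq_mul]

/-- the vectors fixed modulo `e` -/
def TG (B : BilinForm K V) (f : V ≃ₗ[K] V) (a : K) (e : V) : Submodule K V where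
  carrier := {w | B e w = 0 ∧ ∃ c : K, a • f w = w + c • e}
  add_mem' := by
    rintro x y ⟨hx, c, hc⟩ ⟨hy, d, hd⟩
    refine ⟨by rw [map_add, hx, hy, add_zero], c + d, ?_⟩
    rw [map_add, smul_add, hc, hd]
    module
  zero_mem' := ⟨map_zero _, 0, by rw [map_zero]; module⟩
  smul_mem' := by
    rintro t x ⟨hx, c, hc⟩
    refine ⟨by rw [map_smul, hx, smul_zero], t * c, ?_⟩
    rw [map_smul, smul_comm, hc]
    module

lemma OD.z_perp (h : OD B act π) {e : V} {g : S} {a : K} (ha : a * a = 1) (hg : act g e = a • e)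
    {v t : V} (hv : B e v = 0) (ht : t ∈ TG B (act g) a e) : B (a • act g v - v) t = 0 := by
  obtain ⟨-, c, hc⟩ := ht
  have h1 : a • act g e = e := by rw [hg, smul_smul, ha, one_smul]
  have h2 : ∀ x y, B (a • act g x) (a • act g y) = B x y := by
    intro x y
    rw [map_smul, map_smul, LinearMap.smul_apply, smul_eq_mul, smul_eq_mul, h.iso, ← mul_assoc, ha,
      one_mul]
  have h3 : t = a • act g t - c • e := by rw [hc]; module
  have h6 : B (a • act g v) e = 0 := by
    have h7 := h2 v e
    rw [h1, h.symm v e, hv] at h7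
    exact h7
  have h4 : B (a • act g v) t = B v t := by
    conv_lhs => rw [h3]
    rw [map_sub, h2 v t, map_smul, h6, smul_zero, sub_zero]
  rw [map_sub, LinearMap.sub_apply, h4, sub_self]

/-- if all vectors of `e^⊥` are fixed modulo `e` then the element is a Siegel transformation -/
lemma OD.mem_U (h : OD B act π) {e : V} (he0 : e ≠ 0) (he : B e e = 0) {g : S} {a : K}
    (ha : a * a = 1) (hg : act g e = a • e) (hT : ∀ y, B e y = 0 → y ∈ TG B (act g) a e) :
    ∃ z, B e z = 0 ∧ π g = ur B act π e z := by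
  obtain ⟨x₀, hx₀⟩ := h.exists_one he0
  have h1 : a • act g e = e := by rw [hg, smul_smul, ha, one_smul]
  have h2 : ∀ x y, B (a • act g x) (a • act g y) = B x y := by
    intro x y
    rw [map_smul, map_smul, LinearMap.smul_apply, smul_eq_mul, smul_eq_mul, h.iso, ← mul_assoc, ha,
      one_mul]
  set z : V := a • act g x₀ - x₀ with hz
  have hx₀' : B e x₀ = 1 := by rw [h.symm]; exact hx₀
  have hez : B e z = 0 := by
    have h3 := h2 e x₀
    rw [h1] at h3
    rw [hz, map_sub, h3, sub_self]
  have hgx : a • act g x₀ = x₀ + z := by rw [hz]; module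
  have hnorm : 2 * B x₀ z + B z z = 0 := by
    have h3 := h2 x₀ x₀
    rw [hgx] at h3
    simp only [map_add, LinearMap.add_apply] at h3
    rw [h.symm z x₀] at h3
    linear_combination h3
  refine ⟨z, hez, ?_⟩
  obtain ⟨t, ht⟩ := h.rho e z he hez
  rw [h.ur_eq ht]
  refine h.eq_of_act (c := a) fun x => ?_
  suffices hh : a • act g x = act t x by
    rw [← hh, smul_smul, ha, one_smul]
  rw [ht]
  -- decompose
  set y : V := x - B x e • x₀ with hy
  have hey : B e y = 0 := by
    rw [hy, map_sub, map_smul, smul_eq_mul, hx₀', h.symm e x, mul_one, sub_self]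
  have hxy : x = y + B x e • x₀ := by rw [hy]; module
  obtain ⟨-, c, hc⟩ := hT y hey
  have hcy : c = -(B y z) := by
    have h3 := h2 y x₀
    rw [hc, hgx] at h3
    simp only [map_add, map_smul, LinearMap.add_apply, LinearMap.smul_apply, smul_eq_mul] at h3
    rw [hx₀', hez] at h3
    linear_combination h3
  have h4 : a • act g x = y - B y z • e + B x e • (x₀ + z) := by
    conv_lhs => rw [hxy]
    rw [map_add, map_smul, smul_add, hc, hcy, smul_comm a, hgx]
    module
  rw [h4]
  unfold sg
  have h5 : B x z = B y z + B x e * B x₀ z := by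
    conv_lhs => rw [hxy]
    rw [map_add, map_smul, LinearMap.add_apply, LinearMap.smul_apply, smul_eq_mul]
  have h6 : B x z + B z z / 2 * B x e = B y z := by
    have h7 : B z z / 2 = -(B x₀ z) := by
      rw [div_eq_iff h.two]
      linear_combination hnorm
    rw [h5, h7]
    ring
  rw [h6]
  conv_rhs => rw [hxy]
  have h8 : B (y + B x e • x₀) e = B x e := by rw [← hxy]
  rw [h8]
  module

end

end

end Vale.Agent.P240.R2.H715.Or
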