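import Vale.Agent.P240.R2.H715.OrC

/-!
P240: elementary abelian groups normalized by the group of Siegel transformations at a point.
-/

set_option autoImplicit false

namespace Vale.Agent.P240.R2.H715.Or

open Module
open LinearMap (BilinForm)

universe u v w x

noncomputable section

section

variable {K : Type u} [Field K] {V : Type v} [AddCommGroup V] [Module K V]
  {B : BilinForm K V} {S : Type w} [Group S] {act : S →* (V ≃ₗ[K] V)} {L : Type x} [Group L]
  {π : S →* L}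

open Classical in
lemma exists_notin2 [FiniteDimensional K V] (W : Submodule K V) (h : 3 ≤ finrank K W) (a b : V) :
    ∃ y ∈ W, ∀ s t : K, y ≠ s • a + t • b := by
  obtain ⟨y, hy, hy'⟩ := exists_notin W ({a, b} : Finset V)
    (lt_of_le_of_lt (Finset.card_le_two) (by omega))
  refine ⟨y, hy, fun s t hst => hy' ?_⟩
  rw [hst]
  have ha : a ∈ Submodule.span K ((({a, b} : Finset V)) : Set V) :=
    Submodule.subset_span (by simp)
  have hb : b ∈ Submodule.span K ((({a, b} : Finset V)) : Set V) :=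
    Submodule.subset_span (by simp)
  exact Submodule.add_mem _ (Submodule.smul_mem _ _ ha) (Submodule.smul_mem _ _ hb)

open Classical in
lemma exists_notin3 [FiniteDimensional K V] (W : Submodule K V) (h : 4 ≤ finrank K W)
    (a b c : V) : ∃ y ∈ W, ∀ s t r : K, y ≠ s • a + t • b + r • c := by
  obtain ⟨y, hy, hy'⟩ := exists_notin W ({a, b, c} : Finset V)
    (lt_of_le_of_lt (Finset.card_le_three) (by omega))
  refine ⟨y, hy, fun s t r hst => hy' ?_⟩
  rw [hst]
  have ha : a ∈ Submodule.span K ((({a, b, c} : Finset V)) : Set V) :=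
    Submodule.subset_span (by simp)
  have hb : b ∈ Submodule.span K ((({a, b, c} : Finset V)) : Set V) :=
    Submodule.subset_span (by simp)
  have hc : c ∈ Submodule.span K ((({a, b, c} : Finset V)) : Set V) :=
    Submodule.subset_span (by simp)
  exact Submodule.add_mem _ (Submodule.add_mem _ (Submodule.smul_mem _ _ ha)
    (Submodule.smul_mem _ _ hb)) (Submodule.smul_mem _ _ hc)

lemma OD.aniso (h : OD B act π) [FiniteDimensional K V] (hd : 5 ≤ finrank K V) {e v : V}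
    (he0 : e ≠ 0) {T : Submodule K V} (hTe : ∀ t ∈ T, B e t = 0)
    (hT : ∀ y, B e y = 0 → ∃ k : K, y + k • v ∈ T) : ∃ t ∈ T, B t t ≠ 0 := by
  by_contra hcon
  push Not at hcon
  have hbil : ∀ t ∈ T, ∀ s ∈ T, B t s = 0 := by
    intro t ht s hs
    have h1 := hcon (t + s) (T.add_mem ht hs)
    simp only [map_add, LinearMap.add_apply] at h1
    rw [hcon t ht, hcon s hs, h.symm s t] at h1
    have h3 : (2 : K) * B t s = 0 := by linear_combination h1
    exact (mul_eq_zero.1 h3).resolve_left h.two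
  have h0 : ∀ t ∈ T, B t v = 0 → ∃ c : K, t = c • e := by
    intro t ht htv
    refine h.perp_sub he0 fun x hx => ?_
    obtain ⟨k, hk⟩ := hT x (by rw [h.symm]; exact hx)
    have h1 := hbil _ hk t ht
    simp only [map_add, map_smul, LinearMap.add_apply, LinearMap.smul_apply, smul_eq_mul] at h1
    rw [h.symm v t, htv] at h1
    linear_combination h1
  have h1 : ∃ t₁ : V, ∀ t ∈ T, ∃ a b : K, t = a • e + b • t₁ := by
    by_cases hex : ∃ t₁ ∈ T, B t₁ v ≠ 0
    · obtain ⟨t₁, ht₁, h3⟩ := hex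
      refine ⟨t₁, fun t ht => ?_⟩
      obtain ⟨c, hc⟩ := h0 (t - (B t v / B t₁ v) • t₁) (T.sub_mem ht (T.smul_mem _ ht₁)) (by
        simp only [map_sub, map_smul, LinearMap.sub_apply, LinearMap.smul_apply, smul_eq_mul]
        field_simp
        ring)
      exact ⟨c, B t v / B t₁ v, by rw [← hc]; module⟩
    · push Not at hex
      refine ⟨0, fun t ht => ?_⟩
      obtain ⟨c, hc⟩ := h0 t ht (hex t ht)
      exact ⟨c, 0, by rw [hc]; module⟩
  obtain ⟨t₁, ht₁⟩ := h1
  have hk := finrank_ker (B e)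
  obtain ⟨y, hy, hy'⟩ := exists_notin3 (LinearMap.ker (B e)) (by omega) e t₁ v
  obtain ⟨k, hk'⟩ := hT y (LinearMap.mem_ker.1 hy)
  obtain ⟨a, b, hab⟩ := ht₁ _ hk'
  apply hy' a b (-k)
  rw [← hab]
  module

lemma OD.sq_one (h : OD B act π) [FiniteDimensional K V] (hd : 5 ≤ finrank K V) {e v : V}
    (he0 : e ≠ 0) (he : B e e = 0) {g : S} {a : K} {T : Submodule K V}
    (hTg : T ≤ TG B (act g) a e) (hT : ∀ y, B e y = 0 → ∃ k : K, y + k • v ∈ T) : a * a = 1 := by
  obtain ⟨t, ht, htt⟩ := h.aniso hd he0 (fun t ht => (hTg ht).1) hT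
  obtain ⟨hte, c, hc⟩ := hTg ht
  have h1 : B (a • act g t) (a • act g t) = a * a * B t t := by
    simp only [map_smul, LinearMap.smul_apply, smul_eq_mul, h.iso]
    ring
  rw [hc] at h1
  simp only [map_add, map_smul, LinearMap.add_apply, LinearMap.smul_apply, smul_eq_mul] at h1
  rw [h.symm t e, hte, he] at h1
  have h3 : (a * a - 1) * B t t = 0 := by linear_combination -h1
  exact sub_eq_zero.1 ((mul_eq_zero.1 h3).resolve_right htt)

lemma OD.indep [FiniteDimensional K V] (hd : 5 ≤ finrank K V) {e v : V} (hv : B e v = 0)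
    {P : V → Prop} (hP : ∀ y, B e y = 0 → ∃ k : K, P (y + k • v)) :
    ∃ w₁ w₂, P w₁ ∧ P w₂ ∧ B e w₁ = 0 ∧ B e w₂ = 0 ∧ (∀ c : K, w₁ ≠ c • e) ∧
      ∀ a b : K, w₂ ≠ a • e + b • w₁ := by
  have hk := finrank_ker (B e)
  obtain ⟨y₁, hy₁, h1⟩ := exists_notin2 (LinearMap.ker (B e)) (by omega) e v
  obtain ⟨k₁, hk₁⟩ := hP y₁ (LinearMap.mem_ker.1 hy₁)
  obtain ⟨y₂, hy₂, h2⟩ := exists_notin3 (LinearMap.ker (B e)) (by omega) e (y₁ + k₁ • v) v
  obtain ⟨k₂, hk₂⟩ := hP y₂ (LinearMap.mem_ker.1 hy₂)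
  refine ⟨y₁ + k₁ • v, y₂ + k₂ • v, hk₁, hk₂, ?_, ?_, ?_, ?_⟩
  · rw [map_add, map_smul, LinearMap.mem_ker.1 hy₁, hv, smul_zero, add_zero]
  · rw [map_add, map_smul, LinearMap.mem_ker.1 hy₂, hv, smul_zero, add_zero]
  · intro c hc
    apply h1 c (-k₁)
    rw [← hc]
    module
  · intro a b hab
    apply h2 a b (-k₂)
    rw [← hab]
    module

/-- the element `g` fixes the point `e` and acts as `a⁻¹` modulo `e` on a hyperplane -/
lemma OD.data (h : OD B act π) [FiniteDimensional K V] (hd : 5 ≤ finrank K V) {e v : V}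
    (he0 : e ≠ 0) (he : B e e = 0) (hv : B e v = 0) {g : S} {P : V → Prop}
    (hP : ∀ y, B e y = 0 → ∃ k : K, P (y + k • v))
    (hPc : ∀ w, B e w = 0 → P w → π g * ur B act π e w = ur B act π e w * π g) :
    ∃ a : K, a * a = 1 ∧ act g e = a • e ∧ ∀ w, B e w = 0 → P w → w ∈ TG B (act g) a e := by
  obtain ⟨w₁, w₂, hP₁, hP₂, hw₁, hw₂, hi₁, hi₂⟩ := OD.indep (B := B) hd hv hP
  obtain ⟨a, ha, hg⟩ := h.fix_line he0 he hw₁ hw₂ hi₁ hi₂ (hPc w₁ hw₁ hP₁) (hPc w₂ hw₂ hP₂)
  have hTG : ∀ w, B e w = 0 → P w → w ∈ TG B (act g) a e := fun w hw hPw =>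
    ⟨hw, (h.comm_iff he0 he hw ha hg).1 (hPc w hw hPw)⟩
  refine ⟨a, h.sq_one (v := v) hd he0 he (T := TG B (act g) a e) le_rfl (fun y hy => ?_), hg, hTG⟩
  obtain ⟨k, hk⟩ := hP y hy
  exact ⟨k, hTG _ (by rw [map_add, map_smul, hy, hv, smul_zero, add_zero]) hk⟩

/-- the centralizer of the group of Siegel transformations at a point -/
lemma OD.cen (h : OD B act π) [FiniteDimensional K V] (hd : 5 ≤ finrank K V) {e : V}
    (he0 : e ≠ 0) (he : B e e = 0) {x : L}
    (hx : ∀ w, B e w = 0 → x * ur B act π e w = ur B act π e w * x) :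
    ∃ z, B e z = 0 ∧ x = ur B act π e z := by
  obtain ⟨g, rfl⟩ := h.surj x
  obtain ⟨a, ha, hg, hT⟩ := h.data (v := 0) hd he0 he (map_zero _) (P := fun _ => True)
    (fun y _ => ⟨0, trivial⟩) (fun w hw _ => hx w hw)
  exact h.mem_U he0 he ha hg fun y hy => hT y hy trivial

/-- two elements that commute with a hyperplane -/
lemma OD.pair (h : OD B act π) {e v : V} (he0 : e ≠ 0) (he : B e e = 0) (hv : B e v = 0)
    {g₁ g₂ : S} {a₁ a₂ : K} (ha₁ : a₁ * a₁ = 1) (ha₂ : a₂ * a₂ = 1) (hg₁ : act g₁ e = a₁ • e)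
    (hg₂ : act g₂ e = a₂ • e) {T : Submodule K V} (hT₁ : T ≤ TG B (act g₁) a₁ e)
    (hT₂ : T ≤ TG B (act g₂) a₂ e) (hT : ∀ y, B e y = 0 → ∃ k : K, y + k • v ∈ T) :
    (∃ z, B e z = 0 ∧ π g₁ = ur B act π e z) ∨ (∃ z, B e z = 0 ∧ π g₂ = ur B act π e z) ∨
      ∃ z, B e z = 0 ∧ π (g₁⁻¹ * g₂) = ur B act π e z := by
  have hall : ∀ (T' : Submodule K V), T ≤ T' → v ∈ T' → ∀ y, B e y = 0 → y ∈ T' := by
    intro T' hTT hvT y hy
    obtain ⟨k, hk⟩ := hT y hy
    have h1 := T'.sub_mem (hTT hk) (T'.smul_mem k hvT)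
    rwa [add_sub_cancel_right] at h1
  have e1 : a₁ • act g₁ e = e := by rw [hg₁, smul_smul, ha₁, one_smul]
  have iso₁ : ∀ x y, B (a₁ • act g₁ x) (a₁ • act g₁ y) = B x y := by
    intro x y
    rw [map_smul, map_smul, LinearMap.smul_apply, smul_eq_mul, smul_eq_mul, h.iso, ← mul_assoc,
      ha₁, one_mul]
  have iso₂ : ∀ x y, B (a₂ • act g₂ x) (a₂ • act g₂ y) = B x y := by
    intro x y
    rw [map_smul, map_smul, LinearMap.smul_apply, smul_eq_mul, smul_eq_mul, h.iso, ← mul_assoc,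
      ha₂, one_mul]
  set z₁ : V := a₁ • act g₁ v - v with hz₁
  set z₂ : V := a₂ • act g₂ v - v with hz₂
  have hz₁T : ∀ t ∈ T, B z₁ t = 0 := fun t ht => h.z_perp ha₁ hg₁ hv (hT₁ ht)
  have hz₂T : ∀ t ∈ T, B z₂ t = 0 := fun t ht => h.z_perp ha₂ hg₂ hv (hT₂ ht)
  by_cases h1 : ∃ c : K, z₁ = c • e
  · left
    obtain ⟨c, hc⟩ := h1
    refine h.mem_U he0 he ha₁ hg₁ (hall _ hT₁ ⟨hv, c, ?_⟩)
    rw [← hc, hz₁]
    module
  · right
    push Not at h1
    have hBv : B v z₁ ≠ 0 := by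
      intro h0
      obtain ⟨c, hc⟩ := h.perp_sub (z := z₁) he0 fun x hx => by
        obtain ⟨k, hk⟩ := hT x (by rw [h.symm]; exact hx)
        have h3 := hz₁T _ hk
        rw [h.symm] at h3
        simp only [map_add, map_smul, LinearMap.add_apply, LinearMap.smul_apply, smul_eq_mul] at h3
        rw [h0] at h3
        linear_combination h3
      exact h1 c hc
    obtain ⟨c, l, hl⟩ := h.perp_sub2 (z := z₂) he0 h1 fun x hx hxz => by
      obtain ⟨k, hk⟩ := hT x (by rw [h.symm]; exact hx)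
      have h3 := hz₁T _ hk
      rw [h.symm] at h3
      simp only [map_add, map_smul, LinearMap.add_apply, LinearMap.smul_apply, smul_eq_mul] at h3
      rw [hxz, zero_add] at h3
      have hk0 : k = 0 := (mul_eq_zero.1 h3).resolve_right hBv
      rw [hk0, zero_smul, add_zero] at hk
      rw [h.symm]
      exact hz₂T x hk
    -- norms
    have n₁ : 2 * B v z₁ + B z₁ z₁ = 0 := by
      have h3 := iso₁ v v
      have h4 : a₁ • act g₁ v = v + z₁ := by rw [hz₁]; module
      rw [h4] at h3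
      simp only [map_add, LinearMap.add_apply] at h3
      rw [h.symm z₁ v] at h3
      linear_combination h3
    have n₂ : 2 * B v z₂ + B z₂ z₂ = 0 := by
      have h3 := iso₂ v v
      have h4 : a₂ • act g₂ v = v + z₂ := by rw [hz₂]; module
      rw [h4] at h3
      simp only [map_add, LinearMap.add_apply] at h3
      rw [h.symm z₂ v] at h3
      linear_combination h3
    have hez₁ : B e z₁ = 0 := by
      have h3 := iso₁ e v
      rw [e1] at h3
      rw [hz₁, map_sub, h3, sub_self]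
    have hz11 : B z₁ z₁ ≠ 0 := by
      intro h0
      rw [h0, add_zero] at n₁
      exact hBv ((mul_eq_zero.1 n₁).resolve_left h.two)
    have hll : l = 0 ∨ l = 1 := by
      rw [hl] at n₂
      simp only [map_add, map_smul, LinearMap.add_apply, LinearMap.smul_apply, smul_eq_mul] at n₂
      rw [h.symm v e, hv, he, hez₁, h.symm z₁ e, hez₁] at n₂
      have h3 : l * (l - 1) * B z₁ z₁ = 0 := by linear_combination n₂ - l * n₁
      rcases mul_eq_zero.1 h3 with h4 | h4
      · rcases mul_eq_zero.1 h4 with h5 | h5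
        · exact Or.inl h5
        · exact Or.inr (sub_eq_zero.1 h5)
      · exact absurd h4 hz11
    rcases hll with rfl | rfl
    · left
      refine h.mem_U he0 he ha₂ hg₂ (hall _ hT₂ ⟨hv, c, ?_⟩)
      have h3 : z₂ = c • e := by rw [hl]; module
      rw [← h3, hz₂]
      module
    · right
      have hge : act (g₁⁻¹ * g₂) e = (a₁ * a₂) • e := by
        rw [OD.mul_act, hg₂, map_smul]
        have h3 : act g₁⁻¹ e = a₁ • e := by
          have h4 : act g₁⁻¹ (act g₁ e) = e := OD.inv_act' g₁ e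
          rw [hg₁, map_smul] at h4
          calc act g₁⁻¹ e = (a₁ * a₁) • act g₁⁻¹ e := by rw [ha₁, one_smul]
            _ = a₁ • e := by rw [mul_smul, h4]
        rw [h3]
        module
      have key : ∀ y c₁ c₂ : K, ∀ s t : V, a₁ • act g₁ s = t + c₁ • e → a₂ • act g₂ s = t + c₂ • e →
          (a₁ * a₂) • act (g₁⁻¹ * g₂) s = s + (c₂ - c₁) • e := by
        intro _ c₁ c₂ s t hs ht
        have h3 : a₂ • act g₂ s = a₁ • act g₁ s + (c₂ - c₁) • (a₁ • act g₁ e) := by
          rw [hs, ht, e1]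
          module
        have h4 : act g₁⁻¹ (a₂ • act g₂ s) = a₁ • s + (c₂ - c₁) • (a₁ • e) := by
          rw [h3, map_add, map_smul, map_smul, map_smul, OD.inv_act', OD.inv_act']
        rw [map_smul, ← OD.mul_act] at h4
        calc (a₁ * a₂) • act (g₁⁻¹ * g₂) s = a₁ • (a₂ • act (g₁⁻¹ * g₂) s) := by
              rw [smul_smul]
          _ = (a₁ * a₁) • (s + (c₂ - c₁) • e) := by rw [h4]; module
          _ = _ := by rw [ha₁, one_smul]
      refine h.mem_U he0 he (g := g₁⁻¹ * g₂) (a := a₁ * a₂) ?_ hge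
        (hall _ (fun t ht => ?_) ⟨hv, ?_⟩)
      · calc a₁ * a₂ * (a₁ * a₂) = (a₁ * a₁) * (a₂ * a₂) := by ring
          _ = 1 := by rw [ha₁, ha₂, one_mul]
      · obtain ⟨ht0, c₁, hc₁⟩ := hT₁ ht
        obtain ⟨-, c₂, hc₂⟩ := hT₂ ht
        exact ⟨ht0, _, key 0 c₁ c₂ t t hc₁ hc₂⟩
      · refine ⟨_, key 0 0 c v (v + z₁) ?_ ?_⟩
        · rw [hz₁]
          module
        · have h3 : a₂ • act g₂ v = v + z₂ := by rw [hz₂]; module
          rw [h3, hl]
          module

end

end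

end Vale.Agent.P240.R2.H715.Or
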