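import Vale.Agent.P240.R2.H715.OrD

/-!
P240: automorphisms that centralize the Siegel transformations at a point.
-/

set_option autoImplicit false

namespace Vale.Agent.P240.R2.H715.Or

open Module
open LinearMap (BilinForm)

universe u v w x

noncomputable section

section

variable {K : Type u} [Field K] {V : Type v} [AddCommGroup V] [Module K V]
  {B : BilinForm K V} {S : Type w} [Group S] {act : S →* (V ≃ₗ[K] V)} {L : Type x} [Group L]
  {π : S →* L}

lemma OD.ur_zero (h : OD B act π) {e : V} (he : B e e = 0) : ur B act π e 0 = 1 := by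
  have := h.ur_self 0 he
  rwa [zero_smul] at this

lemma OD.ur_neg (h : OD B act π) {e w : V} (he : B e e = 0) (hw : B e w = 0) :
    (ur B act π e w)⁻¹ = ur B act π e (-w) := by
  rw [inv_eq_iff_mul_eq_one, h.ur_add he hw (by rw [map_neg, hw, neg_zero]), add_neg_cancel,
    h.ur_zero he]

lemma OD.ur_pow (h : OD B act π) {e w : V} (he : B e e = 0) (hw : B e w = 0) (n : ℕ) :
    ur B act π e w ^ n = ur B act π e ((n : K) • w) := by
  induction n with
  | zero => rw [pow_zero, Nat.cast_zero, zero_smul, h.ur_zero he]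
  | succ n ih =>
    rw [pow_succ, ih, h.ur_add he (by rw [map_smul, hw, smul_zero]) hw]
    congr 1
    push_cast
    module

lemma OD.ur_r (h : OD B act π) {r : ℕ} [CharP K r] {e w : V} (he : B e e = 0) (hw : B e w = 0) :
    ur B act π e w ^ r = 1 := by
  rw [h.ur_pow he hw, CharP.cast_eq_zero, zero_smul, h.ur_zero he]

/-- the group of Siegel transformations at a point -/
def OD.U (h : OD B act π) {e : V} (he : B e e = 0) : Subgroup L where
  carrier := {x | ∃ w, B e w = 0 ∧ x = ur B act π e w}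
  one_mem' := ⟨0, map_zero _, (h.ur_zero he).symm⟩
  mul_mem' := by
    rintro _ _ ⟨w, hw, rfl⟩ ⟨w', hw', rfl⟩
    exact ⟨w + w', by rw [map_add, hw, hw', add_zero], h.ur_add he hw hw'⟩
  inv_mem' := by
    rintro _ ⟨w, hw, rfl⟩
    exact ⟨-w, by rw [map_neg, hw, neg_zero], h.ur_neg he hw⟩

lemma OD.U_comm (h : OD B act π) {e w w' : V} (he : B e e = 0) (hw : B e w = 0)
    (hw' : B e w' = 0) : ur B act π e w * ur B act π e w' =
      ur B act π e w' * ur B act π e w := by
  rw [h.ur_add he hw hw', h.ur_add he hw' hw, add_comm]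

lemma one_of_orders {G : Type*} [Group G] {r p : ℕ} (hr : r.Prime) (hp : p.Prime) (hpr : p ≠ r)
    {z : G} (h1 : z ^ r = 1) (h2 : z ^ p = 1) : z = 1 := by
  rw [← orderOf_eq_one_iff]
  exact Nat.eq_one_of_dvd_coprimes ((Nat.coprime_primes hr hp).2 hpr.symm)
    (orderOf_dvd_of_pow_eq_one h1) (orderOf_dvd_of_pow_eq_one h2)

/-- elementary abelian `p`-subgroups normalized by the Siegel transformations at a point -/
theorem OD.inv_triv (h : OD B act π) [FiniteDimensional K V] [Finite L] (hd : 5 ≤ finrank K V)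
    {r p : ℕ} (hr : r.Prime) [CharP K r] (hp : p.Prime) (hpr : p ≠ r) {e : V} (he0 : e ≠ 0)
    (he : B e e = 0) {D : Subgroup L} (hDc : ∀ x ∈ D, ∀ y ∈ D, x * y = y * x)
    (hDp : ∀ x ∈ D, x ^ p = 1)
    (hUD : ∀ w, B e w = 0 → ∀ d ∈ D, ur B act π e w * d * (ur B act π e w)⁻¹ ∈ D) : D = ⊥ := by
  have htriv : ∀ z, B e z = 0 → ur B act π e z ∈ D → ur B act π e z = 1 := fun z hz hzD =>
    one_of_orders hr hp hpr (h.ur_r he hz) (hDp _ hzD)
  refine coprime_gen (U := h.U he) hr hp hpr ?_ ?_ hDc hDp ?_ ?_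
  · rintro _ ⟨w, hw, rfl⟩ _ ⟨w', hw', rfl⟩
    exact h.U_comm he hw hw'
  · rintro _ ⟨w, hw, rfl⟩
    exact h.ur_r he hw
  · rintro _ ⟨w, hw, rfl⟩ d hd
    exact hUD w hw d hd
  · rintro H hHU ⟨_, ⟨v, hv, rfl⟩, hk⟩ d hdD hdc
    have hP : ∀ y, B e y = 0 → ∃ k : K, ur B act π e (y + k • v) ∈ H := by
      intro y hy
      obtain ⟨k, hk'⟩ := hk _ ⟨y, hy, rfl⟩
      refine ⟨k, ?_⟩
      rwa [h.ur_pow he hv, h.ur_add he hy (by rw [map_smul, hv, smul_zero])] at hk'
    by_contra hd1
    apply hd1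
    have hcom : ∀ w, B e w = 0 → d * ur B act π e w = ur B act π e w * d := by
      intro w₀ hw₀
      obtain ⟨g₁, hg₁⟩ := h.surj d
      obtain ⟨g₂, hg₂⟩ := h.surj (ur B act π e w₀ * d * (ur B act π e w₀)⁻¹)
      have hD₂ := hUD w₀ hw₀ d hdD
      obtain ⟨a₁, ha₁, he₁, hT₁⟩ := h.data (g := g₁)
        (P := fun y => ur B act π e y ∈ H) hd he0 he hv hP (fun w hw hwH => by
        rw [hg₁]
        exact (hdc _ hwH).symm)
      obtain ⟨a₂, ha₂, he₂, hT₂⟩ := h.data (g := g₂)
        (P := fun y => ur B act π e y ∈ H) hd he0 he hv hP (fun w hw hwH => by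
        rw [hg₂]
        have c1 := hdc _ hwH
        have c2 := h.U_comm he hw hw₀
        have c3 : (ur B act π e w₀)⁻¹ * ur B act π e w =
            ur B act π e w * (ur B act π e w₀)⁻¹ := by
          rw [inv_mul_eq_iff_eq_mul, ← mul_assoc, ← c2, mul_inv_cancel_right]
        calc ur B act π e w₀ * d * (ur B act π e w₀)⁻¹ * ur B act π e w
            = ur B act π e w₀ * d * ((ur B act π e w₀)⁻¹ * ur B act π e w) := by group
          _ = ur B act π e w₀ * (d * ur B act π e w) * (ur B act π e w₀)⁻¹ := by rw [c3]; group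
          _ = (ur B act π e w₀ * ur B act π e w) * d * (ur B act π e w₀)⁻¹ := by rw [← c1]; group
          _ = _ := by rw [← c2]; group)
      have hT : ∀ y, B e y = 0 → ∃ k : K, y + k • v ∈
          (TG B (act g₁) a₁ e ⊓ TG B (act g₂) a₂ e : Submodule K V) := by
        intro y hy
        obtain ⟨k, hk'⟩ := hP y hy
        have hy' : B e (y + k • v) = 0 := by rw [map_add, map_smul, hy, hv, smul_zero, add_zero]
        exact ⟨k, hT₁ _ hy' hk', hT₂ _ hy' hk'⟩
      rcases h.pair he0 he hv ha₁ ha₂ he₁ he₂ inf_le_left inf_le_right hT with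
        ⟨z, hz, hzz⟩ | ⟨z, hz, hzz⟩ | ⟨z, hz, hzz⟩
      · rw [hg₁] at hzz
        have := htriv z hz (hzz ▸ hdD)
        exact absurd (hzz.trans this) hd1
      · rw [hg₂] at hzz
        have h3 := hzz.trans (htriv z hz (hzz ▸ hD₂))
        rw [mul_inv_eq_one] at h3
        have h4 : d = 1 := by
          have := mul_eq_left.1 h3
          exact this
        exact absurd h4 hd1
      · rw [map_mul, map_inv, hg₁, hg₂] at hzz
        have h3 := hzz.trans (htriv z hz (hzz ▸ D.mul_mem (D.inv_mem hdD) hD₂))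
        rw [inv_mul_eq_one, eq_mul_inv_iff_mul_eq] at h3
        exact h3
    obtain ⟨z, hz, hzz⟩ := h.cen hd he0 he hcom
    exact hzz.trans (htriv z hz (hzz ▸ hdD))

lemma aut_one {f : MulAut L} {r p : ℕ} (hr : r.Prime) (hp : p.Prime) (hpr : p ≠ r)
    (hf : f ^ p = 1) {x z : L} (hx : f x = x * z) (hz : f z = z) (hzr : z ^ r = 1) : z = 1 := by
  have h1 : ∀ k : ℕ, (f ^ k) x = x * z ^ k := by
    intro k
    induction k with
    | zero => simp
    | succ k ih =>
      rw [pow_succ']
      show f ((f ^ k) x) = _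
      rw [ih, map_mul, map_pow, hz, hx, pow_succ', mul_assoc]
  have h2 := h1 p
  rw [hf] at h2
  have h3 : z ^ p = 1 := by
    have h4 : x = x * z ^ p := h2
    exact (mul_eq_left.1 h4.symm)
  exact one_of_orders hr hp hpr hzr h3

lemma aut_one' {f : MulAut L} {r p : ℕ} (hr : r.Prime) (hp : p.Prime) (hpr : p ≠ r)
    (hf : f ^ p = 1) {x z : L} (hx : f x = z * x) (hz : f z = z) (hzr : z ^ r = 1) : z = 1 := by
  have h1 : ∀ k : ℕ, (f ^ k) x = z ^ k * x := by
    intro k
    induction k with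
    | zero => simp
    | succ k ih =>
      rw [pow_succ']
      show f ((f ^ k) x) = _
      rw [ih, map_mul, map_pow, hz, hx, pow_succ, mul_assoc]
  have h2 := h1 p
  rw [hf] at h2
  have h3 : z ^ p = 1 := by
    have h4 : x = z ^ p * x := h2
    exact (mul_eq_right.1 h4.symm)
  exact one_of_orders hr hp hpr hzr h3

/-- an automorphism that fixes the Siegel transformations at `e` fixes the stabilizer of `e` -/
lemma OD.fix_stab (h : OD B act π) [FiniteDimensional K V] (hd : 5 ≤ finrank K V)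
    {r p : ℕ} (hr : r.Prime) [CharP K r] (hp : p.Prime) (hpr : p ≠ r) {e : V} (he0 : e ≠ 0)
    (he : B e e = 0) {f : MulAut L} (hf : f ^ p = 1)
    (hfe : ∀ w, B e w = 0 → f (ur B act π e w) = ur B act π e w) {g : S} {a : K} (ha : a ≠ 0)
    (hg : act g e = a • e) : f (π g) = π g := by
  have hx : ∀ w, B e w = 0 → (π g)⁻¹ * f (π g) * ur B act π e w =
      ur B act π e w * ((π g)⁻¹ * f (π g)) := by
    intro w hw
    have hgw : B e (act g w) = 0 := by
      have h1 := h.iso g e w
      rw [hg, hw, map_smul, LinearMap.smul_apply, smul_eq_mul] at h1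
      exact (mul_eq_zero.1 h1).resolve_left ha
    have h1 : π g * ur B act π e w * (π g)⁻¹ = ur B act π e (a • act g w) := by
      rw [h.ur_conj g he hw, hg, h.ur_smul a he hgw]
    have h2 : f (π g * ur B act π e w * (π g)⁻¹) = π g * ur B act π e w * (π g)⁻¹ := by
      rw [h1]
      exact hfe _ (by rw [map_smul, hgw, smul_zero])
    rw [map_mul, map_mul, map_inv, hfe w hw] at h2
    rw [mul_inv_eq_iff_eq_mul] at h2
    calc (π g)⁻¹ * f (π g) * ur B act π e w = (π g)⁻¹ * (f (π g) * ur B act π e w) := by group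
      _ = _ := by rw [h2]; group
  obtain ⟨z, hz, hzz⟩ := h.cen hd he0 he hx
  have h3 : f (π g) = π g * ur B act π e z := by rw [← hzz]; group
  have h4 := aut_one hr hp hpr hf h3 (hfe z hz) (h.ur_r he hz)
  rw [h3, h4, mul_one]

end

end

end Vale.Agent.P240.R2.H715.Or
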