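import Vale.Agent.P240.R2.H715.OrE

/-!
P240: no elementary abelian `p`-group of automorphisms of an orthogonal group over a field of
characteristic `r ≠ p` is normalized by the group of Siegel transformations at a point.
-/

set_option autoImplicit false

namespace Vale.Agent.P240.R2.H715.Or

open Module Subgroup
open LinearMap (BilinForm)
open Vale.Agent.P240.K (ElemAb)
open Vale.Agent.P240.H195 (AutFree)

universe u v w x

noncomputable section

section

variable {K : Type u} [Field K] {V : Type v} [AddCommGroup V] [Module K V]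
  {B : BilinForm K V} {S : Type w} [Group S] {act : S →* (V ≃ₗ[K] V)} {L : Type x} [Group L]
  {π : S →* L}

/-- an automorphism that fixes the Siegel transformations at `e` fixes those at `e' ⊥ e` -/
theorem OD.fix_adj (h : OD B act π) [FiniteDimensional K V] (hd : 5 ≤ finrank K V)
    {r p : ℕ} (hr : r.Prime) [CharP K r] (hp : p.Prime) (hpr : p ≠ r) {e e' : V} (he0 : e ≠ 0)
    (he : B e e = 0) (he'0 : e' ≠ 0) (he' : B e' e' = 0) (hee : B e e' = 0) {f : MulAut L}
    (hf : f ^ p = 1) (hfe : ∀ w, B e w = 0 → f (ur B act π e w) = ur B act π e w) :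
    ∀ w, B e' w = 0 → f (ur B act π e' w) = ur B act π e' w := by
  have hee' : B e' e = 0 := by rw [h.symm]; exact hee
  by_cases hdep : ∃ c : K, e' = c • e
  · obtain ⟨c, rfl⟩ := hdep
    have hc : c ≠ 0 := by
      rintro rfl
      exact he'0 (zero_smul _ _)
    intro w hw
    rw [map_smul, LinearMap.smul_apply, smul_eq_mul] at hw
    have hw' : B e w = 0 := (mul_eq_zero.1 hw).resolve_left hc
    rw [h.ur_smul c he hw']
    exact hfe _ (by rw [map_smul, hw', smul_zero])
  push Not at hdep
  have hdep' : ∀ c : K, e ≠ c • e' := by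
    intro c hc
    have hc0 : c ≠ 0 := by
      rintro rfl
      exact he0 (by rw [hc, zero_smul])
    exact hdep c⁻¹ (by rw [hc, smul_smul, inv_mul_cancel₀ hc0, one_smul])
  -- the vectors orthogonal to both
  have hH : ∀ y, B e' y = 0 → B e y = 0 → f (ur B act π e' y) = ur B act π e' y := by
    intro y hy hy'
    obtain ⟨t, ht⟩ := h.rho e' y he' hy
    rw [h.ur_eq ht]
    refine h.fix_stab hd hr hp hpr he0 he hf hfe one_ne_zero ?_
    rw [ht]
    unfold sg
    rw [hee, hy']
    module
  obtain ⟨v₀, hv₀, hv₀e⟩ := h.exists_pair he'0 hdep'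
  have hv₀' : B e' v₀ = 0 := by rw [h.symm]; exact hv₀
  have hv₀e' : B e v₀ = 1 := by rw [h.symm]; exact hv₀e
  intro w hw
  -- `f` maps the Siegel transformations at `e'` to such
  have hstep : ∃ w', B e' w' = 0 ∧ f (ur B act π e' w) = ur B act π e' w' := by
    obtain ⟨g, hg⟩ := h.surj (f (ur B act π e' w))
    obtain ⟨a, ha, hge, hT⟩ := h.data (g := g) (e := e') (v := v₀) (P := fun y => B e y = 0) hd
      he'0 he' hv₀' (fun y _ => ⟨-(B e y), by
        rw [map_add, map_smul, hv₀e', smul_eq_mul, mul_one, add_neg_cancel]⟩) (fun y hy hy' => by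
        rw [hg]
        conv_lhs => rw [← hH y hy hy', ← map_mul, h.U_comm he' hw hy, map_mul, hH y hy hy'])
    rw [← hg]
    refine h.mem_U he'0 he' ha hge ?_
    -- `v₀` is fixed modulo `e'`
    set z : V := a • act g v₀ - v₀ with hz
    have hzT : ∀ t, B e' t = 0 → B e t = 0 → B z t = 0 := fun t ht ht' =>
      h.z_perp ha hge hv₀' (hT t ht ht')
    obtain ⟨α, β, hab⟩ := h.perp_sub2 (z := z) he0 hdep fun x hx hx' => by
      rw [h.symm]
      exact hzT x (by rw [h.symm]; exact hx') (by rw [h.symm]; exact hx)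
    have hnorm : 2 * B v₀ z + B z z = 0 := by
      have h3 : B (a • act g v₀) (a • act g v₀) = B v₀ v₀ := by
        rw [map_smul, map_smul, LinearMap.smul_apply, smul_eq_mul, smul_eq_mul, h.iso, ← mul_assoc,
          ha, one_mul]
      have h4 : a • act g v₀ = v₀ + z := by rw [hz]; module
      rw [h4] at h3
      simp only [map_add, LinearMap.add_apply] at h3
      rw [h.symm z v₀] at h3
      linear_combination h3
    have hα : α = 0 := by
      rw [hab] at hnorm
      simp only [map_add, map_smul, LinearMap.add_apply, LinearMap.smul_apply, smul_eq_mul] at hnorm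
      rw [hv₀, hv₀e, he, he', hee, hee'] at hnorm
      have h3 : (2 : K) * α = 0 := by linear_combination hnorm
      exact (mul_eq_zero.1 h3).resolve_left h.two
    have hv₀T : v₀ ∈ TG B (act g) a e' := by
      refine ⟨hv₀', β, ?_⟩
      have h3 : a • act g v₀ = v₀ + z := by rw [hz]; module
      rw [h3, hab, hα]
      module
    intro y hy
    have h1 : y + (-(B e y)) • v₀ ∈ TG B (act g) a e' := hT _ (by
      rw [map_add, map_smul, hy, hv₀', smul_zero, add_zero]) (by
      rw [map_add, map_smul, hv₀e', smul_eq_mul, mul_one, add_neg_cancel])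
    have h3 := (TG B (act g) a e').sub_mem h1 ((TG B (act g) a e').smul_mem (-(B e y)) hv₀T)
    rwa [add_sub_cancel_right] at h3
  obtain ⟨w', hw', hfw⟩ := hstep
  -- commutators with a Siegel transformation at `e`
  obtain ⟨c, hc, hcn⟩ := exists_notin2 (LinearMap.ker (B e) ⊓ LinearMap.ker (B e'))
    (by have := finrank_ker2 (B e) (B e'); omega) e e'
  have hce : B e c = 0 := LinearMap.mem_ker.1 hc.1
  have hce' : B e' c = 0 := LinearMap.mem_ker.1 hc.2
  obtain ⟨t, ht⟩ := h.rho e c he hce
  have hft : f (π t) = π t := by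
    rw [← h.ur_eq ht]
    exact hfe c hce
  have hte : act t e' = e' := by
    rw [ht]
    unfold sg
    rw [hee', hce']
    module
  set δ : V → V := fun y => B y e • c - (B y c + B c c / 2 * B y e) • e with hδ
  have hδ' : ∀ y, B e' (δ y) = 0 := by
    intro y
    simp only [hδ, map_sub, map_smul, smul_eq_mul, hce', hee']
    ring
  have hδe : ∀ y, B e (δ y) = 0 := by
    intro y
    simp only [hδ, map_sub, map_smul, smul_eq_mul, hce, he]
    ring
  have hcj : ∀ y, B e' y = 0 → π t * ur B act π e' y * (π t)⁻¹ =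
      ur B act π e' y * ur B act π e' (δ y) := by
    intro y hy
    rw [h.ur_conj t he' hy, hte, h.ur_add he' hy (hδ' y), ht]
    congr 1
    unfold sg
    simp only [hδ]
    module
  have h1 : f (π t * ur B act π e' w * (π t)⁻¹) = ur B act π e' w' * ur B act π e' (δ w') := by
    rw [map_mul, map_mul, map_inv, hft, hfw, hcj w' hw']
  rw [hcj w hw, map_mul, hfw, hH _ (hδ' w) (hδe w)] at h1
  have h3 := mul_left_cancel h1
  obtain ⟨s, hs⟩ := (h.ur_eq_iff he'0 he' (hδ' w) (hδ' w')).1 h3
  have h4 : B w e = B w' e := by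
    by_contra hne
    have hne' : B w e - B w' e ≠ 0 := sub_ne_zero.2 hne
    simp only [hδ] at hs
    have h5 : (B w e - B w' e) • c =
        ((B w c + B c c / 2 * B w e) - (B w' c + B c c / 2 * B w' e)) • e + s • e' := by
      rw [← sub_eq_zero] at hs ⊢
      rw [← hs]
      module
    apply hcn ((B w e - B w' e)⁻¹ * ((B w c + B c c / 2 * B w e) -
      (B w' c + B c c / 2 * B w' e))) ((B w e - B w' e)⁻¹ * s)
    calc c = (B w e - B w' e)⁻¹ • ((B w e - B w' e) • c) := by
          rw [smul_smul, inv_mul_cancel₀ hne', one_smul]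
      _ = _ := by rw [h5, smul_add, smul_smul, smul_smul]
  have hd' : B e' (w' - w) = 0 := by rw [map_sub, hw, hw', sub_zero]
  have hd : B e (w' - w) = 0 := by
    rw [map_sub, h.symm e w', h.symm e w, h4, sub_self]
  have h5 : f (ur B act π e' w) = ur B act π e' (w' - w) * ur B act π e' w := by
    rw [hfw, h.ur_add he' hd' hw, sub_add_cancel]
  have h6 := aut_one' hr hp hpr hf h5 (hH _ hd' hd) (h.ur_r he' hd')
  rw [h5, h6, one_mul]

end

section iso

variable {K : Type u} [Field K] {V : Type v} [AddCommGroup V] [Module K V]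
  {B : BilinForm K V}

lemma exists_quad [Finite K] (h2 : (2 : K) ≠ 0) {α β : K} (hα : α ≠ 0) (hβ : β ≠ 0) (γ : K) :
    ∃ s t : K, α * s ^ 2 + (β * t ^ 2 + γ) = 0 := by
  have : Fintype K := Fintype.ofFinite K
  open Polynomial in
  obtain ⟨s, t, hst⟩ := FiniteField.exists_root_sum_quadratic (R := K)
    (f := C α * X ^ 2) (g := C β * X ^ 2 + C γ) (degree_C_mul_X_pow 2 hα) (by
      rw [degree_add_C]
      · exact degree_C_mul_X_pow 2 hβ
      · rw [degree_C_mul_X_pow 2 hβ]
        norm_num) (by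
      refine FiniteField.odd_card_of_char_ne_two fun h => h2 ?_
      have : CharP K 2 := h ▸ ringChar.charP K
      exact_mod_cast CharP.cast_eq_zero K 2)
  refine ⟨s, t, ?_⟩
  simpa using hst

lemma finrank_inf_ker [FiniteDimensional K V] (W : Submodule K V) (f : V →ₗ[K] K) :
    finrank K W ≤ finrank K (W ⊓ LinearMap.ker f : Submodule K V) + 1 := by
  have h1 := Submodule.finrank_sup_add_finrank_inf_eq W (LinearMap.ker f)
  have h2 := finrank_ker f
  have h3 := Submodule.finrank_le (W ⊔ LinearMap.ker f)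
  omega

lemma exists_ne [FiniteDimensional K V] (W : Submodule K V) (h : 1 ≤ finrank K W) :
    ∃ x ∈ W, x ≠ 0 := by
  by_contra hcon
  push Not at hcon
  have : W = ⊥ := by
    rw [eq_bot_iff]
    intro x hx
    exact (Submodule.mem_bot K).2 (hcon x hx)
  rw [this, finrank_bot] at h
  omega

/-- quadratic forms in three variables over a finite field are isotropic -/
lemma exists_iso [Finite K] [FiniteDimensional K V] (h2 : (2 : K) ≠ 0)
    (hs : ∀ x y, B x y = B y x) (W : Submodule K V) (hW : 3 ≤ finrank K W) :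
    ∃ x ∈ W, x ≠ 0 ∧ B x x = 0 := by
  obtain ⟨x₁, hx₁, hx₁0⟩ := exists_ne W (by omega)
  by_cases h1 : B x₁ x₁ = 0
  · exact ⟨x₁, hx₁, hx₁0, h1⟩
  have f1 := finrank_inf_ker W (B x₁)
  obtain ⟨x₂, hx₂, hx₂0⟩ := exists_ne (W ⊓ LinearMap.ker (B x₁)) (by omega)
  by_cases h3 : B x₂ x₂ = 0
  · exact ⟨x₂, hx₂.1, hx₂0, h3⟩
  have f2 := finrank_inf_ker (W ⊓ LinearMap.ker (B x₁)) (B x₂)
  obtain ⟨x₃, hx₃, hx₃0⟩ := exists_ne (W ⊓ LinearMap.ker (B x₁) ⊓ LinearMap.ker (B x₂)) (by omega)
  by_cases h4 : B x₃ x₃ = 0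
  · exact ⟨x₃, hx₃.1.1, hx₃0, h4⟩
  obtain ⟨s, t, hst⟩ := exists_quad h2 h1 h3 (B x₃ x₃)
  have e12 : B x₁ x₂ = 0 := LinearMap.mem_ker.1 hx₂.2
  have e13 : B x₁ x₃ = 0 := LinearMap.mem_ker.1 hx₃.1.2
  have e23 : B x₂ x₃ = 0 := LinearMap.mem_ker.1 hx₃.2
  have e21 : B x₂ x₁ = 0 := by rw [hs]; exact e12
  have e31 : B x₃ x₁ = 0 := by rw [hs]; exact e13
  have e32 : B x₃ x₂ = 0 := by rw [hs]; exact e23
  refine ⟨s • x₁ + t • x₂ + x₃, W.add_mem (W.add_mem (W.smul_mem _ hx₁) (W.smul_mem _ hx₂.1))
    hx₃.1.1, ?_, ?_⟩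
  · intro h0
    have h5 := congrArg (B x₃) h0
    simp only [map_add, map_smul, smul_eq_mul, e31, e32, map_zero] at h5
    apply h4
    linear_combination h5
  · simp only [map_add, map_smul, LinearMap.add_apply, LinearMap.smul_apply, smul_eq_mul, e12, e13,
      e23, e21, e31, e32]
    linear_combination hst

end iso

section

variable {K : Type u} [Field K] {V : Type v} [AddCommGroup V] [Module K V]
  {B : BilinForm K V} {S : Type w} [Group S] {act : S →* (V ≃ₗ[K] V)} {L : Type x} [Group L]
  {π : S →* L}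

/-- **The theorem.** -/
theorem autFree_orth (h : OD B act π) [Finite K] [FiniteDimensional K V] [Finite L]
    (hd : 5 ≤ finrank K V) {r p : ℕ} (hr : r.Prime) [CharP K r] (hp : p.Prime) (hpr : p ≠ r)
    (hL : IsSimpleGroup L) (hZ : ∀ x : L, (∀ y, x * y = y * x) → x = 1) : AutFree p r L := by
  obtain ⟨e, -, he0, he⟩ := exists_iso h.two h.symm (⊤ : Submodule K V)
    (by rw [finrank_top]; omega)
  have hcj : ∀ x : L, MulAut.conj x = 1 → x = 1 := by
    intro x hx
    refine hZ x fun y => ?_
    have h1 : x * y * x⁻¹ = y := DFunLike.congr_fun hx y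
    rw [mul_inv_eq_iff_eq_mul] at h1
    exact h1
  refine ⟨h.U he, ?_, fun E hE hN => ?_⟩
  · rintro ⟨_, w, hw, rfl⟩
    exact ⟨1, Subtype.ext (by
      show ur B act π e w ^ (r ^ 1) = 1
      rw [pow_one]
      exact h.ur_r he hw)⟩
  obtain ⟨hE1, hE2, hE3⟩ := hE
  have hUN : ∀ w, B e w = 0 → MulAut.conj (ur B act π e w) ∈ normalizer (E : Set (MulAut L)) :=
    fun w hw => hN ⟨_, ⟨w, hw, rfl⟩, rfl⟩
  -- the inner part is trivial
  have hD : E.comap MulAut.conj = ⊥ := by
    refine h.inv_triv hd hr hp hpr he0 he ?_ ?_ ?_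
    · intro x hx y hy
      have h1 := hE2 _ hx _ hy
      rw [← map_mul, ← map_mul] at h1
      rw [← mul_inv_eq_one]
      apply hcj
      rw [map_mul, h1, ← map_mul, mul_inv_cancel, map_one]
    · intro x hx
      apply hcj
      rw [map_pow]
      exact hE3 _ hx
    · intro w hw d hd
      show MulAut.conj _ ∈ E
      rw [map_mul, map_mul, map_inv]
      exact (mem_normalizer_iff.1 (hUN w hw) _).1 hd
  apply hE1
  rw [eq_bot_iff]
  intro f hf
  have hfp : f ^ p = 1 := hE3 f hf
  -- `f` fixes the Siegel transformations at `e`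
  have hfe : ∀ w, B e w = 0 → f (ur B act π e w) = ur B act π e w := by
    intro w hw
    have h1 : MulAut.conj (f (ur B act π e w)) = f * MulAut.conj (ur B act π e w) * f⁻¹ := by
      ext y
      show f _ * y * (f _)⁻¹ = f (ur B act π e w * f⁻¹ y * (ur B act π e w)⁻¹)
      rw [map_mul, map_mul, map_inv]
      congr 2
      exact (MulAut.apply_inv_self L f y).symm
    have h2 : f (ur B act π e w) * (ur B act π e w)⁻¹ ∈ E.comap MulAut.conj := by
      show MulAut.conj _ ∈ E
      rw [map_mul, map_inv, h1]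
      have h3 : f * MulAut.conj (ur B act π e w) * f⁻¹ * (MulAut.conj (ur B act π e w))⁻¹ =
          f * (MulAut.conj (ur B act π e w) * f⁻¹ * (MulAut.conj (ur B act π e w))⁻¹) := by group
      rw [h3]
      exact E.mul_mem hf ((mem_normalizer_iff.1 (hUN w hw) _).1 (E.inv_mem hf))
    rw [hD, mem_bot, mul_inv_eq_one] at h2
    exact h2
  -- all Siegel transformations
  have hfall : ∀ e', e' ≠ 0 → B e' e' = 0 → ∀ w, B e' w = 0 →
      f (ur B act π e' w) = ur B act π e' w := by
    intro e' he'0 he'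
    obtain ⟨d, hd1, hd0, hdd⟩ := exists_iso h.two h.symm
      (LinearMap.ker (B e) ⊓ LinearMap.ker (B e')) (by
        have := finrank_ker2 (B e) (B e')
        omega)
    have hde : B e d = 0 := LinearMap.mem_ker.1 hd1.1
    have hde' : B d e' = 0 := by rw [h.symm]; exact LinearMap.mem_ker.1 hd1.2
    exact h.fix_adj hd hr hp hpr hd0 hdd he'0 he' hde' hfp
      (h.fix_adj hd hr hp hpr he0 he hd0 hdd hde hfp hfe)
  -- they generate `L`
  set N : Subgroup L := closure {x | ∃ e' w, e' ≠ 0 ∧ B e' e' = 0 ∧ B e' w = 0 ∧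
    x = ur B act π e' w} with hN'
  have hNn : N.Normal := by
    refine ⟨fun n hn y => ?_⟩
    obtain ⟨g, rfl⟩ := h.surj y
    have h1 : N ≤ N.comap (MulAut.conj (π g)).toMonoidHom := by
      rw [hN', closure_le]
      rintro _ ⟨e', w, he'0, he', hw, rfl⟩
      show π g * ur B act π e' w * (π g)⁻¹ ∈ N
      rw [h.ur_conj g he' hw]
      refine subset_closure ⟨act g e', act g w, fun h0 => he'0 ((act g).map_eq_zero_iff.1 h0), ?_,
        ?_, rfl⟩
      · rw [h.iso, he']
      · rw [h.iso, hw]
    exact h1 hn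
  have hNtop : N = ⊤ := by
    rcases hL.eq_bot_or_eq_top_of_normal N hNn with h1 | h1
    · exfalso
      have hk := finrank_ker (B e)
      obtain ⟨w, hw, hw'⟩ := exists_notin2 (LinearMap.ker (B e)) (by omega) e 0
      have hw0 : B e w = 0 := LinearMap.mem_ker.1 hw
      have h3 : ur B act π e w ∈ N := subset_closure ⟨e, w, he0, he, hw0, rfl⟩
      rw [h1, mem_bot, ← h.ur_zero he, h.ur_eq_iff he0 he hw0 (map_zero _)] at h3
      obtain ⟨c, hc⟩ := h3
      apply hw' c 0
      rw [hc]
      module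
    · exact h1
  rw [mem_bot]
  ext y
  have hy : y ∈ N := by rw [hNtop]; exact mem_top y
  show f y = y
  induction hy using closure_induction with
  | mem y hy =>
    obtain ⟨e', w, he'0, he', hw, rfl⟩ := hy
    exact hfall e' he'0 he' w hw
  | one => exact map_one f
  | mul a b _ _ ha hb => rw [map_mul, ha, hb]
  | inv a _ ha => rw [map_inv, ha]

end

end

end Vale.Agent.P240.R2.H715.Or
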