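import Vale.Agent.P240.R2.H715.OrF

/-!
P240: Siegel transformations are products of reflections; the groups that contain the products of
two reflections of the same norm.
-/

set_option autoImplicit false

namespace Vale.Agent.P240.R2.H715.Or

open Module
open LinearMap (BilinForm)

universe u v w x

noncomputable section

section

variable {K : Type u} [Field K] {V : Type v} [AddCommGroup V] [Module K V] (B : BilinForm K V)

/-- the reflection of a vector -/
def rr (v x : V) : V := x - (2 * B v x / B v v) • v

variable {B}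

lemma rr_rr (h2 : (2 : K) ≠ 0) (hs : ∀ x y, B x y = B y x) {e w : V} (he : B e e = 0)
    (hw : B e w = 0) (hn : B w w ≠ 0) (x : V) :
    rr B w (rr B (w + (B w w / 2) • e) x) = sg B e w x := by
  have hwe : B w e = 0 := by rw [hs]; exact hw
  set N := B w w with hN
  have h1 : B (w + (N / 2) • e) (w + (N / 2) • e) = N := by
    simp only [map_add, map_smul, LinearMap.add_apply, LinearMap.smul_apply, smul_eq_mul, he, hw,
      hwe, ← hN]
    ring
  have h3 : B (w + (N / 2) • e) x = B x w + N / 2 * B x e := by
    simp only [map_add, map_smul, LinearMap.add_apply, LinearMap.smul_apply, smul_eq_mul]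
    rw [hs w x, hs e x]
  have h4 : rr B (w + (N / 2) • e) x =
      x - (2 * (B x w + N / 2 * B x e) / N) • (w + (N / 2) • e) := by
    unfold rr
    rw [h1, h3]
  have h5 : B w (rr B (w + (N / 2) • e) x) = - B x w - N * B x e := by
    rw [h4]
    simp only [map_add, map_sub, map_smul, smul_eq_mul, hwe, ← hN]
    rw [hs w x]
    field_simp
    ring
  unfold rr at h5 ⊢
  rw [h5, h1, h3, ← hN]
  unfold sg
  rw [← hN]
  have h6 : 2 * (- B x w - N * B x e) / N = - (2 * (B x w + N / 2 * B x e) / N) - B x e := by
    field_simp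
    ring
  have h7 : 2 * (B x w + N / 2 * B x e) / N * (N / 2) = B x w + N / 2 * B x e := by
    field_simp
  rw [h6]
  set A := 2 * (B x w + N / 2 * B x e) / N with hA
  rw [← h7]
  module

lemma exists_aniso [FiniteDimensional K V] (h2 : (2 : K) ≠ 0) (hs : ∀ x y, B x y = B y x)
    (nd : ∀ x, (∀ y, B x y = 0) → x = 0) (hd : 3 ≤ finrank K V) {e : V} (he0 : e ≠ 0) :
    ∃ z, B e z = 0 ∧ B z z ≠ 0 := by
  classical
  by_contra hcon
  push Not at hcon
  obtain ⟨z, hz, hz'⟩ := exists_notin (LinearMap.ker (B e)) {e} (by
    have := finrank_ker (B e)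
    rw [Finset.card_singleton]
    omega)
  rw [LinearMap.mem_ker] at hz
  have h1 : ∀ y, B e y = 0 → B z y = 0 := by
    intro y hy
    have h3 : B (z + y) (z + y) = 0 := hcon _ (by rw [map_add, hz, hy, add_zero])
    simp only [map_add, LinearMap.add_apply] at h3
    rw [hcon z hz, hcon y hy, hs y z] at h3
    have h4 : 2 * B z y = 0 := by linear_combination h3
    exact (mul_eq_zero.1 h4).resolve_left h2
  have h3 : ¬ ∀ y, B e y = 0 := fun h3 => he0 (nd e h3)
  push Not at h3
  obtain ⟨f, hf⟩ := h3
  apply hz'
  rw [Finset.coe_singleton, Submodule.mem_span_singleton]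
  refine ⟨B z f / B e f, ?_⟩
  rw [← sub_eq_zero]
  apply nd
  intro y
  have h4 := h1 (y - (B e y / B e f) • f) (by
    rw [map_sub, map_smul, smul_eq_mul]
    field_simp
    ring)
  rw [map_sub, map_smul, smul_eq_mul, sub_eq_zero] at h4
  rw [map_sub, map_smul, LinearMap.sub_apply, LinearMap.smul_apply, smul_eq_mul, h4]
  field_simp
  ring

variable {S : Type w} [Group S] {act : S →* (V ≃ₗ[K] V)} {L : Type x} [Group L]
  {π : S →* L}

/-- the data, from the products of two reflections of the same norm -/
theorem OD.of_big [FiniteDimensional K V] (h2 : (2 : K) ≠ 0) (hs : ∀ x y, B x y = B y x)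
    (nd : ∀ x, (∀ y, B x y = 0) → x = 0) (iso : ∀ g x y, B (act g x) (act g y) = B x y)
    (hd : 3 ≤ finrank K V)
    (big : ∀ u v : V, B u u ≠ 0 → B v v = B u u → ∃ g : S, ∀ x, act g x = rr B u (rr B v x))
    (surj : Function.Surjective π) (ker : ∀ g, π g = 1 ↔ ∃ c : K, ∀ x, act g x = c • x) :
    OD B act π where
  two := h2
  symm := hs
  nd := nd
  iso := iso
  surj := surj
  ker := ker
  rho := by
    intro e w he hw
    have key : ∀ w, B e w = 0 → B w w ≠ 0 → ∃ g : S, ∀ x, act g x = sg B e w x := by
      intro w hw hn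
      have hwe : B w e = 0 := by rw [hs]; exact hw
      obtain ⟨g, hg⟩ := big w (w + (B w w / 2) • e) hn (by
        simp only [map_add, map_smul, LinearMap.add_apply, LinearMap.smul_apply, smul_eq_mul, he,
          hw, hwe]
        ring)
      exact ⟨g, fun x => by rw [hg, rr_rr h2 hs he hw hn]⟩
    by_cases he0 : e = 0
    · refine ⟨1, fun x => ?_⟩
      rw [map_one]
      show x = _
      unfold sg
      rw [he0]
      simp
    by_cases hn : B w w = 0
    · obtain ⟨z, hz, hzz⟩ := exists_aniso h2 hs nd hd he0
      obtain ⟨t, ht, htt⟩ : ∃ t : K, t ≠ 0 ∧ B (w + t • z) (w + t • z) ≠ 0 := by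
        by_cases h0 : B w z = 0
        · refine ⟨1, one_ne_zero, ?_⟩
          simp only [map_add, map_smul, LinearMap.add_apply, LinearMap.smul_apply, smul_eq_mul]
          rw [hn, hs z w, h0]
          simpa using hzz
        · refine ⟨2 * B w z / B z z, ?_, ?_⟩
          · exact div_ne_zero (mul_ne_zero h2 h0) hzz
          · simp only [map_add, map_smul, LinearMap.add_apply, LinearMap.smul_apply, smul_eq_mul]
            rw [hn, hs z w]
            have h3 : (0 : K) + 2 * B w z / B z z * B w z + (2 * B w z / B z z) *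
                (B w z + 2 * B w z / B z z * B z z) = 2 * 2 * 2 * (B w z * B w z) / B z z := by
              field_simp
              ring
            have h4 : 2 * 2 * 2 * (B w z * B w z) / B z z ≠ 0 :=
              div_ne_zero (mul_ne_zero (mul_ne_zero (mul_ne_zero h2 h2) h2) (mul_ne_zero h0 h0)) hzz
            intro h5
            exact h4 (h3.symm.trans h5)
      have hz' : B e (-(t • z)) = 0 := by rw [map_neg, map_smul, hz, smul_zero, neg_zero]
      have hzt : B e (w + t • z) = 0 := by rw [map_add, map_smul, hz, hw, smul_zero, add_zero]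
      obtain ⟨g, hg⟩ := key (w + t • z) hzt htt
      obtain ⟨g', hg'⟩ := key (-(t • z)) hz' (by
        simp only [map_neg, map_smul, LinearMap.neg_apply, LinearMap.smul_apply, smul_eq_mul]
        rw [mul_neg, neg_neg]
        exact mul_ne_zero ht (mul_ne_zero ht hzz))
      refine ⟨g * g', fun x => ?_⟩
      rw [OD.mul_act, hg', hg, sg_add h2 hs he hzt hz', add_neg_cancel_right]
    · exact key w hw hn

end

end

end Vale.Agent.P240.R2.H715.Or
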