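import Vale.Agent.P240.R2.H715.OrG
import Mathlib.LinearAlgebra.QuadraticForm.Basic
import Mathlib.LinearAlgebra.Matrix.GeneralLinearGroup.Basic
import Mathlib.LinearAlgebra.Matrix.BilinearForm

/-!
P240: the projective orthogonal groups of an arbitrary nondegenerate symmetric bilinear form over a
finite field of odd order: `AutFree p r` for the commutator subgroup, every prime `p ≠ r`.
-/

set_option autoImplicit false

namespace Vale.Agent.P240.R2.H715.Or

open Module Subgroup
open LinearMap (BilinForm)
open scoped commutatorElement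

universe u v w x

noncomputable section

section

variable {K : Type u} [Field K] {V : Type v} [AddCommGroup V] [Module K V] {B : BilinForm K V}

lemma rr_self {v : V} (hv : B v v ≠ 0) : rr B v v = - v := by
  unfold rr
  rw [mul_div_assoc, div_self hv, mul_one]
  module

lemma rr_inv {v : V} (hv : B v v ≠ 0) (x : V) :
    rr B v (rr B v x) = x := by
  have h1 : B v (rr B v x) = - B v x := by
    unfold rr
    simp only [map_sub, map_smul, smul_eq_mul]
    field_simp
    ring
  unfold rr at h1 ⊢
  rw [h1, mul_neg, neg_div]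
  module

lemma rr_conj (g : V ≃ₗ[K] V) (hg : ∀ x y, B (g x) (g y) = B x y) (v x : V) :
    g (rr B v x) = rr B (g v) (g x) := by
  unfold rr
  rw [map_sub, map_smul, hg, hg]

lemma rr_neg (v x : V) : rr B (-v) x = rr B v x := by
  unfold rr
  simp only [map_neg, LinearMap.neg_apply, neg_neg]
  module

lemma rr_sub (hs : ∀ x y, B x y = B y x) {u v : V} (huv : B v v = B u u)
    (h : B (u - v) (u - v) ≠ 0) : rr B (u - v) u = v := by
  have h3 : 2 * B (u - v) u = B (u - v) (u - v) := by
    simp only [map_sub, LinearMap.sub_apply]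
    rw [huv, hs v u]
    ring
  unfold rr
  rw [h3, div_self h]
  module

lemma aniso_pm (h2 : (2 : K) ≠ 0) (hs : ∀ x y, B x y = B y x) {u v : V} (hu : B u u ≠ 0)
    (huv : B v v = B u u) : B (u - v) (u - v) ≠ 0 ∨ B (u + v) (u + v) ≠ 0 := by
  by_contra h
  push Not at h
  obtain ⟨h3, h4⟩ := h
  simp only [map_sub, map_add, LinearMap.sub_apply, LinearMap.add_apply] at h3 h4
  rw [huv, hs v u] at h3 h4
  have h5 : (2 : K) * 2 * B u u = 0 := by linear_combination h3 + h4
  exact mul_ne_zero (mul_ne_zero h2 h2) hu h5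

/-- a linear map preserving the anisotropic lines is a scalar -/
lemma scalar_of_aniso [FiniteDimensional K V] (h2 : (2 : K) ≠ 0) (hs : ∀ x y, B x y = B y x)
    (nd : ∀ x, (∀ y, B x y = 0) → x = 0) (hd : 3 ≤ finrank K V) (g : V →ₗ[K] V)
    (hg : ∀ v, B v v ≠ 0 → ∃ c : K, g v = c • v) : ∃ c : K, ∀ x, g x = c • x := by
  have : Invertible (2 : K) := invertibleOfNonzero h2
  obtain ⟨b, hb⟩ := LinearMap.BilinForm.exists_orthogonal_basis (B := B)
    ⟨fun x y => by simpa using hs x y⟩
  have hb0 : ∀ i j, i ≠ j → B (b i) (b j) = 0 := fun i j hij => hb hij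
  have hn : ∀ i, B (b i) (b i) ≠ 0 := by
    intro i hi
    apply b.ne_zero i
    apply nd
    intro y
    rw [← b.sum_repr y, map_sum]
    refine Finset.sum_eq_zero fun j _ => ?_
    rw [map_smul, smul_eq_mul]
    by_cases hij : i = j
    · rw [← hij, hi, mul_zero]
    · rw [hb0 i j hij, mul_zero]
  choose! c hc using hg
  have key : ∀ i j, i ≠ j → c (b i) = c (b j) := by
    intro i j hij
    obtain ⟨k, hki, hkj⟩ : ∃ k : Fin (finrank K V), k ≠ i ∧ k ≠ j := by
      by_contra hcon
      push Not at hcon
      have h1 : (Finset.univ : Finset (Fin (finrank K V))) ⊆ {i, j} := by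
        intro k _
        by_cases hk : k = i
        · rw [hk]; exact Finset.mem_insert_self _ _
        · rw [hcon k hk]; exact Finset.mem_insert_of_mem (Finset.mem_singleton_self _)
      have h3 := Finset.card_le_card h1
      rw [Finset.card_univ, Fintype.card_fin] at h3
      have h4 := Finset.card_le_two (a := i) (b := j)
      omega
    obtain ⟨s, hs'⟩ : ∃ s : K, B (b i) (b i) + B (b j) (b j) + s * s * B (b k) (b k) ≠ 0 := by
      by_cases h0 : B (b i) (b i) + B (b j) (b j) = 0
      · exact ⟨1, by rw [h0, one_mul, one_mul, zero_add]; exact hn k⟩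
      · exact ⟨0, by rw [zero_mul, zero_mul, add_zero]; exact h0⟩
    have h1 : B (b i + b j + s • b k) (b i + b j + s • b k) =
        B (b i) (b i) + B (b j) (b j) + s * s * B (b k) (b k) := by
      simp only [map_add, map_smul, LinearMap.add_apply, LinearMap.smul_apply, smul_eq_mul]
      rw [hb0 i j hij, hb0 j i hij.symm, hb0 i k hki.symm, hb0 k i hki, hb0 j k hkj.symm,
        hb0 k j hkj]
      ring
    have h3 := hc _ (by rw [h1]; exact hs')
    set t := c (b i + b j + s • b k) with ht
    rw [map_add, map_add, map_smul, hc _ (hn i), hc _ (hn j), hc _ (hn k)] at h3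
    have hi : (b.repr (c (b i) • b i + c (b j) • b j + s • c (b k) • b k)) i =
        (b.repr (t • (b i + b j + s • b k))) i := by rw [h3]
    have hj : (b.repr (c (b i) • b i + c (b j) • b j + s • c (b k) • b k)) j =
        (b.repr (t • (b i + b j + s • b k))) j := by rw [h3]
    simp only [map_add, map_smul, Finsupp.add_apply, Finsupp.smul_apply, Basis.repr_self,
      smul_eq_mul, Finsupp.single_apply, if_true, hij, hij.symm, hki, hkj, if_false] at hi hj
    simp only [mul_one, mul_zero, add_zero, zero_add] at hi hj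
    rw [hi, hj]
  have h0 : 0 < finrank K V := by omega
  refine ⟨c (b ⟨0, h0⟩), fun x => ?_⟩
  rw [← b.sum_repr x, map_sum, Finset.smul_sum]
  refine Finset.sum_congr rfl fun i _ => ?_
  rw [map_smul, hc _ (hn i), smul_comm]
  by_cases hi : i = ⟨0, h0⟩
  · rw [hi]
  · rw [key i _ hi]

variable {T : Type w} [Group T]

/-- the elements of `T` over the commutator subgroup of `T / Z(T)` -/
def Sc (T : Type w) [Group T] : Subgroup T :=
  (commutator (T ⧸ center T)).comap (QuotientGroup.mk' (center T))

variable {L : Type x} [Group L]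

/-- the projection to the commutator subgroup -/
def pc (e : commutator (T ⧸ center T) ≃* L) : Sc T →* L :=
  e.toMonoidHom.comp ((QuotientGroup.mk' (center T)).subgroupComap (commutator (T ⧸ center T)))

lemma pc_apply (e : commutator (T ⧸ center T) ≃* L) (g : Sc T) :
    pc e g = e ⟨QuotientGroup.mk' (center T) g.1, g.2⟩ := rfl

lemma pc_surj (e : commutator (T ⧸ center T) ≃* L) : Function.Surjective (pc e) := by
  intro y
  obtain ⟨x, rfl⟩ := e.surjective y
  obtain ⟨g, hg⟩ := QuotientGroup.mk'_surjective (center T) x.1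
  refine ⟨⟨g, ?_⟩, ?_⟩
  · show QuotientGroup.mk' (center T) g ∈ commutator (T ⧸ center T)
    rw [hg]
    exact x.2
  · rw [pc_apply]
    congr 1
    exact Subtype.ext hg

/-- the data for the full isometry group -/
theorem od_full [FiniteDimensional K V] (h2 : (2 : K) ≠ 0) (hs : ∀ x y, B x y = B y x)
    (nd : ∀ x, (∀ y, B x y = 0) → x = 0) (hd : 3 ≤ finrank K V) (ι : T →* (V ≃ₗ[K] V))
    (hinj : Function.Injective ι) (hiso : ∀ g x y, B (ι g x) (ι g y) = B x y)
    (hrefl : ∀ v, B v v ≠ 0 → ∃ g : T, ∀ x, ι g x = rr B v x)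
    (e : commutator (T ⧸ center T) ≃* L) : OD B (ι.comp (Sc T).subtype) (pc e) := by
  refine OD.of_big h2 hs nd (fun g x y => hiso g.1 x y) hd ?_ (pc_surj e) ?_
  · intro u v hu huv
    have hv : B v v ≠ 0 := by rw [huv]; exact hu
    obtain ⟨t, ht⟩ : ∃ t : T, ι t u = v ∨ ι t u = - v := by
      rcases aniso_pm h2 hs hu huv with h | h
      · obtain ⟨t, ht⟩ := hrefl _ h
        exact ⟨t, Or.inl (by rw [ht, rr_sub hs huv h])⟩
      · obtain ⟨t, ht⟩ := hrefl _ h
        refine ⟨t, Or.inr ?_⟩
        have h3 : u + v = u - (-v) := by abel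
        rw [ht, h3]
        rw [h3] at h
        exact rr_sub hs (by simpa using huv) h
    obtain ⟨a, ha⟩ := hrefl u hu
    obtain ⟨b, hb⟩ := hrefl v hv
    have h3 : a * b = ⁅a, t⁆ := by
      apply hinj
      ext x
      have ha' : ∀ x, ι a⁻¹ x = rr B u x := by
        intro x
        have h4 : ι a (ι a⁻¹ x) = x := OD.inv_act a x
        have h5 := rr_inv (B := B) hu (ι a⁻¹ x)
        rw [← ha (ι a⁻¹ x), h4] at h5
        exact h5.symm
      rw [commutatorElement_def, OD.mul_act, OD.mul_act, OD.mul_act, OD.mul_act, ha', ha, ha, hb,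
        rr_conj (ι t) (hiso t), OD.inv_act]
      rcases ht with h | h
      · rw [h]
      · rw [h, rr_neg]
    refine ⟨⟨a * b, ?_⟩, fun x => ?_⟩
    · show QuotientGroup.mk' (center T) (a * b) ∈ commutator (T ⧸ center T)
      rw [h3, map_commutatorElement]
      exact commutator_mem_commutator (mem_top _) (mem_top _)
    · show ι (a * b) x = _
      rw [OD.mul_act, ha, hb]
  · intro g
    rw [pc_apply]
    have h1 : e ⟨QuotientGroup.mk' (center T) g.1, g.2⟩ = 1 ↔ g.1 ∈ center T := by
      rw [← map_one e, e.injective.eq_iff, Subtype.ext_iff]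
      show QuotientGroup.mk' (center T) g.1 = 1 ↔ _
      rw [QuotientGroup.mk'_apply, QuotientGroup.eq_one_iff]
    rw [h1, mem_center_iff]
    constructor
    · intro hg
      refine scalar_of_aniso h2 hs nd hd (ι g.1).toLinearMap fun v hv => ?_
      obtain ⟨t, ht⟩ := hrefl v hv
      have h3 : ι t (ι g.1 v) = ι g.1 (ι t v) := by
        rw [← OD.mul_act, ← OD.mul_act, hg t]
      rw [ht, ht, rr_self hv, map_neg] at h3
      unfold rr at h3
      refine ⟨B v (ι g.1 v) / B v v, ?_⟩
      show ι g.1 v = _
      have h4 : (2 : K) • (ι g.1 v) = (2 : K) • ((B v (ι g.1 v) / B v v) • v) := by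
        have h5 : ι g.1 v - (2 * B v (ι g.1 v) / B v v) • v + ι g.1 v = 0 := by
          rw [h3]; abel
        rw [smul_smul, ← mul_div_assoc, two_smul, ← sub_eq_zero, ← h5]
        abel
      exact smul_right_injective V h2 h4
    · rintro ⟨c, hc⟩ t
      apply hinj
      ext x
      have hc' : ∀ x, ι g.1 x = c • x := hc
      rw [OD.mul_act, OD.mul_act, hc', hc', map_smul]

/-- **Theorem.** Let `T` be the isometry group of a nondegenerate symmetric bilinear form of
dimension at least `5` over a finite field of odd characteristic `r`, and `L` the commutator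
subgroup of `T / Z(T)`. If `L` is simple, `AutFree p r L` holds for every prime `p ≠ r`. -/
theorem autFree_full [Finite K] [FiniteDimensional K V] [Finite L] (h2 : (2 : K) ≠ 0)
    (hs : ∀ x y, B x y = B y x) (nd : ∀ x, (∀ y, B x y = 0) → x = 0) (hd : 5 ≤ finrank K V)
    (ι : T →* (V ≃ₗ[K] V)) (hinj : Function.Injective ι)
    (hiso : ∀ g x y, B (ι g x) (ι g y) = B x y)
    (hrefl : ∀ v, B v v ≠ 0 → ∃ g : T, ∀ x, ι g x = rr B v x)
    (e : commutator (T ⧸ center T) ≃* L) {r p : ℕ} (hr : r.Prime) [CharP K r] (hp : p.Prime)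
    (hpr : p ≠ r) (hL : IsSimpleGroup L) (hZ : ∀ x : L, (∀ y, x * y = y * x) → x = 1) :
    H195.AutFree p r L :=
  autFree_orth (od_full h2 hs nd (by omega) ι hinj hiso hrefl e) hd hr hp hpr hL hZ

end

end

end Vale.Agent.P240.R2.H715.Or
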