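import Vale.Agent.P240.R2.H715.OrI
import Vale.Agent.P240.R2.H221.B3

/-!
P240: `AutFree p r` for the commutator subgroup of `PGU K n`, trivial star: the groups `Ω_n(q)`,
`n` odd, and `PΩ_n(q)` of the standard form, `n` even.
-/

set_option autoImplicit false

namespace Vale.Agent.P240.R2.H715.Or

open Module Subgroup Matrix Vale.Agent.P240.R2.AS
open LinearMap (BilinForm)

universe u v w x

noncomputable section

section

variable {K : Type u} [Field K] [StarRing K] {n : ℕ}

/-- a unitary matrix as an invertible matrix -/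
def toG : GU K n →* GL (Fin n) K where
  toFun g := ⟨g.1, star g.1, mem_unitaryGroup_iff.1 g.2, mem_unitaryGroup_iff'.1 g.2⟩
  map_one' := Units.ext rfl
  map_mul' g h := Units.ext rfl

variable {L : Type x} [Group L]

/-- **Theorem.** `L` is the commutator subgroup of `PGU K n`, where the star is trivial: `Ω_n(q)`,
`n` odd, or `PΩ_n(q)` of the standard form. If `L` is simple, `AutFree p r L` holds for every prime
`p ≠ r`, `r` the characteristic. -/
theorem autFree_Om [Finite K] [Finite L] (hs : ∀ x : K, star x = x) (h2 : (2 : K) ≠ 0)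
    (hn : 5 ≤ n) (e : commutator (PGU K n) ≃* L) {r p : ℕ} (hr : r.Prime) [CharP K r]
    (hp : p.Prime) (hpr : p ≠ r) (hL : IsSimpleGroup L)
    (hZ : ∀ x : L, (∀ y, x * y = y * x) → x = 1) : H195.AutFree p r L := by
  have hB : ∀ x y : Fin n → K, Bm (1 : Matrix (Fin n) (Fin n) K) x y = x ⬝ᵥ y := fun x y => by
    rw [Bm_apply, one_mulVec]
  refine autFree_full (B := Bm (1 : Matrix (Fin n) (Fin n) K)) h2 (Bm_symm transpose_one)
    (Bm_nd (by rw [det_one]; exact one_ne_zero)) (by rw [finrank_fin_fun]; exact hn)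
    (glE.comp toG) (fun g h hgh => Subtype.ext ?_) (fun g => ?_) (fun v hv => ?_) e hr hp hpr hL hZ
  · have h1 : toG g = toG h := glE_inj hgh
    exact congrArg Units.val h1
  · refine (Bm_iso 1 g.1).2 ?_
    have h1 : star g.1 = g.1ᵀ := by
      ext i j
      rw [star_apply, transpose_apply, hs]
    rw [mul_one, ← h1]
    exact mem_unitaryGroup_iff'.1 g.2
  · have hv' : v ⬝ᵥ v ≠ 0 := by rw [← hB]; exact hv
    refine ⟨H221.rf hs v hv', fun x => ?_⟩
    show (H221.rf hs v hv' : Matrix (Fin n) (Fin n) K) *ᵥ x = _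
    rw [H221.rf_mulVec]
    unfold rr
    rw [hB, hB]

end

end

end Vale.Agent.P240.R2.H715.Or
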