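import Vale.Agent.P240.R2.H715.SpStmts
import Vale.Agent.P240.R2.H715.CardU

/-!
P240, symplectic groups: changes of coordinates.
-/

set_option autoImplicit false

namespace Vale.Agent.P240.R2.H715

open Matrix Subgroup Vale.Agent.P240.R2.AS Vale.Agent.P240.K
open scoped Classical

universe u v w

attribute [local instance] ts

noncomputable section

variable {K : Type u} [Field K] {m : ℕ} {G : Type v} [Group G]

/-- a similitude and its inverse -/
structure Sim (h h' : Matrix (Fin m ⊕ Fin m) (Fin m ⊕ Fin m) K) (μ : K) : Prop where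
  mul : h * h' = 1
  mul' : h' * h = 1
  ne : μ ≠ 0
  form : h * J (Fin m) K * hᵀ = μ • J (Fin m) K

lemma Sim.form' {h h' : Matrix (Fin m ⊕ Fin m) (Fin m ⊕ Fin m) K} {μ : K} (H : Sim h h' μ) :
    h' * J (Fin m) K * h'ᵀ = μ⁻¹ • J (Fin m) K := by
  have h1 : h' * (h * J (Fin m) K * hᵀ) * h'ᵀ = J (Fin m) K := by
    have : hᵀ * h'ᵀ = 1 := by rw [← transpose_mul, H.mul', transpose_one]
    calc h' * (h * J (Fin m) K * hᵀ) * h'ᵀ = (h' * h) * J (Fin m) K * (hᵀ * h'ᵀ) := by
          simp only [Matrix.mul_assoc]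
      _ = _ := by rw [H.mul', this, Matrix.one_mul, Matrix.mul_one]
  rw [H.form, Matrix.mul_smul, Matrix.smul_mul] at h1
  calc h' * J (Fin m) K * h'ᵀ = μ⁻¹ • (μ • (h' * J (Fin m) K * h'ᵀ)) := by
        rw [smul_smul, inv_mul_cancel₀ H.ne, one_smul]
    _ = _ := by rw [h1]

lemma Sim.symm {h h' : Matrix (Fin m ⊕ Fin m) (Fin m ⊕ Fin m) K} {μ : K} (H : Sim h h' μ) :
    Sim h' h μ⁻¹ := ⟨H.mul', H.mul, inv_ne_zero H.ne, H.form'⟩

lemma Sim.conj_mem {h h' : Matrix (Fin m ⊕ Fin m) (Fin m ⊕ Fin m) K} {μ : K} (H : Sim h h' μ)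
    (y : Sy K m) : h * y.1 * h' ∈ Matrix.symplecticGroup (Fin m) K := by
  rw [SymplecticGroup.mem_iff, transpose_mul, transpose_mul]
  have h1 := H.form'
  have h2 := SymplecticGroup.mem_iff.1 y.2
  calc h * y.1 * h' * J (Fin m) K * (h'ᵀ * (y.1ᵀ * hᵀ))
      = h * y.1 * (h' * J (Fin m) K * h'ᵀ) * y.1ᵀ * hᵀ := by simp only [Matrix.mul_assoc]
    _ = μ⁻¹ • (h * (y.1 * J (Fin m) K * y.1ᵀ) * hᵀ) := by
        rw [h1]
        simp only [Matrix.mul_smul, Matrix.smul_mul, Matrix.mul_assoc]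
    _ = J (Fin m) K := by
        rw [h2, H.form, smul_smul, inv_mul_cancel₀ H.ne, one_smul]

/-- conjugation by a similitude -/
def cS {h h' : Matrix (Fin m ⊕ Fin m) (Fin m ⊕ Fin m) K} {μ : K} (H : Sim h h' μ) :
    Sy K m →* Sy K m where
  toFun y := ⟨h * y.1 * h', H.conj_mem y⟩
  map_one' := Subtype.ext (by
    show h * 1 * h' = 1
    rw [Matrix.mul_one, H.mul])
  map_mul' a b := Subtype.ext (by
    show h * (a.1 * b.1) * h' = h * a.1 * h' * (h * b.1 * h')
    calc h * (a.1 * b.1) * h' = h * a.1 * 1 * b.1 * h' := by simp only [Matrix.mul_assoc, Matrix.mul_one, Matrix.one_mul]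
      _ = _ := by rw [← H.mul']; simp only [Matrix.mul_assoc])

lemma cS_val {h h' : Matrix (Fin m ⊕ Fin m) (Fin m ⊕ Fin m) K} {μ : K} (H : Sim h h' μ)
    (y : Sy K m) : (cS H y).1 = h * y.1 * h' := rfl

lemma cS_symm {h h' : Matrix (Fin m ⊕ Fin m) (Fin m ⊕ Fin m) K} {μ : K} (H : Sim h h' μ)
    (y : Sy K m) : cS H (cS H.symm y) = y := by
  apply Subtype.ext
  rw [cS_val, cS_val]
  calc h * (h' * y.1 * h) * h' = (h * h') * y.1 * (h * h') := by simp only [Matrix.mul_assoc]
    _ = _ := by rw [H.mul, Matrix.one_mul, Matrix.mul_one]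

theorem PSpHom.conj {L : Subgroup G} {ε : Sy K m →* G} (hL : PSpHom m L ε)
    {h h' : Matrix (Fin m ⊕ Fin m) (Fin m ⊕ Fin m) K} {μ : K} (H : Sim h h' μ) :
    PSpHom m L (ε.comp (cS H)) := by
  refine ⟨?_, ?_, ?_⟩
  · rw [← hL.range]
    ext x
    constructor
    · rintro ⟨y, rfl⟩
      exact ⟨cS H y, rfl⟩
    · rintro ⟨y, rfl⟩
      exact ⟨cS H.symm y, by rw [MonoidHom.comp_apply, cS_symm]⟩
  · intro g
    rw [MonoidHom.comp_apply, hL.ker]
    constructor
    · rintro ⟨c, hc⟩
      refine ⟨c, ?_⟩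
      rw [cS_val] at hc
      calc g.1 = h' * (h * g.1 * h') * h := by
            calc g.1 = (h' * h) * g.1 * (h' * h) := by rw [H.mul', Matrix.one_mul, Matrix.mul_one]
              _ = _ := by simp only [Matrix.mul_assoc]
        _ = _ := by rw [hc, Matrix.mul_smul, Matrix.smul_mul, Matrix.mul_one, H.mul']
    · rintro ⟨c, hc⟩
      refine ⟨c, ?_⟩
      rw [cS_val, hc, Matrix.mul_smul, Matrix.smul_mul, Matrix.mul_one, H.mul]
  · intro x hx hx2
    obtain ⟨M, ν, σ, hν, hM, hact⟩ := hL.sem x hx hx2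
    have e1 : h.map σ * h'.map σ = 1 := by
      rw [← Matrix.map_mul, H.mul, Matrix.map_one _ (map_zero _) (map_one _)]
    have e2 : h'.map σ * h.map σ = 1 := by
      rw [← Matrix.map_mul, H.mul', Matrix.map_one _ (map_zero _) (map_one _)]
    have e3 : h.map σ * J (Fin m) K * (h.map σ)ᵀ = σ μ • J (Fin m) K := by
      have := congrArg (fun X : Matrix (Fin m ⊕ Fin m) (Fin m ⊕ Fin m) K => X.map σ) H.form
      simp only [Matrix.map_mul, Matrix.transpose_map, map_J] at this
      rw [this]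
      ext i j
      simp only [Matrix.map_apply, Matrix.smul_apply, smul_eq_mul, map_mul]
      congr 1
      have h5 := congrFun (congrFun (map_J (l := Fin m) (R := K) (S := K) σ) i) j
      exact h5
    refine ⟨h' * M * h.map σ, μ⁻¹ * (ν * σ μ), σ, ?_, ?_, ?_⟩
    · exact mul_ne_zero (inv_ne_zero H.ne) (mul_ne_zero hν ((map_ne_zero σ).2 H.ne))
    · rw [transpose_mul, transpose_mul]
      calc h' * M * h.map σ * J (Fin m) K * ((h.map σ)ᵀ * (Mᵀ * h'ᵀ))
          = h' * (M * (h.map σ * J (Fin m) K * (h.map σ)ᵀ) * Mᵀ) * h'ᵀ := by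
            simp only [Matrix.mul_assoc]
        _ = σ μ • (h' * (M * J (Fin m) K * Mᵀ) * h'ᵀ) := by
            rw [e3]
            simp only [Matrix.mul_smul, Matrix.smul_mul]
        _ = (σ μ * ν) • (h' * J (Fin m) K * h'ᵀ) := by
            rw [hM]
            simp only [Matrix.mul_smul, Matrix.smul_mul, smul_smul]
        _ = _ := by
            rw [H.form', smul_smul]
            congr 1
            ring
    · intro y y' hy
      rw [MonoidHom.comp_apply, MonoidHom.comp_apply]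
      apply hact
      rw [cS_val, cS_val, Matrix.map_mul, Matrix.map_mul]
      calc h * y'.1 * h' * M = h * y'.1 * h' * M * (h.map σ * h'.map σ) := by
            rw [e1, Matrix.mul_one]
        _ = h * (y'.1 * (h' * M * h.map σ)) * h'.map σ := by simp only [Matrix.mul_assoc]
        _ = h * h' * M * h.map σ * y.1.map σ * h'.map σ := by
            rw [hy]
            simp only [Matrix.mul_assoc]
        _ = M * (h.map σ * y.1.map σ * h'.map σ) := by
            rw [H.mul, Matrix.one_mul]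
            simp only [Matrix.mul_assoc]

/-- `g ⊗ k` is a similitude -/
lemma sim_gk (g : GU K m) {k k' : Matrix (Fin 2) (Fin 2) K} (h1 : k * k' = 1) (h2 : k' * k = 1) :
    Sim (oM g.1 * hM m k) (oM (star g.1) * hM m k') k.det := by
  have hg1 := Matrix.mem_unitaryGroup_iff.1 g.2
  have hg2 := Matrix.mem_unitaryGroup_iff'.1 g.2
  refine ⟨?_, ?_, ?_, ?_⟩
  · calc oM g.1 * hM m k * (oM (star g.1) * hM m k')
        = oM g.1 * (hM m k * oM (star g.1)) * hM m k' := by simp only [Matrix.mul_assoc]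
      _ = (oM g.1 * oM (star g.1)) * (hM m k * hM m k') := by
          rw [hM_oM]; simp only [Matrix.mul_assoc]
      _ = 1 := by rw [← oM_mul, ← hM_mul, hg1, h1, oM_one, hM_one, Matrix.one_mul]
  · calc oM (star g.1) * hM m k' * (oM g.1 * hM m k)
        = oM (star g.1) * (hM m k' * oM g.1) * hM m k := by simp only [Matrix.mul_assoc]
      _ = (oM (star g.1) * oM g.1) * (hM m k' * hM m k) := by
          rw [hM_oM]; simp only [Matrix.mul_assoc]
      _ = 1 := by rw [← oM_mul, ← hM_mul, hg2, h2, oM_one, hM_one, Matrix.one_mul]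
  · intro h0
    have := congrArg Matrix.det h1
    rw [Matrix.det_mul, h0, zero_mul, Matrix.det_one] at this
    exact zero_ne_one this
  · rw [transpose_mul]
    calc oM g.1 * hM m k * J (Fin m) K * ((hM m k)ᵀ * (oM g.1)ᵀ)
        = oM g.1 * (hM m k * J (Fin m) K * (hM m k)ᵀ) * (oM g.1)ᵀ := by
          simp only [Matrix.mul_assoc]
      _ = k.det • (oM g.1 * J (Fin m) K * (oM g.1)ᵀ) := by
          rw [hM_J, Matrix.mul_smul, Matrix.smul_mul]
      _ = _ := by
          have : g.1 * g.1ᵀ = (1 : K) • 1 := by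
            rw [one_smul]
            exact hg1
          rw [oM_J g.1 1 this, one_smul]

end

end Vale.Agent.P240.R2.H715
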