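import Vale.Agent.P240.R2.H715.SpA
import Vale.Agent.P240.R2.H687.Fy

/-!
P240, symplectic groups: the family of elementary abelian groups in new coordinates.
-/

set_option autoImplicit false

namespace Vale.Agent.P240.R2.H715

open Matrix Subgroup Vale.Agent.P240.R2.AS Vale.Agent.P240.K
open Vale.Agent.P240.R2.H687 (uMap uMap_coe conjM lam lam_coe lam_injective IsPr eU_val eU_conjM
  isPr_Ln isPr_sm)
open scoped Classical

universe u v w

attribute [local instance] ts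

noncomputable section

variable {K : Type u} [Field K] {m : ℕ} {G : Type v} [Group G]

lemma cS_oS (g : GU K m) {k k' : Matrix (Fin 2) (Fin 2) K} (h1 : k * k' = 1) (h2 : k' * k = 1)
    (y : GU K m) : cS (sim_gk g h1 h2) (oS y) = oS (g * y * g⁻¹) := by
  apply Subtype.ext
  show oM g.1 * hM m k * oM y.1 * (oM (star g.1) * hM m k') = oM (g.1 * y.1 * star g.1)
  calc oM g.1 * hM m k * oM y.1 * (oM (star g.1) * hM m k')
      = oM g.1 * (hM m k * oM y.1) * (oM (star g.1) * hM m k') := by simp only [Matrix.mul_assoc]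
    _ = oM g.1 * oM y.1 * (hM m k * oM (star g.1)) * hM m k' := by
        rw [hM_oM]; simp only [Matrix.mul_assoc]
    _ = oM g.1 * oM y.1 * oM (star g.1) * (hM m k * hM m k') := by
        rw [hM_oM]; simp only [Matrix.mul_assoc]
    _ = _ := by rw [← hM_mul, h1, hM_one, Matrix.mul_one, oM_mul, oM_mul]

lemma cS_hS (g : GU K m) {k k' : Matrix (Fin 2) (Fin 2) K} (h1 : k * k' = 1) (h2 : k' * k = 1)
    (a a' : S2 K) (ha : a'.1 = k * a.1 * k') : cS (sim_gk g h1 h2) (hS a) = hS a' := by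
  apply Subtype.ext
  show oM g.1 * hM m k * hM m a.1 * (oM (star g.1) * hM m k') = hM m a'.1
  calc oM g.1 * hM m k * hM m a.1 * (oM (star g.1) * hM m k')
      = oM g.1 * (hM m (k * a.1) * oM (star g.1)) * hM m k' := by
        rw [hM_mul]; simp only [Matrix.mul_assoc]
    _ = (oM g.1 * oM (star g.1)) * (hM m (k * a.1) * hM m k') := by
        rw [hM_oM]; simp only [Matrix.mul_assoc]
    _ = _ := by
        rw [← hM_mul, ← oM_mul, Matrix.mem_unitaryGroup_iff.1 g.2, oM_one, Matrix.one_mul, ha]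

section gen

variable {K₀ : Type w} [Field K₀]

lemma ftriv (f : K₀ →+* K) (x : K₀) : f (star x) = star (f x) := rfl

/-- the homomorphism from `O_m(K₀)` in the coordinates given by `g ⊗ k` -/
def i0 (ε : Sy K m →* G) (f : K₀ →+* K) (g : GU K m) {k k' : Matrix (Fin 2) (Fin 2) K}
    (h1 : k * k' = 1) (h2 : k' * k = 1) : GU K₀ m →* G :=
  (ε.comp (cS (sim_gk g h1 h2))).comp (oS.comp (uMap m f (ftriv f)))

lemma i0_eU (ε : Sy K m →* G) (f : K₀ →+* K) (g : GU K m) {k k' : Matrix (Fin 2) (Fin 2) K}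
    (h1 : k * k' = 1) (h2 : k' * k = 1) {u : List (Ln K₀ m)} (hu : Orth u) :
    i0 ε f g h1 h2 (eU (-1) (sm u)) = eX ε (u.map (lam f (ftriv f) g)) := by
  have hz : (-1 : K₀) * star (-1) = 1 := by
    show (-1 : K₀) * (-1) = 1
    ring
  show ε (cS (sim_gk g h1 h2) (oS (uMap m f (ftriv f) (eU (-1) (sm u))))) = _
  unfold eX
  rw [H687.sm_map, cS_oS g h1 h2]
  congr 2
  have h := eU_conjM (ftriv f) g (isPr_sm hu) hz
  rw [map_neg, map_one] at h
  exact h.symm

lemma De_gen (ε : Sy K m →* G) (f : K₀ →+* K) (g : GU K m) {k k' : Matrix (Fin 2) (Fin 2) K}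
    (h1 : k * k' = 1) (h2 : k' * k = 1) {w : List (Ln K₀ m)} (hw : Orth w) :
    De (fun u => i0 ε f g h1 h2 (eU (-1) (sm u))) w = De (eX ε) (w.map (lam f (ftriv f) g)) := by
  unfold De
  congr 1
  ext y
  constructor
  · rintro ⟨u, v, rfl, rfl⟩
    refine ⟨u.map (lam f (ftriv f) g), v.map (lam f (ftriv f) g), by rw [List.map_append], ?_⟩
    exact i0_eU ε f g h1 h2 (List.pairwise_append.1 hw).1
  · rintro ⟨u, v, huv, rfl⟩
    obtain ⟨u₀, v₀, rfl, rfl, rfl⟩ := List.map_eq_append_iff.1 huv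
    exact ⟨u₀, v₀, rfl, (i0_eU ε f g h1 h2 (List.pairwise_append.1 hw).1).symm⟩

lemma map_mem_Fr [Fintype K] [Fintype K₀] (f : K₀ →+* K) (g : GU K m) {w : List (Ln K₀ m)}
    (hw : w ∈ Fr K₀ m) : w.map (lam f (ftriv f) g) ∈ Fr K m := by
  rw [mem_Fr] at hw ⊢
  exact ⟨by rw [List.length_map, hw.1], H687.orth_map f (ftriv f) g hw.2⟩

end gen

lemma QP.conj {a b a' b' : S2 K} (h : QP a b) {k k' : Matrix (Fin 2) (Fin 2) K}
    (h1 : k * k' = 1) (h2 : k' * k = 1) (ha : a'.1 = k * a.1 * k') (hb : b'.1 = k * b.1 * k') :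
    QP a' b' := by
  have key : ∀ x y : Matrix (Fin 2) (Fin 2) K, (k * x * k') * (k * y * k') = k * (x * y) * k' := by
    intro x y
    calc (k * x * k') * (k * y * k') = k * x * (k' * k) * y * k' := by
          simp only [Matrix.mul_assoc]
      _ = _ := by rw [h2, Matrix.mul_one]; simp only [Matrix.mul_assoc]
  refine ⟨?_, ?_, ?_⟩
  · rw [ha, key, h.sqa, Matrix.mul_neg, Matrix.neg_mul, Matrix.mul_one, h1]
  · rw [hb, key, h.sqb, Matrix.mul_neg, Matrix.neg_mul, Matrix.mul_one, h1]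
  · rw [ha, hb, key, key, h.anti, Matrix.mul_neg, Matrix.neg_mul]

lemma exists_conj (a : S2 K) {k k' : Matrix (Fin 2) (Fin 2) K} (h1 : k * k' = 1) :
    ∃ a' : S2 K, a'.1 = k * a.1 * k' := by
  refine ⟨⟨k * a.1 * k', ?_⟩, rfl⟩
  have h3 := congrArg Matrix.det h1
  rw [Matrix.det_mul, Matrix.det_one] at h3
  rw [Matrix.det_mul, Matrix.det_mul, a.2, mul_one, h3]

/-- the family does not grow under changes of coordinates -/
lemma fam_conj [Fintype K] (ε : Sy K m →* G) (g : GU K m) {k k' : Matrix (Fin 2) (Fin 2) K}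
    (h1 : k * k' = 1) (h2 : k' * k = 1) {K₀ : Type w} [Field K₀] [Fintype K₀] (f : K₀ →+* K)
    {w : List (Ln K₀ m)} (hw : w ∈ Fr K₀ m) {a b : S2 K} (hab : QP a b) :
    De (fun u => i0 ε f g h1 h2 (eU (-1) (sm u))) w ⊔
      QG ((ε.comp (cS (sim_gk g h1 h2))).comp hS) a b ∈ FamS ε := by
  obtain ⟨a', ha⟩ := exists_conj a h1
  obtain ⟨b', hb⟩ := exists_conj b h1
  refine ⟨_, map_mem_Fr f g hw, a', b', hab.conj h1 h2 ha hb, ?_⟩
  rw [De_gen ε f g h1 h2 ((mem_Fr K₀).1 hw).2]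
  congr 1
  unfold QG
  congr 1
  show {ε (cS (sim_gk g h1 h2) (hS a)), ε (cS (sim_gk g h1 h2) (hS b))} = _
  rw [cS_hS g h1 h2 a a' ha, cS_hS g h1 h2 b b' hb]
  rfl

/-- the standard frame -/
def w0 (K : Type u) [Field K] (m : ℕ) : List (Ln K m) := fr (1 : GU K m)

lemma w0_mem [Fintype K] : w0 K m ∈ Fr K m := (mem_Fr K).2 ⟨List.length_ofFn, fr_orth _⟩

lemma map_w0 (g : GU K m) : (w0 K m).map (lam (RingHom.id K) (ftriv _) g) = fr g := by
  unfold w0 fr
  refine List.map_ofFn.trans (congrArg List.ofFn (funext fun i => ?_))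
  apply Subtype.ext
  show conjM (RingHom.id K) g (vecMulVec (fun k => (1 : GU K m).1 k i)
    (star fun k => (1 : GU K m).1 k i)) = vecMulVec (fun k => g.1 k i) (star fun k => g.1 k i)
  unfold conjM
  have h1 : (vecMulVec (fun k => (1 : GU K m).1 k i) (star fun k => (1 : GU K m).1 k i)).map
      (RingHom.id K) = vecMulVec (fun k => (1 : GU K m).1 k i) (star fun k => (1 : GU K m).1 k i) := by
    ext a b
    simp
  rw [h1, mul_vecMulVec, vecMulVec_mul]
  have h2 : g.1 *ᵥ (fun k => (1 : GU K m).1 k i) = fun k => g.1 k i := by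
    funext k
    show ∑ l, g.1 k l * (1 : Matrix (Fin m) (Fin m) K) l i = _
    simp [Matrix.one_apply]
  rw [h2]
  congr 1
  rw [star_eq_conjTranspose, ← star_mulVec, h2]

/-- every member of the family is standard in suitable coordinates -/
theorem fam_std [Fintype K] (ε : Sy K m →* G) {A : Subgroup G} (hA : A ∈ FamS ε) (a b : S2 K)
    (hSQ : ∀ a' b' : S2 K, QP a' b' → ∃ k k' : Matrix (Fin 2) (Fin 2) K, k * k' = 1 ∧ k' * k = 1 ∧
      k * a.1 = a'.1 * k ∧ k * b.1 = b'.1 * k) :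
    ∃ (g : GU K m) (k k' : Matrix (Fin 2) (Fin 2) K) (h1 : k * k' = 1) (h2 : k' * k = 1),
      A = De (eX (ε.comp (cS (sim_gk g h1 h2)))) (w0 K m) ⊔
        QG ((ε.comp (cS (sim_gk g h1 h2))).comp hS) a b := by
  obtain ⟨w, hw, a', b', hab, rfl⟩ := hA
  obtain ⟨hl, ho⟩ := (mem_Fr K).1 hw
  obtain ⟨g, rfl⟩ := exists_fr hl ho
  obtain ⟨k, k', h1, h2, ha, hb⟩ := hSQ a' b' hab
  refine ⟨g, k, k', h1, h2, ?_⟩
  have ha' : a'.1 = k * a.1 * k' := by rw [ha, Matrix.mul_assoc, h1, Matrix.mul_one]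
  have hb' : b'.1 = k * b.1 * k' := by rw [hb, Matrix.mul_assoc, h1, Matrix.mul_one]
  have e1 := De_gen ε (RingHom.id K) g h1 h2 (w := w0 K m) (fr_orth _)
  rw [map_w0] at e1
  rw [← e1]
  congr 1
  · unfold QG
    congr 1
    show _ = {ε (cS (sim_gk g h1 h2) (hS a)), ε (cS (sim_gk g h1 h2) (hS b))}
    rw [cS_hS g h1 h2 a a' ha', cS_hS g h1 h2 b b' hb']
    rfl

end

end Vale.Agent.P240.R2.H715
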