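import Vale.Agent.P240.R2.H715.SpB
import Vale.Agent.P240.R2.H487.CE
import Vale.Agent.P240.R2.H687.Gal

/-!
P240, symplectic groups: the standard `D × Q` and the elements that commute with it.
-/

set_option autoImplicit false

namespace Vale.Agent.P240.R2.H715

open Matrix Subgroup Vale.Agent.P240.R2.AS Vale.Agent.P240.K
open Vale.Agent.P240.R2.H687 (uMap uMap_coe conjM lam lam_coe lam_injective IsPr eU_val eU_conjM
  isPr_Ln isPr_sm)
open scoped Classical

universe u v w

attribute [local instance] ts

noncomputable section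

section fix

variable {K : Type u} [Field K]

/-- the fixed field of `σ` -/
abbrev FF (σ : K ≃+* K) : Type u :=
  ↥(FixedPoints.subfield (Subgroup.zpowers (σ : RingAut K)) K)

lemma mem_FF {σ : K ≃+* K} {x : K} :
    x ∈ FixedPoints.subfield (Subgroup.zpowers (σ : RingAut K)) K ↔ σ x = x := by
  constructor
  · intro h
    exact h ⟨σ, Subgroup.mem_zpowers _⟩
  · rintro h ⟨g, hg⟩
    have h2 : (σ : RingAut K) ∈ MulAction.stabilizer (RingAut K) x := h
    exact (Subgroup.zpowers_le.2 h2) hg

theorem fix_two [Finite K] (σ : K ≃+* K) (h1 : σ ≠ RingEquiv.refl K) (h2 : ∀ x, σ (σ x) = x) :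
    Nat.card K = Nat.card (FF σ) ^ 2 ∧ ∀ y, σ y = y ^ Nat.card (FF σ) := by
  set τ : RingAut K := σ with hτ
  have hτ1 : τ ≠ 1 := h1
  have hτ2 : τ ^ 2 = 1 := by
    apply RingEquiv.ext
    intro x
    rw [pow_two]
    exact h2 x
  have ho : orderOf τ = 2 := orderOf_eq_prime hτ2 hτ1
  have hfo : IsOfFinOrder τ := orderOf_pos_iff.1 (by rw [ho]; norm_num)
  have hfin : Finite (Subgroup.zpowers τ) := finite_zpowers.2 hfo
  let _ : Fintype (Subgroup.zpowers τ) := Fintype.ofFinite _
  let _ : Fintype K := Fintype.ofFinite _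
  have : FaithfulSMul (Subgroup.zpowers τ) K := ⟨fun {a b} h => Subtype.ext (RingEquiv.ext h)⟩
  set F := FixedPoints.subfield (Subgroup.zpowers τ) K with hF
  have h3 : Module.finrank F K = 2 := by
    rw [FixedPoints.finrank_eq_card, ← Nat.card_eq_fintype_card, Nat.card_zpowers, ho]
  have hc : Nat.card K = Nat.card F ^ 2 := by
    rw [Module.natCard_eq_pow_finrank (K := F), h3]
  refine ⟨hc, ?_⟩
  obtain ⟨g, hg⟩ := (FixedPoints.toAlgHom_bijective (Subgroup.zpowers τ) K).2
      (FiniteField.frobeniusAlgHom F K)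
  have hgx : ∀ x : K, g.1 x = x ^ Nat.card F := by
    intro x
    have h4 : FiniteField.frobeniusAlgHom F K x = x ^ Nat.card F := by
      rw [FiniteField.coe_frobeniusAlgHom, ← Nat.card_eq_fintype_card]
    rw [← h4, ← DFunLike.congr_fun hg x]
    rfl
  obtain ⟨k, hk⟩ := hfo.mem_powers_iff_mem_zpowers.2 g.2
  rcases Nat.even_or_odd' k with ⟨j, hj | hj⟩
  · exfalso
    have h5 : g.1 = 1 := by
      rw [← hk]
      show τ ^ k = 1
      rw [hj, pow_mul, hτ2, one_pow]
    have h6 : ∀ x : K, x ^ Nat.card F = x := by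
      intro x
      rw [← hgx, h5]
      rfl
    have h7 : 1 < Nat.card F := Finite.one_lt_card
    have h8 := FiniteField.X_pow_card_sub_X_ne_zero K h7
    have h9 : Nat.card K ≤ Nat.card F := by
      rw [Nat.card_eq_fintype_card]
      calc Fintype.card K = (Finset.univ : Finset K).card := rfl
        _ ≤ (Polynomial.roots (Polynomial.X ^ Nat.card F - Polynomial.X : Polynomial K)).toFinset.card := by
          refine Finset.card_le_card fun x _ => ?_
          rw [Multiset.mem_toFinset, Polynomial.mem_roots h8]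
          rw [Polynomial.IsRoot.def, Polynomial.eval_sub, Polynomial.eval_pow, Polynomial.eval_X,
            h6, sub_self]
        _ ≤ _ := (Multiset.toFinset_card_le _).trans ((Polynomial.card_roots' _).trans
          (FiniteField.X_pow_card_sub_X_natDegree_eq K h7).le)
    rw [hc] at h9
    nlinarith
  · intro y
    rw [← hgx, ← hk]
    show τ y = (τ ^ k) y
    rw [hj, pow_succ, pow_mul, hτ2, one_pow, one_mul]

lemma invo_unique [Finite K] {σ τ : K ≃+* K} (h1 : σ ≠ RingEquiv.refl K) (h2 : ∀ x, σ (σ x) = x)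
    (h3 : τ ≠ RingEquiv.refl K) (h4 : ∀ x, τ (τ x) = x) : σ = τ := by
  obtain ⟨h5, h6⟩ := fix_two σ h1 h2
  obtain ⟨h7, h8⟩ := fix_two τ h3 h4
  have h9 : Nat.card (FF σ) = Nat.card (FF τ) :=
    Nat.pow_left_injective (n := 2) (by norm_num) (by show _ ^ 2 = _ ^ 2; rw [← h5, ← h7])
  ext x
  rw [h6, h8, h9]

end fix

section four

variable {G : Type v} [Group G]

lemma four {x y : G} (hx : x * x = 1) (hy : y * y = 1) (hxy : x * y = y * x) {z : G}
    (hz : z ∈ closure {x, y}) : z = 1 ∨ z = x ∨ z = y ∨ z = x * y := by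
  have hxi : x⁻¹ = x := inv_eq_of_mul_eq_one_left hx
  have hyi : y⁻¹ = y := inv_eq_of_mul_eq_one_left hy
  induction hz using closure_induction with
  | mem z hz =>
    rcases hz with rfl | rfl
    · exact Or.inr (Or.inl rfl)
    · exact Or.inr (Or.inr (Or.inl rfl))
  | one => exact Or.inl rfl
  | mul a b _ _ ha hb =>
    have e1 : x * (x * y) = y := by rw [← mul_assoc, hx, one_mul]
    have e2 : y * x = x * y := hxy.symm
    have e3 : y * (x * y) = x := by rw [← mul_assoc, e2, mul_assoc, hy, mul_one]
    have e4 : x * y * x = y := by rw [hxy, mul_assoc, hx, mul_one]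
    have e5 : x * y * y = x := by rw [mul_assoc, hy, mul_one]
    have e6 : x * y * (x * y) = 1 := by rw [← mul_assoc, e4, hy]
    rcases ha with rfl | rfl | rfl | rfl <;> rcases hb with rfl | rfl | rfl | rfl <;>
      simp [hx, hy, e1, e2, e3, e4, e5, e6]
  | inv a _ ha =>
    rcases ha with rfl | rfl | rfl | rfl
    · simp
    · simp [hxi]
    · simp [hyi]
    · right; right; right
      rw [_root_.mul_inv_rev, hxi, hyi, hxy]

end four

section diag

variable {K : Type u} [Field K] {m : ℕ}

/-- the group of diagonal sign matrices -/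
def Dg (K : Type u) [Field K] (m : ℕ) : Subgroup (GU K m) where
  carrier := {g | ∃ d : Fin m → K, (∀ i, d i = 1 ∨ d i = -1) ∧ g.1 = diagonal d}
  one_mem' := ⟨fun _ => 1, fun _ => Or.inl rfl, (diagonal_one).symm⟩
  mul_mem' := by
    rintro a b ⟨d, hd, ha⟩ ⟨e, he, hb⟩
    refine ⟨fun i => d i * e i, fun i => ?_, ?_⟩
    · rcases hd i with h | h <;> rcases he i with h' | h' <;> simp [h, h']
    · show a.1 * b.1 = _
      rw [ha, hb, diagonal_mul_diagonal]
  inv_mem' := by
    rintro a ⟨d, hd, ha⟩
    refine ⟨d, hd, ?_⟩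
    show star a.1 = _
    rw [ha, star_eq_conjTranspose, diagonal_conjTranspose]
    rfl

lemma Dg_comm {g h : GU K m} (hg : g ∈ Dg K m) (hh : h ∈ Dg K m) : g * h = h * g := by
  obtain ⟨d, hd, hg⟩ := hg
  obtain ⟨e, he, hh⟩ := hh
  apply Subtype.ext
  show g.1 * h.1 = h.1 * g.1
  rw [hg, hh, diagonal_mul_diagonal, diagonal_mul_diagonal]
  congr 1
  funext i
  exact mul_comm _ _

lemma Dg_sq {g : GU K m} (hg : g ∈ Dg K m) : g * g = 1 := by
  obtain ⟨d, hd, hg⟩ := hg
  apply Subtype.ext
  show g.1 * g.1 = 1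
  rw [hg, diagonal_mul_diagonal, ← diagonal_one]
  congr 1
  funext i
  rcases hd i with h | h <;> simp [h]

/-- the diagonal matrix with `-1` on `S` -/
def dS (S : Finset (Fin m)) : GU K m :=
  ⟨diagonal (fun k => if k ∈ S then -1 else 1), by
    rw [Matrix.mem_unitaryGroup_iff, star_eq_conjTranspose, diagonal_conjTranspose,
      diagonal_mul_diagonal, ← diagonal_one]
    congr 1
    funext i
    show (if i ∈ S then (-1 : K) else 1) * (if i ∈ S then (-1 : K) else 1) = 1
    split_ifs <;> simp⟩

lemma dS_mem (S : Finset (Fin m)) : (dS S : GU K m) ∈ Dg K m :=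
  ⟨fun k => if k ∈ S then -1 else 1, fun i => by
    by_cases h : i ∈ S <;> simp [h], rfl⟩

lemma dS_mul {S T : Finset (Fin m)} (h : Disjoint S T) :
    (dS S * dS T : GU K m) = dS (S ∪ T) := by
  apply Subtype.ext
  show diagonal _ * diagonal _ = diagonal _
  rw [diagonal_mul_diagonal]
  congr 1
  funext i
  by_cases h1 : i ∈ S
  · have h2 : i ∉ T := Finset.disjoint_left.1 h h1
    simp [h1, h2]
  · by_cases h2 : i ∈ T <;> simp [h1, h2]

lemma dS_empty : (dS ∅ : GU K m) = 1 := by
  apply Subtype.ext
  show diagonal _ = _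
  simp

lemma eq_dS {g : GU K m} (hg : g ∈ Dg K m) : ∃ S, g = dS S := by
  obtain ⟨d, hd, hg⟩ := hg
  refine ⟨Finset.univ.filter fun i => d i = -1, Subtype.ext ?_⟩
  rw [hg]
  show diagonal d = diagonal _
  congr 1
  funext i
  by_cases h : d i = -1
  · simp [h]
  · simp [h, (hd i).resolve_right h]

/-- the letters of the standard frame -/
def e0 (i : Fin m) : Ln K m := (fun g : GU K m => (⟨vecMulVec (fun k => g.1 k i) (star (fun k => g.1 k i)),
    (fun k => g.1 k i), by rw [dot_col]; simp, rfl⟩ : Ln K m)) 1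

lemma w0_eq : w0 K m = List.ofFn e0 := rfl

lemma e0_val (i : Fin m) : (e0 i : Ln K m).1 = diagonal (fun k => if k = i then 1 else 0) := by
  show vecMulVec (fun k => (1 : Matrix (Fin m) (Fin m) K) k i)
    (star (fun k => (1 : Matrix (Fin m) (Fin m) K) k i)) = _
  ext a b
  rw [vecMulVec_apply]
  show (1 : Matrix (Fin m) (Fin m) K) a i * (1 : Matrix (Fin m) (Fin m) K) b i = _
  rw [Matrix.one_apply, Matrix.one_apply, diagonal_apply]
  by_cases h1 : a = i <;> by_cases h2 : b = i
  · simp [h1, h2]
  · simp [h1, h2, Ne.symm h2]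
  · have : a ≠ b := by rw [h2]; exact h1
    simp [h1, h2]
  · simp [h1, h2]

lemma sm_take (j : ℕ) (hj : j ≤ m) :
    sm ((w0 K m).take j) = diagonal (fun k : Fin m => if (k : ℕ) < j then 1 else 0) := by
  induction j with
  | zero =>
    unfold sm
    simp
  | succ j ih =>
    have hl : j < (w0 K m).length := by
      rw [w0_eq, List.length_ofFn]
      omega
    rw [List.take_succ_eq_append_getElem hl]
    unfold sm at ih ⊢
    rw [List.map_append, List.sum_append, ih (by omega)]
    have h1 : (w0 K m)[j] = e0 ⟨j, by omega⟩ := by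
      simp only [w0_eq, List.getElem_ofFn]
    rw [h1, List.map_singleton, List.sum_singleton, e0_val, diagonal_add]
    congr 1
    funext k
    by_cases h2 : (k : ℕ) < j
    · have h3 : k ≠ ⟨j, by omega⟩ := by
        intro h
        have h' := congrArg Fin.val h
        simp only at h'
        omega
      simp [h2, h3, Nat.lt_succ_of_lt h2]
    · by_cases h3 : k = ⟨j, by omega⟩
      · have h' := congrArg Fin.val h3
        simp only at h'
        simp [h3]
      · have h4 : ¬ (k : ℕ) < j + 1 := by
          intro h5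
          exact h3 (Fin.ext (by show (k : ℕ) = j; omega))
        simp [h2, h3, h4]

lemma eU_take (j : ℕ) (hj : j ≤ m) :
    (eU (-1) (sm ((w0 K m).take j)) : GU K m) = dS (Finset.univ.filter fun k => (k : ℕ) < j) := by
  have hz : (-1 : K) * star (-1) = 1 := by
    show (-1 : K) * (-1) = 1
    ring
  have ho : Orth ((w0 K m).take j) := (fr_orth (1 : GU K m)).sublist (List.take_sublist _ _)
  apply Subtype.ext
  rw [eU_val (isPr_sm ho) hz, sm_take j hj]
  show _ = diagonal _
  rw [← diagonal_one, ← diagonal_smul, diagonal_add]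
  congr 1
  funext k
  by_cases h : (k : ℕ) < j
  · simp [h]
  · simp [h]

end diag

section De

variable {K : Type u} [Field K] {m : ℕ} {G : Type v} [Group G]

theorem De_std (ε : Sy K m →* G) : De (eX ε) (w0 K m) = (Dg K m).map (ε.comp oS) := by
  apply le_antisymm
  · unfold De
    rw [closure_le]
    rintro _ ⟨u, v, huv, rfl⟩
    have hl : (w0 K m).length = m := by rw [w0_eq, List.length_ofFn]
    have hu : u = (w0 K m).take u.length := by rw [huv, List.take_left]
    have hul : u.length ≤ m := by
      have := congrArg List.length huv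
      rw [hl, List.length_append] at this
      omega
    refine ⟨eU (-1) (sm u), ?_, rfl⟩
    rw [hu, eU_take _ hul]
    exact dS_mem _
  · rintro _ ⟨g, hg, rfl⟩
    obtain ⟨S, rfl⟩ := eq_dS hg
    have hpre : ∀ j ≤ m, (ε.comp oS) (dS (Finset.univ.filter fun k => (k : ℕ) < j)) ∈
        De (eX ε) (w0 K m) := by
      intro j hj
      refine subset_closure ⟨(w0 K m).take j, (w0 K m).drop j, (List.take_append_drop _ _).symm, ?_⟩
      rw [← eU_take j hj]
      rfl
    have hone : ∀ i : Fin m, (ε.comp oS) (dS {i}) ∈ De (eX ε) (w0 K m) := by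
      intro i
      have h1 : (dS (Finset.univ.filter fun k : Fin m => (k : ℕ) < i) * dS {i} : GU K m) =
          dS (Finset.univ.filter fun k : Fin m => (k : ℕ) < i + 1) := by
        rw [dS_mul]
        · congr 1
          ext k
          simp only [Finset.mem_union, Finset.mem_filter, Finset.mem_univ, true_and,
            Finset.mem_singleton, Fin.ext_iff]
          omega
        · rw [Finset.disjoint_singleton_right]
          simp
      have h2 := hpre (i + 1) i.2
      rw [← h1, map_mul] at h2
      exact ((De (eX ε) (w0 K m)).mul_mem_cancel_left (hpre i i.2.le)).1 h2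
    induction S using Finset.induction_on with
    | empty =>
      rw [dS_empty, map_one]
      exact one_mem _
    | insert i S hi ih =>
      rw [Finset.insert_eq, ← dS_mul (Finset.disjoint_singleton_left.2 hi), map_mul]
      exact mul_mem (hone i) (ih (dS_mem _))

end De

end

end Vale.Agent.P240.R2.H715
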