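import Vale.Agent.P240.R2.H715.SpC

/-!
P240, symplectic groups: the elements that commute with the standard `D × Q`.
-/

set_option autoImplicit false

namespace Vale.Agent.P240.R2.H715

open Matrix Subgroup Vale.Agent.P240.R2.AS Vale.Agent.P240.K
open Vale.Agent.P240.R2.H687 (uMap uMap_coe conjM lam lam_coe lam_injective IsPr eU_val eU_conjM
  isPr_Ln isPr_sm)
open scoped Classical

universe u v w

attribute [local instance] ts

noncomputable section

variable {K : Type u} [Field K] {m : ℕ} {G : Type v} [Group G]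

lemma sim_of_form {M : Matrix (Fin m ⊕ Fin m) (Fin m ⊕ Fin m) K} {μ : K} (hμ : μ ≠ 0)
    (hM : M * J (Fin m) K * Mᵀ = μ • J (Fin m) K) : ∃ M', Sim M M' μ := by
  have h1 : M * (J (Fin m) K * Mᵀ * ((-μ⁻¹) • J (Fin m) K)) = 1 := by
    calc M * (J (Fin m) K * Mᵀ * ((-μ⁻¹) • J (Fin m) K))
        = (-μ⁻¹) • ((M * J (Fin m) K * Mᵀ) * J (Fin m) K) := by
          simp only [Matrix.mul_smul, Matrix.mul_assoc]
      _ = 1 := by
          rw [hM, Matrix.smul_mul, J_squared, smul_smul, neg_mul, inv_mul_cancel₀ hμ]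
          simp
  exact ⟨_, h1, mul_eq_one_comm.1 h1, hμ, hM⟩

lemma eps_eq {L : Subgroup G} {ε : Sy K m →* G} (hL : PSpHom m L ε) {g h : Sy K m}
    (he : ε g = ε h) : ∃ c : K, g.1 = c • h.1 := by
  have h1 : ε (g * h⁻¹) = 1 := by rw [map_mul, map_inv, he, mul_inv_cancel]
  obtain ⟨c, hc⟩ := (hL.ker _).1 h1
  refine ⟨c, ?_⟩
  have h2 : (g * h⁻¹ * h).1 = c • h.1 := by
    show (g * h⁻¹).1 * h.1 = _
    rw [hc, Matrix.smul_mul, Matrix.one_mul]
  rwa [inv_mul_cancel_right] at h2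

lemma comm_scal {L : Subgroup G} {ε : Sy K m →* G} (hL : PSpHom m L ε) {x : G}
    {M : Matrix (Fin m ⊕ Fin m) (Fin m ⊕ Fin m) K} {μ : K} {σ : K ≃+* K} (hμ : μ ≠ 0)
    (hM : M * J (Fin m) K * Mᵀ = μ • J (Fin m) K) (hx : Acts ε x M σ) (r : Sy K m)
    (hr : r.1.map σ = r.1) (hc : x * ε r = ε r * x) : ∃ c : K, M * r.1 = c • (r.1 * M) := by
  obtain ⟨M', H⟩ := sim_of_form hμ hM
  have h1 : (cS H r).1 * M = M * r.1 := by
    rw [cS_val, Matrix.mul_assoc, H.mul', Matrix.mul_one]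
  have h2 : x * ε r * x⁻¹ = ε (cS H r) := hx r (cS H r) (by rw [hr, h1])
  rw [hc, mul_inv_cancel_right] at h2
  obtain ⟨c, hc'⟩ := eps_eq hL h2.symm
  refine ⟨c, ?_⟩
  rw [← h1, hc', Matrix.smul_mul]

/-- `x` acts entrywise as `σ` -/
def Act (ε : Sy K m →* G) (x : G) (σ : K ≃+* K) : Prop :=
  ∀ h : Sy K m, x * ε h * x⁻¹ = ε (mS σ h)

/-- the standard elementary abelian group -/
def A0 (ε : Sy K m →* G) (a b : S2 K) : Subgroup G := De (eX ε) (w0 K m) ⊔ QG (ε.comp hS) a b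

lemma mem_A0_D {ε : Sy K m →* G} {a b : S2 K} {g : GU K m} (hg : g ∈ Dg K m) :
    ε (oS g) ∈ A0 ε a b := by
  refine mem_sup_left ?_
  rw [De_std]
  exact ⟨g, hg, rfl⟩

lemma mem_A0_a {ε : Sy K m →* G} {a b : S2 K} : ε (hS a) ∈ A0 ε a b :=
  mem_sup_right (subset_closure (Or.inl rfl))

lemma mem_A0_b {ε : Sy K m →* G} {a b : S2 K} : ε (hS b) ∈ A0 ε a b :=
  mem_sup_right (subset_closure (Or.inr rfl))

/-- the statement of `StmtS4` and `StmtSQ` for a given pair -/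
structure StdPair (a b : S2 K) : Prop where
  qp : QP a b
  fix : ∀ σ : K ≃+* K, a.1.map σ = a.1 ∧ b.1.map σ = b.1
  conj : ∀ a' b' : S2 K, QP a' b' → ∃ k k' : Matrix (Fin 2) (Fin 2) K, k * k' = 1 ∧ k' * k = 1 ∧
      k * a.1 = a'.1 * k ∧ k * b.1 = b'.1 * k
  scal : ∀ (T : Matrix (Fin 2) (Fin 2) K) (c d : K), c ^ 2 = 1 → d ^ 2 = 1 →
    T * a.1 = c • (a.1 * T) → T * b.1 = d • (b.1 * T) →
      ∃ t : K, T = t • (1 : Matrix (Fin 2) (Fin 2) K) ∨ T = t • a.1 ∨
        T = t • b.1 ∨ T = t • (a.1 * b.1)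

/-- **The elements that commute with the standard group.** -/
theorem key [Fintype K] (h2 : (2 : K) ≠ 0) (hS4 : StmtS4.{u}) {L : Subgroup G} {ε : Sy K m →* G}
    (hm : 3 ≤ m) (hL : PSpHom m L ε) {a b : S2 K} (hab : StdPair a b) {x : G}
    (hx : x ∈ Subgroup.normalizer (L : Set G)) (hx2 : x ^ 2 ∈ Subgroup.centralizer (L : Set G))
    (hc : ∀ y ∈ A0 ε a b, x * y = y * x) :
    ∃ (σ : K ≃+* K) (s : Sy K m), ε s ∈ A0 ε a b ∧ Act ε ((ε s)⁻¹ * x) σ := by
  obtain ⟨M, μ, σ, hμ, hMJ, hact⟩ := hL.sem x hx hx2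
  have hR : ∀ i : Fin m, ∃ c : K, M * oM (Rf i) = c • (oM (Rf i) * M) := by
    intro i
    have h1 : (oS (dS {i} : GU K m) : Sy K m).1 = oM (Rf i) := by
      show oM (diagonal _) = oM (diagonal _)
      congr 2
      funext k
      simp
    have h3 := comm_scal hL hμ hMJ hact (oS (dS {i})) (by
      rw [h1]
      have h4 : (diagonal (fun k => if k = i then (-1 : K) else 1)).map σ =
          diagonal (fun k => if k = i then (-1 : K) else 1) := by
        rw [diagonal_map (map_zero σ)]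
        congr 1
        funext k
        show σ (if k = i then (-1 : K) else 1) = _
        split_ifs <;> simp
      have h5 : (0 : Matrix (Fin m) (Fin m) K).map σ = 0 := Matrix.map_zero _ (map_zero σ)
      unfold oM Rf
      rw [fromBlocks_map, h4, h5]) (hc _ (mem_A0_D (dS_mem _)))
    rwa [h1] at h3
  have hhS : ∀ y : S2 K, y.1.map σ = y.1 → (hS y : Sy K m).1.map σ = (hS y : Sy K m).1 := by
    intro y hy
    show (hM m y.1).map σ = hM m y.1
    conv_rhs => rw [← hy]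
    unfold hM
    rw [fromBlocks_map]
    congr 1 <;>
    · ext i j
      by_cases hij : i = j
      · subst hij; simp
      · simp [Matrix.one_apply_ne hij]
  have ha := comm_scal hL hμ hMJ hact (hS a) (hhS a (hab.fix σ).1) (hc _ mem_A0_a)
  have hb := comm_scal hL hμ hMJ hact (hS b) (hhS b (hab.fix σ).2) (hc _ mem_A0_b)
  obtain ⟨t, d, q, ht, hd, hq, hMe⟩ := hS4 K h2 m hm a b hab.qp hab.scal M μ hμ hMJ hR ha hb
  have hg : ∃ g : GU K m, g ∈ Dg K m ∧ g.1 = diagonal d := by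
    refine ⟨⟨diagonal d, ?_⟩, ⟨d, hd, rfl⟩, rfl⟩
    rw [Matrix.mem_unitaryGroup_iff, star_eq_conjTranspose, diagonal_conjTranspose,
      diagonal_mul_diagonal, ← diagonal_one]
    congr 1
    funext i
    show d i * d i = 1
    rcases hd i with h | h <;> simp [h]
  obtain ⟨g, hgD, hgd⟩ := hg
  have hq' : ∃ q' : S2 K, q'.1 = q ∧ ε (hS q' : Sy K m) ∈ A0 ε a b := by
    rcases hq with rfl | rfl | rfl | rfl
    · exact ⟨1, rfl, by rw [map_one, map_one]; exact one_mem _⟩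
    · exact ⟨a, rfl, mem_A0_a⟩
    · exact ⟨b, rfl, mem_A0_b⟩
    · exact ⟨a * b, rfl, by rw [map_mul, map_mul]; exact mul_mem mem_A0_a mem_A0_b⟩
  obtain ⟨q', hq'q, hq'A⟩ := hq'
  refine ⟨σ, oS g * hS q', ?_, ?_⟩
  · rw [map_mul]
    exact mul_mem (mem_A0_D hgD) hq'A
  · intro h
    set s : Sy K m := oS g * hS q' with hs
    have hMs : M = t • s.1 := by
      rw [hMe]
      congr 1
      show oM (diagonal d) * hM m q = oM g.1 * hM m q'.1
      rw [hgd, hq'q]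
    have h5 : x * ε h * x⁻¹ = ε (s * mS σ h * s⁻¹) := by
      apply hact
      rw [hMs]
      have h6 : (s * mS σ h * s⁻¹).1 * s.1 = s.1 * h.1.map σ := by
        show ((s * mS σ h * s⁻¹) * s).1 = _
        rw [inv_mul_cancel_right]
        rfl
      rw [Matrix.mul_smul, h6, Matrix.smul_mul]
    have h7 : ((ε s)⁻¹ * x) * ε h * ((ε s)⁻¹ * x)⁻¹ = (ε s)⁻¹ * (x * ε h * x⁻¹) * ε s := by
      group
    have h8 : ε (s * mS σ h * s⁻¹) = ε s * ε (mS σ h) * (ε s)⁻¹ := by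
      rw [map_mul ε (s * mS σ h), map_mul ε s, map_inv]
    rw [h7, h5, h8]
    group

section act

variable {L : Subgroup G} {ε : Sy K m →* G}

lemma mS_refl (h : Sy K m) : mS (RingEquiv.refl K) h = h := by
  apply Subtype.ext
  show h.1.map _ = h.1
  ext i j
  rfl

/-- the consequence of `StmtS1` -/
lemma s1_eps [Fintype K] (hS1 : StmtS1.{u}) (hm : 1 ≤ m) (hL : PSpHom m L ε) {z : G} (hz : z ∈ L)
    {σ : K ≃+* K} (h : ∀ h : Sy K m, z * ε (mS σ h) * z⁻¹ = ε h) :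
    σ = RingEquiv.refl K ∧ z = 1 := by
  rw [← hL.range] at hz
  obtain ⟨s, rfl⟩ := hz
  have h1 : ∀ y : Sy K m, ∃ c : K, s.1 * y.1.map σ = c • (y.1 * s.1) := by
    intro y
    have h2 : ε (s * mS σ y) = ε (y * s) := by
      rw [map_mul, map_mul, ← h y, inv_mul_cancel_right]
    obtain ⟨c, hc⟩ := eps_eq hL h2
    exact ⟨c, hc⟩
  obtain ⟨h3, c, h4⟩ := hS1 K m hm s σ h1
  exact ⟨h3, (hL.ker s).2 ⟨c, h4⟩⟩

lemma act_one_mem (hL : PSpHom m L ε) {x : G} :
    Act ε x (RingEquiv.refl K) ↔ x ∈ centralizer (L : Set G) := by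
  rw [mem_centralizer_iff]
  constructor
  · intro h y hy
    have hy' : y ∈ ε.range := by rw [hL.range]; exact hy
    obtain ⟨s, rfl⟩ := hy'
    have h1 := h s
    rw [mS_refl] at h1
    calc ε s * x = (x * ε s * x⁻¹) * x := by rw [h1]
      _ = x * ε s := by group
  · intro h s
    rw [mS_refl]
    have h1 := h (ε s) (by rw [← hL.range]; exact ⟨s, rfl⟩)
    rw [← h1]
    group

lemma Act.conj {x : G} {σ : K ≃+* K} (h : Act ε x σ) (y : Sy K m) :
    x * ε y * x⁻¹ = ε (mS σ y) := h y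

lemma Act.mul {x y : G} {σ τ : K ≃+* K} (hx : Act ε x σ) (hy : Act ε y τ) :
    Act ε (x * y) (τ.trans σ) := by
  intro h
  have h1 : x * y * ε h * (x * y)⁻¹ = x * (y * ε h * y⁻¹) * x⁻¹ := by group
  rw [h1, hy h, hx]
  rfl

/-- no element of `x⁻¹ L` or of `L x` centralizes `L` if `σ ≠ 1` -/
lemma act_inner [Fintype K] (hS1 : StmtS1.{u}) (hm : 1 ≤ m) (hL : PSpHom m L ε) {x z : G}
    {σ : K ≃+* K} (hx : Act ε x σ) (hz : z ∈ L) (hc : z * x ∈ centralizer (L : Set G)) :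
    σ = RingEquiv.refl K ∧ z = 1 := by
  apply s1_eps hS1 hm hL hz
  intro h
  rw [← hx h]
  have h1 := (act_one_mem hL).2 hc h
  rw [mS_refl] at h1
  calc z * (x * ε h * x⁻¹) * z⁻¹ = z * x * ε h * (z * x)⁻¹ := by group
    _ = ε h := h1

lemma L_inf_C [Fintype K] (hS1 : StmtS1.{u}) (hm : 1 ≤ m) (hL : PSpHom m L ε) :
    L ⊓ centralizer (L : Set G) = ⊥ := by
  rw [eq_bot_iff]
  rintro z ⟨h1, h2⟩
  have h3 : Act ε (1 : G) (RingEquiv.refl K) := (act_one_mem hL).2 (one_mem _)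
  rw [mem_bot]
  exact (act_inner hS1 hm hL h3 h1 (by rw [mul_one]; exact h2)).2

lemma act_sq [Fintype K] (hS1 : StmtS1.{u}) (hm : 1 ≤ m) (hL : PSpHom m L ε) {x : G}
    {σ : K ≃+* K} (hx : Act ε x σ) (hc : x * x ∈ centralizer (L : Set G)) (y : K) :
    σ (σ y) = y := by
  have h1 := (act_inner hS1 hm hL (hx.mul hx) (one_mem L) (by rw [one_mul]; exact hc)).1
  exact DFunLike.congr_fun h1 y

lemma act_diff (hL : PSpHom m L ε) {x y : G} {σ : K ≃+* K} (hx : Act ε x σ) (hy : Act ε y σ) :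
    y⁻¹ * x ∈ centralizer (L : Set G) := by
  rw [← act_one_mem hL]
  intro h
  rw [mS_refl]
  have h1 : y⁻¹ * x * ε h * (y⁻¹ * x)⁻¹ = y⁻¹ * (x * ε h * x⁻¹) * y := by group
  rw [h1, hx h, ← hy h]
  group

lemma act_norm (hL : PSpHom m L ε) {x : G} {σ : K ≃+* K} (hx : Act ε x σ) :
    x ∈ normalizer (L : Set G) := by
  rw [mem_normalizer_iff]
  intro y
  constructor
  · intro hy
    have hy' : y ∈ ε.range := by rw [hL.range]; exact hy
    obtain ⟨s, rfl⟩ := hy'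
    rw [hx s]
    show _ ∈ L
    rw [← hL.range]
    exact ⟨_, rfl⟩
  · intro hy
    have hy' : x * y * x⁻¹ ∈ ε.range := by rw [hL.range]; exact hy
    obtain ⟨s, hs⟩ := hy'
    have h1 : y = ε (mS σ.symm s) := by
      have h2 := hx (mS σ.symm s)
      have h3 : mS σ (mS σ.symm s) = s := by
        apply Subtype.ext
        show (s.1.map σ.symm).map σ = s.1
        ext i j
        simp
      rw [h3, hs] at h2
      have h4 : x * ε (mS σ.symm s) = x * y := mul_right_cancel h2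
      exact (mul_left_cancel h4).symm
    rw [h1]
    show _ ∈ L
    rw [← hL.range]
    exact ⟨_, rfl⟩

end act

end

end Vale.Agent.P240.R2.H715
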