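import Vale.Agent.P240.R2.H715.SpE

/-!
P240, symplectic groups: the assembly.
-/

set_option autoImplicit false

namespace Vale.Agent.P240.R2.H715

open Matrix Subgroup Vale.Agent.P240.R2.AS Vale.Agent.P240.K
open Vale.Agent.P240.R2.H487 (LocTopF topCycle_join topCycle_le)
open Vale.Agent.P240.R2.H687 (uMap uMap_coe conjM lam lam_coe lam_injective IsPr eU_val eU_conjM
  isPr_Ln isPr_sm)
open scoped Classical

universe u v w

attribute [local instance] ts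

noncomputable section

section

variable {K : Type u} [Field K] {m : ℕ} {G : Type v} [Group G] {L : Subgroup G}
  {ε : Sy K m →* G}

lemma De_w0_le (hL : PSpHom m L ε) : De (eX ε) (w0 K m) ≤ L := by
  rw [De_std, ← hL.range]
  rintro _ ⟨g, -, rfl⟩
  exact ⟨_, rfl⟩

lemma A0_le (hL : PSpHom m L ε) {a b : S2 K} : A0 ε a b ≤ L :=
  sup_le (De_w0_le hL) (QG_le.trans (jS_le hL))

lemma A0_cc {a b : S2 K} {x y : G} (hx : x ∈ De (eX ε) (w0 K m))
    (hy : y ∈ QG (ε.comp hS) a b) : x * y = y * x := by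
  rw [De_std] at hx
  obtain ⟨g, -, rfl⟩ := hx
  obtain ⟨h, rfl⟩ := QG_le hy
  show ε (oS _) * ε (hS h) = ε (hS h) * ε (oS _)
  rw [← map_mul, oS_hS_comm, map_mul]

lemma A0_ApS (h2 : (2 : K) ≠ 0) (hm : 1 ≤ m) (hL : PSpHom m L ε) {a b : S2 K} (hab : QP a b) :
    A0 ε a b ∈ ApS 2 G := by
  have hQ := QG_ApS h2 (ker_hS hL hm) hab
  unfold A0
  by_cases hD : De (eX ε) (w0 K m) = ⊥
  · rw [hD, bot_sup_eq]
    exact hQ
  · refine sup_mem_ApS ⟨hD, ?_, ?_⟩ hQ fun x hx y hy => A0_cc hx hy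
    · intro x hx y hy
      rw [De_std] at hx hy
      obtain ⟨g, hg, rfl⟩ := hx
      obtain ⟨h, hh, rfl⟩ := hy
      rw [← map_mul, Dg_comm hg hh, map_mul]
    · intro x hx
      rw [De_std] at hx
      obtain ⟨g, hg, rfl⟩ := hx
      rw [← map_pow, pow_two, Dg_sq hg, map_one]

lemma iO_id : iO ε (RingHom.id K) = ε.comp oS := by
  refine MonoidHom.ext fun g => ?_
  show ε (oS (uMap m (RingHom.id K) (ftriv _) g)) = ε (oS g)
  congr 2

lemma A0_card [Finite G] [Fintype K] (h2 : (2 : K) ≠ 0) (h7 : 7 ≤ Nat.card K) (hm : 2 ≤ m)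
    (hTX : StmtTX.{u, v, w}) (hL : PSpHom m L ε) {a b : S2 K} (hab : QP a b) :
    Nat.card (A0 ε a b) ≤ 2 ^ (m - 1) * 4 := by
  have h1 := (hTX K h2 h7 m hm G (ε.comp oS) (fun g => by
    rw [← iO_id]
    exact ker_iO (RingHom.id K) hL (by omega) g)).1 (w0 K m) w0_mem
  have h3 := QG_card h2 (ker_hS hL (by omega)) hab
  have h4 : Nat.card (De (eX ε) (w0 K m)) = 2 ^ (m - 1) := h1
  rw [← h4, ← h3]
  exact card_sup_le fun x hx y hy => A0_cc hx hy

lemma mem_zp {x y : G} (hx : x * x = 1) (hy : y ∈ zpowers x) : y = 1 ∨ y = x := by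
  obtain ⟨k, rfl⟩ := mem_zpowers_iff.1 hy
  rcases Int.even_or_odd' k with ⟨j, hj | hj⟩
  · left
    rw [hj, _root_.zpow_mul, zpow_two, hx, _root_.one_zpow]
  · right
    rw [hj, _root_.zpow_add, _root_.zpow_mul, zpow_two, hx, _root_.one_zpow, one_mul, _root_.zpow_one]

/-- the elements of `C(L)⟨x⟩` -/
lemma act_or (hL : PSpHom m L ε) {x : G} {σ : K ≃+* K} (hx : Act ε x σ) (hσ : ∀ y, σ (σ y) = y)
    {z : G} (hz : z ∈ centralizer (L : Set G) ⊔ zpowers x) :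
    Act ε z (RingEquiv.refl K) ∨ Act ε z σ := by
  have hss : σ.trans σ = RingEquiv.refl K := RingEquiv.ext hσ
  let W : Subgroup G :=
    { carrier := {z | Act ε z (RingEquiv.refl K) ∨ Act ε z σ}
      one_mem' := Or.inl ((act_one_mem hL).2 (one_mem _))
      mul_mem' := by
        rintro a b (ha | ha) (hb | hb)
        · exact Or.inl (ha.mul hb)
        · exact Or.inr (ha.mul hb)
        · exact Or.inr (ha.mul hb)
        · left
          have := ha.mul hb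
          rwa [hss] at this
      inv_mem' := by
        rintro a (ha | ha)
        · exact Or.inl ((act_one_mem hL).2 (inv_mem ((act_one_mem hL).1 ha)))
        · right
          intro h
          have h1 := ha (mS σ h)
          have h3 : mS σ (mS σ h) = h := by
            apply Subtype.ext
            show (h.1.map σ).map σ = h.1
            ext i j
            simp [hσ]
          rw [h3] at h1
          rw [← h1]
          group }
  have h1 : centralizer (L : Set G) ⊔ zpowers x ≤ W := by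
    refine sup_le (fun y hy => Or.inl ((act_one_mem hL).2 hy)) ?_
    rw [zpowers_le]
    exact Or.inr hx
  exact h1 hz

lemma eq_one_of_act [Fintype K] (hS1 : StmtS1.{u}) (hm : 1 ≤ m) (hL : PSpHom m L ε) {x : G}
    {σ : K ≃+* K} (hx : Act ε x σ) (hσ : ∀ y, σ (σ y) = y) (hσ1 : σ ≠ RingEquiv.refl K)
    {z : G} (hz : z ∈ centralizer (L : Set G) ⊔ zpowers x) (hzL : z ∈ L) : z = 1 := by
  rcases act_or hL hx hσ hz with h | h
  · have h1 : z ∈ L ⊓ centralizer (L : Set G) := ⟨hzL, (act_one_mem hL).1 h⟩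
    rw [L_inf_C hS1 hm hL, mem_bot] at h1
    exact h1
  · exact absurd (act_inner hS1 hm hL h (inv_mem hzL) (by
      rw [inv_mul_cancel]; exact one_mem _)).1 hσ1

lemma mem_L_sup (hL : PSpHom m L ε) {x : G} {σ : K ≃+* K} (hx : Act ε x σ) (hx2 : x * x = 1)
    {z : G} (hz : z ∈ L ⊔ zpowers x) : z ∈ L ∨ ∃ l ∈ L, z = l * x := by
  have h1 : zpowers x ≤ normalizer (L : Set G) := by
    rw [zpowers_le]
    exact act_norm hL hx
  have h3 : z ∈ ((L ⊔ zpowers x : Subgroup G) : Set G) := hz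
  rw [coe_mul_of_right_le_normalizer_left L (zpowers x) h1] at h3
  obtain ⟨l, hl, t, ht, rfl⟩ := h3
  rcases mem_zp hx2 ht with rfl | rfl
  · left
    show l * 1 ∈ L
    rw [mul_one]
    exact hl
  · exact Or.inr ⟨l, hl, rfl⟩

end

section fin

variable {K : Type u} [Field K] [Fintype K] {m : ℕ} {G : Type v} [Group G] [Finite G]
  {L : Subgroup G} {ε : Sy K m →* G}

/-- the join with the cycle of `PO_m(K₀)` -/
theorem finish (h2 : (2 : K) ≠ 0) (hm : 3 ≤ m) (hTX : StmtTX.{u, v, w}) (𝕜 : Type w) [Field 𝕜]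
    (g : GU K m) {k k' : Matrix (Fin 2) (Fin 2) K} (h1 : k * k' = 1) (h1' : k' * k = 1)
    (hL : PSpHom m L (ε.comp (cS (sim_gk g h1 h1')))) {K₀ : Type u} [Field K₀] [Fintype K₀]
    (h20 : (2 : K₀) ≠ 0) (h7 : 7 ≤ Nat.card K₀) (f : K₀ →+* K) {M₂ F₂ H : Subgroup G} {a b : S2 K}
    (hab : QP a b) (hF : QG ((ε.comp (cS (sim_gk g h1 h1'))).comp hS) a b ≤ F₂)
    (h₂ : ∃ α φ, TopCycle 𝕜 2 M₂ F₂ α φ)
    (hcomm : ∀ x ∈ (iO (ε.comp (cS (sim_gk g h1 h1'))) f).range, ∀ y ∈ M₂, x * y = y * x)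
    (hinf : ∀ x ∈ (iO (ε.comp (cS (sim_gk g h1 h1'))) f).range, x ∈ M₂ → x = 1)
    (hH : (iO (ε.comp (cS (sim_gk g h1 h1'))) f).range ≤ H) (hH₂ : M₂ ≤ H) :
    ∃ E' : Subgroup G, E' ≤ (iO (ε.comp (cS (sim_gk g h1 h1'))) f).range ⊔ M₂ ∧ E' ∈ ApS 2 G ∧
      (∃ A ∈ FamS ε, A ≤ E') ∧ F₂ ≤ E' ∧ Nat.card E' = 2 ^ (m - 1) * Nat.card F₂ ∧
      ∃ α φ, TopCycle 𝕜 2 H E' α φ := by
  set ε' := ε.comp (cS (sim_gk g h1 h1')) with hε'
  obtain ⟨α₂, φ₂, h₂⟩ := h₂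
  obtain ⟨hc, hT⟩ := hTX K₀ h20 h7 m (by omega) G (iO ε' f) (ker_iO f hL (by omega))
  obtain ⟨w, hw, α₁, φ₁, h₁⟩ := hT 𝕜
  have : Fact (Nat.Prime 2) := ⟨Nat.prime_two⟩
  have hF₁ := topCycle_le h₁
  have hF₂ := topCycle_le h₂
  have hdis : De (fun u => iO ε' f (eU (-1) (sm u))) w ⊓ M₂ = ⊥ := by
    rw [eq_bot_iff]
    rintro x ⟨hx, hy⟩
    exact mem_bot.2 (hinf x (hF₁ hx) hy)
  obtain ⟨α, φ, h⟩ := topCycle_join h₁ h₂ hcomm hdis
  have hfam : De (fun u => iO ε' f (eU (-1) (sm u))) w ⊔ QG (ε'.comp hS) a b ∈ FamS ε :=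
    fam_conj ε g h1 h1' f hw hab
  have hne : De (fun u => iO ε' f (eU (-1) (sm u))) w ⊔ F₂ ≠ ⊥ := by
    intro hb
    have h5 : QG (ε'.comp hS) a b ≤ ⊥ := hb ▸ (hF.trans le_sup_right)
    exact (QG_ApS h2 (ker_hS hL (by omega)) hab).1 (le_bot_iff.1 h5)
  refine ⟨De (fun u => iO ε' f (eU (-1) (sm u))) w ⊔ F₂, sup_le_sup hF₁ hF₂, topCycle_mem h hne,
    ⟨_, hfam, sup_le_sup_left hF _⟩, le_sup_right, ?_, α, φ, topCycle_mono h (sup_le hH hH₂)⟩
  rw [card_sup_eq (fun x hx y hy => hcomm x (hF₁ hx) y (hF₂ hy)), hc w hw]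
  rw [eq_bot_iff, ← hdis]
  exact inf_le_inf_left _ hF₂

end fin

end

end Vale.Agent.P240.R2.H715
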