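import Vale.Agent.P240.R2.H715.SpG
import Vale.Agent.P240.R2.H112.S12
import Vale.Agent.P240.R2.H112.SA
import Vale.Agent.P240.R2.H43.S4
import Vale.Agent.P240.R2.H613.SQ
import Vale.Agent.P240.R2.H281.TX
import Vale.Agent.P240.R2.H698.TY3
import Vale.Agent.P240.R2.H986.TY2
import Vale.Agent.P240.R2.H164.TY1

/-!
P240, symplectic groups: the final theorem.
-/

set_option autoImplicit false

namespace Vale.Agent.P240.R2.H715

open Matrix Subgroup Vale.Agent.P240.R2.AS Vale.Agent.P240.K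
open Vale.Agent.P240.R2.H487 (LocTopF)
open scoped Classical

universe u v w

attribute [local instance] ts

theorem stmtS1 : StmtS1.{u} := fun K _ _ m hm s σ h => H112.stmtS1' K m hm s σ h

theorem stmtS2 : StmtS2.{u} := fun K _ _ m hm g h c hc => H112.stmtS2' K m hm g h c hc

theorem stmtS4 : StmtS4.{u} := H43.stmtS4

theorem stmtTY3 : StmtTY3.{u, v, w} := H698.stmtTY3_of H613.stmtSQ

/-- **The symplectic groups.** -/
theorem stmtSp : StmtSp.{u, v, w} :=
  stmtSp_of stmtS1 stmtS2 H613.stmtSQ stmtS4 H281.stmtTX H164.TY1.stmtTY1 H986.TY.stmtTY2 stmtTY3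

section

variable {K : Type u} [Field K] [Fintype K] {m : ℕ} {G : Type v} [Group G]

/-- conjugation by an element of the normalizer -/
def cjN {L : Subgroup G} {x : G} (hx : x ∈ normalizer (L : Set G)) : MulAut L where
  toFun y := ⟨x * y * x⁻¹, (mem_normalizer_iff.1 hx y).1 y.2⟩
  invFun y := ⟨x⁻¹ * y * x, by
    have h := (mem_normalizer_iff.1 (inv_mem hx) y).1 y.2
    rwa [inv_inv] at h⟩
  left_inv y := Subtype.ext (by simp [mul_assoc])
  right_inv y := Subtype.ext (by simp [mul_assoc])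
  map_mul' y z := Subtype.ext (by simp [mul_assoc])

lemma center_scalar (hm : 1 ≤ m) {g : Sy K m} :
    g ∈ center (Sy K m) ↔ ∃ c : K, g.1 = c • (1 : Matrix (Fin m ⊕ Fin m) (Fin m ⊕ Fin m) K) := by
  constructor
  · intro hg
    refine (stmtS1 K m hm g (RingEquiv.refl K) fun h => ⟨1, ?_⟩).2
    rw [one_smul]
    have h1 : h.1.map (RingEquiv.refl K) = h.1 := by
      ext i j
      rfl
    rw [h1]
    exact congrArg Subtype.val ((mem_center_iff.1 hg h).symm)
  · rintro ⟨c, hc⟩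
    rw [mem_center_iff]
    intro h
    apply Subtype.ext
    show h.1 * g.1 = g.1 * h.1
    rw [hc, Matrix.mul_smul, Matrix.smul_mul, Matrix.one_mul, Matrix.mul_one]

theorem exists_pspHom (h2 : (2 : K) ≠ 0) (hm : 2 ≤ m) (L : Subgroup G)
    (e : (Sy K m ⧸ center (Sy K m)) ≃* L) : ∃ ε : Sy K m →* G, PSpHom m L ε := by
  refine ⟨L.subtype.comp (e.toMonoidHom.comp (QuotientGroup.mk' _)), ?_, ?_, ?_⟩
  · ext y
    constructor
    · rintro ⟨z, rfl⟩
      exact (e (QuotientGroup.mk' _ z)).2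
    · intro hy
      obtain ⟨z, hz⟩ := QuotientGroup.mk'_surjective _ (e.symm ⟨y, hy⟩)
      refine ⟨z, ?_⟩
      show (e (QuotientGroup.mk' _ z) : G) = y
      rw [hz, MulEquiv.apply_symm_apply]
  · intro g
    rw [← center_scalar (by omega : 1 ≤ m)]
    show (e (QuotientGroup.mk' _ g) : G) = 1 ↔ _
    rw [← QuotientGroup.eq_one_iff (N := center (Sy K m)) g]
    constructor
    · intro h
      exact (MulEquiv.map_eq_one_iff e).1 (Subtype.ext h)
    · intro h
      show (e (g : Sy K m ⧸ center (Sy K m)) : G) = 1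
      rw [h, map_one]
      rfl
  · intro x hx _
    obtain ⟨M, μ, σ, hμ, hM, h⟩ := H112.stmtSA' (K := K) (m := m) h2 hm
      ((e.trans (cjN hx)).trans e.symm)
    refine ⟨M, μ, σ, hμ, hM, fun y y' hy => ?_⟩
    have h1 := h y y' hy
    have h3 : cjN hx (e (QuotientGroup.mk y)) = e (QuotientGroup.mk y') := by
      rw [← h1]
      show _ = e (e.symm (cjN hx (e (QuotientGroup.mk y))))
      rw [MulEquiv.apply_symm_apply]
    exact congrArg Subtype.val h3

/-- **The local property of `PSp_{2m}(q)` at the prime `2`**, `m ≥ 3`, `q` odd, `q ≠ 3, 5, 9, 25`. -/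
theorem locTopF_psp [Finite G] (h2 : (2 : K) ≠ 0) (h7 : 7 ≤ Nat.card K) (h9 : Nat.card K ≠ 9)
    (h25 : Nat.card K ≠ 25) (hm : 3 ≤ m) (L : Subgroup G)
    (e : (Matrix.symplecticGroup (Fin m) K ⧸ center (Matrix.symplecticGroup (Fin m) K)) ≃* L)
    (𝕜 : Type w) [Field 𝕜] : LocTopF 𝕜 2 L := by
  obtain ⟨ε, hε⟩ := exists_pspHom h2 (by omega) L e
  exact stmtSp K h2 h7 h9 h25 m hm G L ε hε 𝕜

end

end Vale.Agent.P240.R2.H715
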