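import Vale.Agent.P240.R2.H715.SpF

/-!
P240, symplectic groups: the final theorem, from the modules.
-/

set_option autoImplicit false

namespace Vale.Agent.P240.R2.H715

open Matrix Subgroup Vale.Agent.P240.R2.AS Vale.Agent.P240.K
open Vale.Agent.P240.R2.H487 (LocTopF topCycle_join topCycle_le)
open scoped Classical

universe u v w

attribute [local instance] ts

noncomputable section

variable {K : Type u} [Field K] [Fintype K] {m : ℕ} {G : Type v} [Group G] [Finite G]
  {L : Subgroup G} {ε : Sy K m →* G}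

section aux

omit [Fintype K] [Finite G] in
lemma x_notin [Fintype K] (hS1 : StmtS1.{u}) (hm : 1 ≤ m) (hL : PSpHom m L ε) {x : G}
    {σ : K ≃+* K} (hx : Act ε x σ) (hσ1 : σ ≠ RingEquiv.refl K) : x ∉ L := fun h =>
  hσ1 (act_inner hS1 hm hL hx (inv_mem h) (by rw [inv_mul_cancel]; exact one_mem _)).1

omit [Finite G] [Fintype K] in
lemma mem_j_sup {x : G} {σ : K ≃+* K} (hx : Act ε x σ) (hx2 : x * x = 1) {z : G}
    (hz : z ∈ (ε.comp hS).range ⊔ zpowers x) :
    z ∈ (ε.comp hS).range ∨ ∃ l ∈ (ε.comp hS).range, z = l * x := by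
  have h0 : ∀ y ∈ (ε.comp hS).range, x * y * x⁻¹ ∈ (ε.comp hS).range := by
    rintro _ ⟨h, rfl⟩
    exact ⟨SpecialLinearGroup.map (σ : K →+* K) h, (jS_act hx h _ rfl).symm⟩
  have h1 : zpowers x ≤ normalizer ((ε.comp hS).range : Set G) := by
    rw [zpowers_le, mem_normalizer_iff]
    intro y
    refine ⟨h0 y, fun hy => ?_⟩
    have h3 := h0 _ hy
    have h4 : x * (x * y * x⁻¹) * x⁻¹ = (x * x) * y * (x * x)⁻¹ := by group
    rw [h4, hx2, one_mul, inv_one, mul_one] at h3
    exact h3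
  have h3 : z ∈ (((ε.comp hS).range ⊔ zpowers x : Subgroup G) : Set G) := hz
  rw [coe_mul_of_right_le_normalizer_left _ (zpowers x) h1] at h3
  obtain ⟨l, hl, t, ht, rfl⟩ := h3
  rcases mem_zp hx2 ht with rfl | rfl
  · left
    show l * 1 ∈ (ε.comp hS).range
    rw [mul_one]
    exact hl
  · exact Or.inr ⟨l, hl, rfl⟩

omit [Finite G] in
lemma odd_of {K : Type u} [Field K] [Fintype K] (h2 : (2 : K) ≠ 0) : Nat.card K % 2 = 1 := by
  rw [Nat.card_eq_fintype_card]
  refine FiniteField.odd_card_of_char_ne_two fun h => h2 ?_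
  have : CharP K 2 := h ▸ ringChar.charP K
  exact_mod_cast CharP.cast_eq_zero K 2

lemma card_K0 {K : Type u} [Field K] [Fintype K] (h2 : (2 : K) ≠ 0) (h7 : 7 ≤ Nat.card K)
    (h9 : Nat.card K ≠ 9) (h25 : Nat.card K ≠ 25) {q₀ : ℕ} (h : Nat.card K = q₀ ^ 2) : 7 ≤ q₀ := by
  have h3 := odd_of h2
  by_contra hlt
  push Not at hlt
  interval_cases q₀ <;> omega

lemma two_K0 {K : Type u} [Field K] (h2 : (2 : K) ≠ 0) (σ : K ≃+* K) : (2 : FF σ) ≠ 0 := by
  intro h
  apply h2
  have := congrArg (FixedPoints.subfield (Subgroup.zpowers (σ : RingAut K)) K).subtype h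
  rw [map_zero, map_ofNat] at this
  exact this

omit [Finite G] in
lemma card_zp {x : G} (hx : x * x = 1) (hx1 : x ≠ 1) : Nat.card (zpowers x) = 2 := by
  rw [Nat.card_zpowers]
  exact orderOf_eq_prime (by rw [pow_two]; exact hx) hx1

end aux

omit [Finite G] in
/-- `E` is generated by `A₀`, an element that acts as `σ`, and the centralizer of `L` -/
lemma split (h2 : (2 : K) ≠ 0) (hS1 : StmtS1.{u}) (hS4 : StmtS4.{u}) (hm : 3 ≤ m)
    (hL : PSpHom m L ε) {a b : S2 K} (hab : StdPair a b) {E : Subgroup G} (hE : E ∈ ApS 2 G)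
    (hEN : E ≤ Subgroup.normalizer (L : Set G)) (hA : A0 ε a b ≤ E) {x : G} (hx : x ∈ E) :
    ∃ (σ : K ≃+* K), ∃ y ∈ A0 ε a b, Act ε (y⁻¹ * x) σ ∧ ∀ z, σ (σ z) = z := by
  obtain ⟨σ, s, hs, hact⟩ := key h2 hS4 hm hL hab (hEN hx) (by rw [hE.2.2 x hx]; exact one_mem _)
    (fun y hy => hE.2.1 x hx y (hA hy))
  refine ⟨σ, ε s, hs, hact, act_sq hS1 (by omega) hL hact ?_⟩
  have h1 : (ε s)⁻¹ * x ∈ E := mul_mem (inv_mem (hA hs)) hx
  have h3 := hE.2.2 _ h1
  rw [pow_two] at h3
  rw [h3]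
  exact one_mem _

theorem stmtSp_of (hS1 : StmtS1.{u}) (hS2 : StmtS2.{u}) (hSQ : StmtSQ.{u}) (hS4 : StmtS4.{u})
    (hTX : StmtTX.{u, v, w}) (hTY1 : StmtTY1.{u, v, w}) (hTY2 : StmtTY2.{u, v, w})
    (hTY3 : StmtTY3.{u, v, w}) : StmtSp.{u, v, w} := by
  intro K _ _ h2 h7 h9 h25 m hm G _ _ L ε hL 𝕜 _
  obtain ⟨a, b, hqp, hfix, hconj, hscal⟩ := hSQ K h2
  have hab : StdPair a b := ⟨hqp, hfix, hconj, hscal⟩
  have hstd : ∀ A ∈ FamS ε, ∃ (g : GU K m) (k k' : Matrix (Fin 2) (Fin 2) K) (h1 : k * k' = 1)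
      (h1' : k' * k = 1), A = A0 (ε.comp (cS (sim_gk g h1 h1'))) a b := fun A hA =>
    fam_std ε hA a b hconj
  refine ⟨FamS ε, ⟨_, w0 K m, w0_mem, a, b, hqp, rfl⟩, ?_, ?_⟩
  · intro A hA
    obtain ⟨g, k, k', h1, h1', rfl⟩ := hstd A hA
    exact ⟨A0_le (hL.conj _), A0_ApS h2 (by omega) (hL.conj _) hqp⟩
  intro E hE hEN E₁ hE₁ hAE₁ hE₁C
  obtain ⟨A, hA, hAE₁⟩ := hAE₁
  obtain ⟨g, k, k', h1, h1', rfl⟩ := hstd A hA
  set ε' := ε.comp (cS (sim_gk g h1 h1')) with hε'
  have hL' : PSpHom m L ε' := hL.conj _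
  have hAE : A0 ε' a b ≤ E := hAE₁.trans hE₁
  have hAL : A0 ε' a b ≤ L := A0_le hL'
  have hcardA := A0_card h2 h7 (by omega) hTX hL' hqp
  have hsplit : ∀ x ∈ E, ∃ (σ : K ≃+* K), ∃ y ∈ A0 ε' a b, Act ε' (y⁻¹ * x) σ ∧
      ∀ z, σ (σ z) = z := fun x hx => split h2 hS1 hS4 hm hL' hab hE hEN hAE hx
  have hmem : ∀ {y x : G} {D : Subgroup G}, y ∈ D → y⁻¹ * x ∈ D → x ∈ D := by
    intro y x D hy hx
    have := mul_mem hy hx
    rwa [mul_inv_cancel_left] at this
  have hEC : E ≤ centralizer (E : Set G) := fun x hx =>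
    mem_centralizer_iff.2 fun y hy => hE.2.1 y hy x hx
  have hE₁A : (¬ ∃ x ∈ E₁, ∃ σ : K ≃+* K, σ ≠ RingEquiv.refl K ∧ Act ε' x σ) →
      E₁ = A0 ε' a b := by
    intro hno
    refine le_antisymm (fun z hz => ?_) hAE₁
    obtain ⟨σ, y, hy, hact, -⟩ := hsplit z (hE₁ hz)
    have h3 : y⁻¹ * z ∈ E₁ := mul_mem (inv_mem (hAE₁ hy)) hz
    by_cases hσ : σ = RingEquiv.refl K
    · rw [hσ, act_one_mem hL'] at hact
      have h4 : y⁻¹ * z ∈ E₁ ⊓ centralizer (L : Set G) := ⟨h3, hact⟩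
      rw [hE₁C, mem_bot] at h4
      rw [inv_mul_eq_one.1 h4] at hy
      exact hy
    · exact absurd ⟨_, h3, σ, hσ, hact⟩ hno
  by_cases hex : ∃ x ∈ E, ∃ σ : K ≃+* K, σ ≠ RingEquiv.refl K ∧ Act ε' x σ
  · obtain ⟨x, hxE, σ, hσ1, hx⟩ := hex
    by_cases hex₁ : ∃ x ∈ E₁, ∃ σ : K ≃+* K, σ ≠ RingEquiv.refl K ∧ Act ε' x σ
    · -- the field automorphism is in `E₁`
      clear! x σ
      obtain ⟨x, hxE₁, σ, hσ1, hx⟩ := hex₁
      have hxx : x * x = 1 := by rw [← pow_two]; exact hE.2.2 x (hE₁ hxE₁)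
      have hσ2 := act_sq hS1 (by omega) hL' hx (by rw [hxx]; exact one_mem _)
      obtain ⟨hK, hpow⟩ := fix_two σ hσ1 hσ2
      have hq := card_K0 h2 h7 h9 h25 hK
      let _ : Fintype (FF σ) := Fintype.ofFinite _
      have hxL := x_notin hS1 (by omega) hL' hx hσ1
      set f : FF σ →+* K := (FixedPoints.subfield (Subgroup.zpowers (σ : RingAut K)) K).subtype
        with hf
      have hff : ∀ y, σ (f y) = f y := fun y => mem_FF.1 y.2
      obtain ⟨a₁, b₁, n, hab₁, ht2, hta, htb, hT⟩ := hTY3 K h2 _ (by omega) hK σ hpow G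
        (ε'.comp hS) (ker_hS hL' (by omega)) x (jS_act hx) (by rw [pow_two]; exact hxx)
        (fun h => hxL (jS_le hL' h)) 𝕜
      set t : G := (ε'.comp hS) n * x with ht
      have hnL : (ε'.comp hS) n ∈ L := jS_le hL' ⟨n, rfl⟩
      have htL : t ∉ L := fun h => hxL ((L.mul_mem_cancel_left hnL).1 h)
      have htt : t * t = 1 := by rw [← pow_two]; exact ht2
      have ht1 : t ≠ 1 := fun h => htL (h ▸ one_mem _)
      have hcen : ∀ {y : G}, y ∈ (iO ε' f).range → y * x = x * y := by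
        rintro _ ⟨z, rfl⟩
        have h3 := iO_act f hx hff z
        rw [mul_inv_eq_iff_eq_mul] at h3
        exact h3.symm
      have hM₂c : (ε'.comp hS).range ⊔ zpowers x ≤ centralizer ((iO ε' f).range : Set G) := by
        refine sup_le (fun z hz => mem_centralizer_iff.2 fun y hy => iO_jS_comm f hy hz) ?_
        rw [zpowers_le, mem_centralizer_iff]
        exact fun y hy => hcen hy
      set B : Subgroup G := E ⊓ centralizer (L : Set G) with hB
      have hLB : L ≤ centralizer (B : Set G) := le_centralizer_iff.1 inf_le_right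
      have hxB : x ∈ centralizer (B : Set G) :=
        centralizer_le (show (B : Set G) ⊆ E from fun z hz => hz.1) (hEC (hE₁ hxE₁))
      have hHL : L ⊔ zpowers x ≤ (L ⊔ E₁) ⊓ centralizer (B : Set G) := by
        refine le_inf (sup_le le_sup_left ?_) (sup_le hLB ?_)
        · rw [zpowers_le]
          exact mem_sup_right hxE₁
        · rw [zpowers_le]
          exact hxB
      obtain ⟨E', hE'1, hE'2, hE'3, hE'4, hE'5, hE'6⟩ := finish (ε := ε) h2 hm hTX 𝕜 g h1 h1' hL'
        (two_K0 h2 σ) hq f (M₂ := (ε'.comp hS).range ⊔ zpowers x)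
        (F₂ := QG (ε'.comp hS) a₁ b₁ ⊔ zpowers t)
        (H := (L ⊔ E₁) ⊓ centralizer (B : Set G)) hab₁ le_sup_left hT
        (fun y hy z hz => mem_centralizer_iff.1 (hM₂c hz) y hy)
        (fun y hy hz => by
          rcases mem_j_sup hx hxx hz with h | ⟨l, hl, h⟩
          · exact iO_jS_inf hS2 (by omega) _ hL' hy h
          · exfalso
            apply hxL
            have h3 : y ∈ L := iO_le f hL' hy
            rw [h] at h3
            exact (L.mul_mem_cancel_left (jS_le hL' hl)).1 h3)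
        (((iO_le _ hL').trans le_sup_left).trans hHL)
        ((sup_le_sup_right (jS_le hL') _).trans hHL)
      have hE'L : E' ≤ L ⊔ zpowers x := hE'1.trans (sup_le ((iO_le _ hL').trans le_sup_left)
        (sup_le_sup_right (jS_le hL') _))
      have hE₁e : E₁ = A0 ε' a b ⊔ zpowers x := by
        refine le_antisymm (fun z hz => ?_) (sup_le hAE₁ (by rw [zpowers_le]; exact hxE₁))
        obtain ⟨τ, y, hy, hact, hτ2⟩ := hsplit z (hE₁ hz)
        have h3 : y⁻¹ * z ∈ E₁ := mul_mem (inv_mem (hAE₁ hy)) hz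
        by_cases hτ : τ = RingEquiv.refl K
        · rw [hτ, act_one_mem hL'] at hact
          have h4 : y⁻¹ * z ∈ E₁ ⊓ centralizer (L : Set G) := ⟨h3, hact⟩
          rw [hE₁C, mem_bot] at h4
          rw [inv_mul_eq_one.1 h4] at hy
          exact mem_sup_left hy
        · have hτσ := invo_unique hτ hτ2 hσ1 hσ2
          rw [hτσ] at hact
          have h4 : x⁻¹ * (y⁻¹ * z) ∈ E₁ ⊓ centralizer (L : Set G) :=
            ⟨E₁.mul_mem (E₁.inv_mem hxE₁) h3, act_diff hL' hact hx⟩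
          rw [hE₁C, mem_bot] at h4
          refine hmem (mem_sup_left hy) ?_
          rw [← inv_mul_eq_one.1 h4]
          exact mem_sup_right (mem_zpowers x)
      have hLE₁ : L ⊔ E₁ = L ⊔ zpowers x := by
        rw [hE₁e]
        exact le_antisymm (sup_le le_sup_left (sup_le (hAL.trans le_sup_left) le_sup_right))
          (sup_le le_sup_left (le_sup_right.trans le_sup_right))
      refine ⟨B, inf_le_left, ?_, ?_, le_rfl, E', hE'L.trans hHL, hE'2, hE'3, ?_, ?_, ?_, hE'6⟩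
      · refine le_antisymm (sup_le hE₁ inf_le_left) fun z hz => ?_
        obtain ⟨τ, y, hy, hact, hτ2⟩ := hsplit z hz
        have h3 : y⁻¹ * z ∈ E := mul_mem (inv_mem (hAE hy)) hz
        by_cases hτ : τ = RingEquiv.refl K
        · rw [hτ, act_one_mem hL'] at hact
          exact hmem (mem_sup_left (hAE₁ hy)) (mem_sup_right ⟨h3, hact⟩)
        · have hτσ := invo_unique hτ hτ2 hσ1 hσ2
          rw [hτσ] at hact
          refine hmem (mem_sup_left (hAE₁ hy)) (hmem (mem_sup_left hxE₁) (mem_sup_right ?_))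
          exact ⟨E.mul_mem (E.inv_mem (hE₁ hxE₁)) h3, act_diff hL' hact hx⟩
      · rw [eq_bot_iff, ← hE₁C]
        exact le_inf inf_le_left (inf_le_right.trans inf_le_right)
      · rw [sup_eq_left.2 inf_le_right, eq_bot_iff]
        rintro z ⟨hz, hzC⟩
        rcases mem_L_sup hL' hx hxx (hE'L hz) with h | ⟨l, hl, rfl⟩
        · have h4 : z ∈ L ⊓ centralizer (L : Set G) := ⟨h, hzC⟩
          rwa [L_inf_C hS1 (by omega) hL'] at h4
        · exact absurd (act_inner hS1 (by omega) hL' hx hl hzC).1 hσ1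
      · rw [hLE₁]
        refine le_antisymm (sup_le le_sup_left hE'L) (sup_le le_sup_left ?_)
        rw [zpowers_le]
        have h3 : x = ((ε'.comp hS) n)⁻¹ * t := by rw [ht, inv_mul_cancel_left]
        rw [h3]
        exact mul_mem (mem_sup_left (inv_mem hnL))
          (mem_sup_right (hE'4 (mem_sup_right (mem_zpowers t))))
      · have hQL : QG (ε'.comp hS) a₁ b₁ ≤ L := QG_le.trans (jS_le hL')
        have hcc : ∀ y ∈ QG (ε'.comp hS) a₁ b₁, ∀ z ∈ zpowers t, y * z = z * y := by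
          intro y hy z hz
          rcases mem_zp htt hz with rfl | rfl
          · rw [mul_one, one_mul]
          · have h3 : QG (ε'.comp hS) a₁ b₁ ≤ centralizer ({t} : Set G) := by
              unfold QG
              rw [closure_le]
              rintro _ (rfl | rfl)
              · exact mem_centralizer_singleton_iff.2 hta.symm
              · exact mem_centralizer_singleton_iff.2 htb.symm
            exact mem_centralizer_singleton_iff.1 (h3 hy)
        have hinf : QG (ε'.comp hS) a₁ b₁ ⊓ zpowers t = ⊥ := by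
          rw [eq_bot_iff]
          rintro y ⟨hy, hz⟩
          rcases mem_zp htt hz with rfl | rfl
          · exact one_mem _
          · exact absurd (hQL hy) htL
        rw [hE'5, card_sup_eq hcc hinf, QG_card h2 (ker_hS hL' (by omega)) hab₁, card_zp htt ht1,
          hE₁e]
        have hx1 : x ≠ 1 := fun h => hxL (h ▸ one_mem _)
        have h3 : Nat.card (A0 ε' a b ⊔ zpowers x : Subgroup G) ≤ Nat.card (A0 ε' a b) * 2 := by
          rw [← card_zp hxx hx1]
          refine card_sup_le fun y hy z hz => hE.2.1 y (hAE hy) z ?_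
          have : zpowers x ≤ E := by rw [zpowers_le]; exact hE₁ hxE₁
          exact this hz
        calc _ ≤ Nat.card (A0 ε' a b) * 2 := h3
          _ ≤ (2 ^ (m - 1) * 4) * 2 := Nat.mul_le_mul_right _ hcardA
          _ = _ := by ring
    · -- the field automorphism is not in `E₁`
      have hE₁e := hE₁A hex₁
      have hxx : x * x = 1 := by rw [← pow_two]; exact hE.2.2 x hxE
      have hσ2 := act_sq hS1 (by omega) hL' hx (by rw [hxx]; exact one_mem _)
      obtain ⟨hK, hpow⟩ := fix_two σ hσ1 hσ2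
      have hq := card_K0 h2 h7 h9 h25 hK
      let _ : Fintype (FF σ) := Fintype.ofFinite _
      set f : FF σ →+* K := (FixedPoints.subfield (Subgroup.zpowers (σ : RingAut K)) K).subtype
        with hf
      have hff : ∀ y, σ (f y) = f y := fun y => mem_FF.1 y.2
      obtain ⟨a₁, b₁, hab₁, hT⟩ := hTY2 K h2 _ (by omega) hK σ hpow G
        (ε'.comp hS) (ker_hS hL' (by omega)) x (jS_act hx) 𝕜
      have hcen : ∀ {y : G}, y ∈ (iO ε' f).range → y * x = x * y := by
        rintro _ ⟨z, rfl⟩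
        have h3 := iO_act f hx hff z
        rw [mul_inv_eq_iff_eq_mul] at h3
        exact h3.symm
      set B : Subgroup G := (E ⊓ centralizer (L : Set G)) ⊔ zpowers x with hB
      have hBC : B ≤ centralizer (L : Set G) ⊔ zpowers x := sup_le_sup_right inf_le_right _
      have hHL : L ⊓ centralizer ({x} : Set G) ≤ (L ⊔ E₁) ⊓ centralizer (B : Set G) := by
        refine le_inf (inf_le_left.trans le_sup_left) ?_
        rw [le_centralizer_iff]
        refine sup_le (inf_le_right.trans (centralizer_le fun z hz => hz.1)) ?_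
        rw [zpowers_le, mem_centralizer_iff]
        intro y hy
        exact mem_centralizer_singleton_iff.1 hy.2
      obtain ⟨E', hE'1, hE'2, hE'3, hE'4, hE'5, hE'6⟩ := finish (ε := ε) h2 hm hTX 𝕜 g h1 h1' hL'
        (two_K0 h2 σ) hq f (M₂ := (ε'.comp hS).range ⊓ centralizer {x})
        (F₂ := QG (ε'.comp hS) a₁ b₁)
        (H := (L ⊔ E₁) ⊓ centralizer (B : Set G)) hab₁ le_rfl hT
        (fun y hy z hz => iO_jS_comm f hy hz.1)
        (fun y hy hz => iO_jS_inf hS2 (by omega) _ hL' hy hz.1)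
        ((le_inf (iO_le _ hL') fun y hy => mem_centralizer_singleton_iff.2 (hcen hy)).trans hHL)
        ((inf_le_inf_right _ (jS_le hL')).trans hHL)
      have hE'L : E' ≤ L := hE'1.trans (sup_le (iO_le _ hL') (inf_le_left.trans (jS_le hL')))
      refine ⟨B, sup_le inf_le_left (by rw [zpowers_le]; exact hxE), ?_, ?_, le_sup_left, E', ?_,
        hE'2, hE'3, ?_, ?_, ?_, hE'6⟩
      · refine le_antisymm (sup_le hE₁ (sup_le inf_le_left (by rw [zpowers_le]; exact hxE)))
          fun z hz => ?_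
        obtain ⟨τ, y, hy, hact, hτ2⟩ := hsplit z hz
        have h3 : y⁻¹ * z ∈ E := mul_mem (inv_mem (hAE hy)) hz
        by_cases hτ : τ = RingEquiv.refl K
        · rw [hτ, act_one_mem hL'] at hact
          exact hmem (mem_sup_left (hAE₁ hy)) (mem_sup_right (mem_sup_left ⟨h3, hact⟩))
        · have hτσ := invo_unique hτ hτ2 hσ1 hσ2
          rw [hτσ] at hact
          refine hmem (mem_sup_left (hAE₁ hy)) (hmem (mem_sup_right (mem_sup_right
            (mem_zpowers x))) (mem_sup_right (mem_sup_left ?_)))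
          exact ⟨E.mul_mem (E.inv_mem hxE) h3, act_diff hL' hact hx⟩
      · rw [eq_bot_iff]
        rintro z ⟨hz, hzB⟩
        rw [hE₁e] at hz
        exact eq_one_of_act hS1 (by omega) hL' hx hσ2 hσ1 (hBC hzB) (hAL hz)
      · refine le_inf (hE'L.trans le_sup_left) ?_
        have h3 := topCycle_le hE'6.choose_spec.choose_spec
        exact h3.trans inf_le_right
      · have h3 : centralizer (L : Set G) ⊔ B ≤ centralizer (L : Set G) ⊔ zpowers x :=
          sup_le le_sup_left hBC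
        rw [eq_bot_iff]
        rintro z ⟨hz, hzB⟩
        exact eq_one_of_act hS1 (by omega) hL' hx hσ2 hσ1 (h3 hzB) (hE'L hz)
      · rw [sup_eq_left.2 hE'L, hE₁e, sup_eq_left.2 hAL]
      · rw [hE'5, QG_card h2 (ker_hS hL' (by omega)) hab₁, hE₁e]
        exact hcardA
  · -- no field automorphism
    have hno₁ : ¬ ∃ x ∈ E₁, ∃ σ : K ≃+* K, σ ≠ RingEquiv.refl K ∧ Act ε' x σ := by
      rintro ⟨x, hx, σ, h⟩
      exact hex ⟨x, hE₁ hx, σ, h⟩
    have hE₁e := hE₁A hno₁
    obtain ⟨a₁, b₁, hab₁, hT⟩ := hTY1 K h2 h7 G (ε'.comp hS) (ker_hS hL' (by omega))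
      𝕜
    have hHL : L ≤ (L ⊔ E₁) ⊓ centralizer ((E ⊓ centralizer (L : Set G) : Subgroup G) : Set G) :=
      le_inf le_sup_left (le_centralizer_iff.1 inf_le_right)
    obtain ⟨E', hE'1, hE'2, hE'3, hE'4, hE'5, hE'6⟩ := finish (ε := ε) h2 hm hTX 𝕜 g h1 h1' hL' h2
      h7 (RingHom.id K) (M₂ := (ε'.comp hS).range) (F₂ := QG (ε'.comp hS) a₁ b₁)
      (H := (L ⊔ E₁) ⊓ centralizer ((E ⊓ centralizer (L : Set G) : Subgroup G) : Set G))
      hab₁ le_rfl hT (fun x hx y hy => iO_jS_comm _ hx hy)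
      (fun x hx hy => iO_jS_inf hS2 (by omega) _ hL' hx hy) ((iO_le _ hL').trans hHL)
      ((jS_le hL').trans hHL)
    have hE'L : E' ≤ L := hE'1.trans (sup_le (iO_le _ hL') (jS_le hL'))
    refine ⟨E ⊓ centralizer (L : Set G), inf_le_left, ?_, ?_, le_rfl, E', hE'L.trans hHL, hE'2,
      hE'3, ?_, ?_, ?_, hE'6⟩
    · refine le_antisymm (sup_le hE₁ inf_le_left) fun z hz => ?_
      obtain ⟨σ, y, hy, hact, -⟩ := hsplit z hz
      have h3 : y⁻¹ * z ∈ E := mul_mem (inv_mem (hAE hy)) hz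
      by_cases hσ : σ = RingEquiv.refl K
      · rw [hσ, act_one_mem hL'] at hact
        exact hmem (mem_sup_left (hAE₁ hy)) (mem_sup_right ⟨h3, hact⟩)
      · exact absurd ⟨_, h3, σ, hσ, hact⟩ hex
    · rw [eq_bot_iff, ← hE₁C]
      exact le_inf inf_le_left (inf_le_right.trans inf_le_right)
    · rw [sup_eq_left.2 inf_le_right, eq_bot_iff, ← L_inf_C hS1 (by omega) hL']
      exact inf_le_inf_right _ hE'L
    · rw [sup_eq_left.2 hE'L, hE₁e, sup_eq_left.2 hAL]
    · rw [hE'5, QG_card h2 (ker_hS hL' (by omega)) hab₁, hE₁e]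
      exact hcardA

end

end Vale.Agent.P240.R2.H715
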